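import Mathlib

/-!
S5: Abel summation for telescoping weights on a grid and the comparison of a Riemann sum with an
antiderivative when the derivative is antitone.  Pure real analysis.
-/

namespace Vale.Agent.P358G
open Finset BigOperators

noncomputable section

/-- Telescoping weights on the grid `(n+1) δ`: `Dw f δ L n = f ((n+1)δ) - f ((n+2)δ)` for
`n + 1 < L` and `Dw f δ L (L-1) = f (L δ)`. -/
def Dw (f : ℝ → ℝ) (δ : ℝ) (L n : ℕ) : ℝ :=
  if n + 1 < L then f (((n : ℝ) + 1) * δ) - f (((n : ℝ) + 2) * δ) else f (((n : ℝ) + 1) * δ)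

lemma Dw_nonneg {f : ℝ → ℝ} {δ : ℝ} (hδ : 0 < δ) (hf : AntitoneOn f (Set.Ici δ))
    (hf0 : ∀ x, δ ≤ x → 0 ≤ f x) (L n : ℕ) : 0 ≤ Dw f δ L n := by
  unfold Dw
  have hn : (0 : ℝ) ≤ n := Nat.cast_nonneg n
  have h1 : δ ≤ ((n : ℝ) + 1) * δ := by nlinarith
  have h2 : ((n : ℝ) + 1) * δ ≤ ((n : ℝ) + 2) * δ := by nlinarith
  split_ifs
  · have := hf (Set.mem_Ici.mpr h1) (Set.mem_Ici.mpr (le_trans h1 h2)) h2
    linarith
  · exact hf0 _ h1

/-- Abel summation for the telescoping weights. -/
lemma abel_Dw (f : ℝ → ℝ) (δ : ℝ) (L : ℕ) :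
    ∑ n ∈ range L, Dw f δ L n * (((n : ℝ) + 1) * δ)
      = δ * ∑ n ∈ range L, f (((n : ℝ) + 1) * δ) := by
  induction L with
  | zero => simp
  | succ L ih =>
    have e1 : ∀ n ∈ range L, Dw f δ (L + 1) n
        = Dw f δ L n - (if n + 1 = L then f (((n : ℝ) + 2) * δ) else 0) := by
      intro n hn
      have hn' : n < L := Finset.mem_range.mp hn
      unfold Dw
      by_cases h : n + 1 = L
      · rw [if_pos (by omega : n + 1 < L + 1), if_neg (by omega : ¬ n + 1 < L), if_pos h]
      · rw [if_pos (by omega : n + 1 < L + 1), if_pos (by omega : n + 1 < L), if_neg h]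
        ring
    rw [Finset.sum_range_succ, Finset.sum_range_succ]
    have e2 : Dw f δ (L + 1) L = f (((L : ℝ) + 1) * δ) := by
      unfold Dw
      simp
    rw [e2, mul_add, ← ih]
    have e3 : ∑ n ∈ range L, Dw f δ (L + 1) n * (((n : ℝ) + 1) * δ)
        = ∑ n ∈ range L, Dw f δ L n * (((n : ℝ) + 1) * δ)
          - ∑ n ∈ range L, (if n + 1 = L then f (((n : ℝ) + 2) * δ) else 0)
              * (((n : ℝ) + 1) * δ) := by
      rw [← Finset.sum_sub_distrib]
      refine Finset.sum_congr rfl fun n hn => ?_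
      rw [e1 n hn]
      ring
    rw [e3]
    have e4 : ∑ n ∈ range L, (if n + 1 = L then f (((n : ℝ) + 2) * δ) else 0)
        * (((n : ℝ) + 1) * δ) = f (((L : ℝ) + 1) * δ) * ((L : ℝ) * δ) := by
      cases L with
      | zero => simp
      | succ K =>
        rw [Finset.sum_range_succ]
        have e5 : ∑ n ∈ range K, (if n + 1 = K + 1 then f (((n : ℝ) + 2) * δ) else 0)
            * (((n : ℝ) + 1) * δ) = 0 := by
          refine Finset.sum_eq_zero fun n hn => ?_
          have : n < K := Finset.mem_range.mp hn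
          have h' : ¬ n + 1 = K + 1 := by omega
          rw [if_neg h', zero_mul]
        rw [e5]
        simp only [if_true, zero_add]
        push_cast
        have e6 : (K : ℝ) + 2 = (K : ℝ) + 1 + 1 := by ring
        rw [e6]
    rw [e4]
    ring

/-- Sum of the weights telescopes to the first value. -/
lemma sum_Dw (f : ℝ → ℝ) (δ : ℝ) (L : ℕ) :
    ∑ n ∈ range L, Dw f δ L n = if L = 0 then 0 else f δ := by
  induction L with
  | zero => simp
  | succ L ih =>
    have e1 : ∀ n ∈ range L, Dw f δ (L + 1) n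
        = Dw f δ L n - (if n + 1 = L then f (((n : ℝ) + 2) * δ) else 0) := by
      intro n hn
      have hn' : n < L := Finset.mem_range.mp hn
      unfold Dw
      by_cases h : n + 1 = L
      · rw [if_pos (by omega : n + 1 < L + 1), if_neg (by omega : ¬ n + 1 < L), if_pos h]
      · rw [if_pos (by omega : n + 1 < L + 1), if_pos (by omega : n + 1 < L), if_neg h]
        ring
    rw [Finset.sum_range_succ, Finset.sum_congr rfl e1, Finset.sum_sub_distrib, ih]
    have e2 : Dw f δ (L + 1) L = f (((L : ℝ) + 1) * δ) := by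
      unfold Dw
      simp
    rw [e2]
    cases L with
    | zero => simp
    | succ K =>
      rw [Finset.sum_range_succ]
      have e5 : ∑ n ∈ range K, (if n + 1 = K + 1 then f (((n : ℝ) + 2) * δ) else 0) = 0 := by
        refine Finset.sum_eq_zero fun n hn => ?_
        have : n < K := Finset.mem_range.mp hn
        have h' : ¬ n + 1 = K + 1 := by omega
        rw [if_neg h']
      rw [e5]
      simp
      have e6 : (K : ℝ) + 2 = (K : ℝ) + 1 + 1 := by ring
      rw [e6]
      ring

/-- The Riemann sum of an antitone derivative dominates the increment of the antiderivative. -/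
lemma sub_le_riemann_of_antitone {W Ψ : ℝ → ℝ} {δ : ℝ} (hδ : 0 < δ)
    (hW : ∀ x, δ ≤ x → HasDerivAt W (Ψ x) x) (hΨ : AntitoneOn Ψ (Set.Ici δ)) (L : ℕ) :
    W (((L : ℝ) + 1) * δ) - W δ ≤ δ * ∑ n ∈ range L, Ψ (((n : ℝ) + 1) * δ) := by
  induction L with
  | zero => simp
  | succ L ih =>
    rw [Finset.sum_range_succ, mul_add]
    have hL : (0 : ℝ) ≤ L := Nat.cast_nonneg L
    set x : ℝ := ((L : ℝ) + 1) * δ with hx
    have hxδ : δ ≤ x := by rw [hx]; nlinarith
    have hy : ((((L + 1 : ℕ) : ℝ)) + 1) * δ = x + δ := by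
      rw [hx]; push_cast; ring
    rw [hy]
    have hstep : W (x + δ) - W x ≤ δ * Ψ x := by
      have hc : ContinuousOn W (Set.Icc x (x + δ)) := fun z hz =>
        (hW z (le_trans hxδ hz.1)).continuousAt.continuousWithinAt
      have hd : ∀ z ∈ Set.Ioo x (x + δ), HasDerivAt W (Ψ z) z := fun z hz =>
        hW z (le_trans hxδ hz.1.le)
      obtain ⟨z, hz, hz'⟩ := exists_hasDerivAt_eq_slope W Ψ (by linarith) hc hd
      have h1 : Ψ z ≤ Ψ x := hΨ (Set.mem_Ici.mpr hxδ)
        (Set.mem_Ici.mpr (le_trans hxδ hz.1.le)) hz.1.le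
      have h2 : W (x + δ) - W x = Ψ z * δ := by
        rw [hz']
        have : x + δ - x = δ := by ring
        rw [this]
        field_simp
      rw [h2]
      nlinarith
    linarith

end

end Vale.Agent.P358G
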