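import Mathlib

/-!
The counting lemma (M3): for `H` positive semidefinite, `A` rectangular, `s, v > 0`,
the number of eigenvalues of `A Aᴴ / v - H` above `s` is at most the number of eigenvalues of
`Aᴴ (H + s)⁻¹ A` that are at least `v`.  Elementary: kernel argument and a completed square.
-/

namespace Vale.Agent.P358G
open Matrix Finset BigOperators
open scoped ComplexOrder

noncomputable section

variable {R J : Type*} [Fintype R] [DecidableEq R] [Fintype J] [DecidableEq J]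

lemma cnt_re_star_dot_comm {n : Type*} [Fintype n] (a b : n → ℂ) :
    (star a ⬝ᵥ b).re = (star b ⬝ᵥ a).re := by
  simp only [dotProduct, Complex.re_sum, Pi.star_apply]
  refine Finset.sum_congr rfl fun i _ => ?_
  simp [Complex.mul_re]
  ring

lemma cnt_star_self {n : Type*} [Fintype n] (c : n → ℂ) :
    (star c ⬝ᵥ c).re = ∑ j, ‖c j‖ ^ 2 := by
  simp only [dotProduct, Complex.re_sum, Pi.star_apply]
  refine Finset.sum_congr rfl fun i _ => ?_
  rw [Complex.star_def, Complex.conj_mul']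
  norm_cast

/-- Quadratic form in an eigenbasis. -/
lemma cnt_form {n : Type*} [Fintype n] [DecidableEq n] {M : Matrix n n ℂ} (hM : M.IsHermitian)
    (c : n → ℂ) :
    (star ((hM.eigenvectorUnitary : Matrix n n ℂ) *ᵥ c) ⬝ᵥ
        (M *ᵥ ((hM.eigenvectorUnitary : Matrix n n ℂ) *ᵥ c))).re
      = ∑ j, hM.eigenvalues j * ‖c j‖ ^ 2 := by
  set U := (hM.eigenvectorUnitary : Matrix n n ℂ) with hU
  have hUU : star U * U = 1 := (Matrix.mem_unitaryGroup_iff').1 hM.eigenvectorUnitary.2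
  have hD : star U * M * U = diagonal (fun i => ((hM.eigenvalues i : ℝ) : ℂ)) := by
    have hs : M = U * diagonal (fun i => ((hM.eigenvalues i : ℝ) : ℂ)) * star U := by
      conv_lhs => rw [hM.spectral_theorem]
      rfl
    calc star U * M * U
        = star U * (U * diagonal (fun i => ((hM.eigenvalues i : ℝ) : ℂ)) * star U) * U := by
          rw [← hs]
      _ = (star U * U) * diagonal (fun i => ((hM.eigenvalues i : ℝ) : ℂ)) * (star U * U) := by
          simp only [Matrix.mul_assoc]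
      _ = _ := by rw [hUU, Matrix.one_mul, Matrix.mul_one]
  have h1 : star (U *ᵥ c) ⬝ᵥ (M *ᵥ (U *ᵥ c)) = star c ⬝ᵥ ((star U * M * U) *ᵥ c) := by
    rw [star_mulVec, ← dotProduct_mulVec, mulVec_mulVec, mulVec_mulVec,
      ← Matrix.star_eq_conjTranspose]
  rw [h1, hD]
  simp only [dotProduct, Complex.re_sum, Pi.star_apply, mulVec_diagonal]
  refine Finset.sum_congr rfl fun i _ => ?_
  have : star (c i) * (((hM.eigenvalues i : ℝ) : ℂ) * c i)
      = ((hM.eigenvalues i : ℝ) : ℂ) * (star (c i) * c i) := by ring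
  rw [this, Complex.star_def, Complex.conj_mul']
  norm_cast

/-- The squared norm in a unitary basis. -/
lemma cnt_norm {n : Type*} [Fintype n] [DecidableEq n] {M : Matrix n n ℂ} (hM : M.IsHermitian)
    (c : n → ℂ) :
    (star ((hM.eigenvectorUnitary : Matrix n n ℂ) *ᵥ c) ⬝ᵥ
        ((hM.eigenvectorUnitary : Matrix n n ℂ) *ᵥ c)).re
      = ∑ j, ‖c j‖ ^ 2 := by
  set U := (hM.eigenvectorUnitary : Matrix n n ℂ) with hU
  have hUU : star U * U = 1 := (Matrix.mem_unitaryGroup_iff').1 hM.eigenvectorUnitary.2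
  have h1 : star (U *ᵥ c) ⬝ᵥ (U *ᵥ c) = star c ⬝ᵥ c := by
    rw [star_mulVec, ← dotProduct_mulVec, mulVec_mulVec, ← Matrix.star_eq_conjTranspose, hUU,
      one_mulVec]
  rw [h1, cnt_star_self]

/-- **Counting lemma**. -/
theorem count_le {H : Matrix R R ℂ} (hH : H.PosSemidef) (A : Matrix R J ℂ) {s v : ℝ}
    (hs : 0 < s) (hv : 0 < v) {X : Matrix R R ℂ} (hX : X.IsHermitian)
    (hXdef : X = ((v : ℂ)⁻¹) • (A * Aᴴ) - H) {P : Matrix J J ℂ} (hP : P.IsHermitian)
    (hPdef : P = Aᴴ * (H + (s : ℂ) • (1 : Matrix R R ℂ))⁻¹ * A) :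
    (Finset.univ.filter fun j => s < hX.eigenvalues j).card
      ≤ (Finset.univ.filter fun r => v ≤ hP.eigenvalues r).card := by
  classical
  by_contra hcon
  push Not at hcon
  -- the block matrix of the kernel problem
  set UX := (hX.eigenvectorUnitary : Matrix R R ℂ) with hUX
  set UP := (hP.eigenvectorUnitary : Matrix J J ℂ) with hUP
  let S := {j // s < hX.eigenvalues j}
  let S' := {r // v ≤ hP.eigenvalues r}
  have hcS : Fintype.card S = (Finset.univ.filter fun j => s < hX.eigenvalues j).card :=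
    Fintype.card_subtype _
  have hcS' : Fintype.card S' = (Finset.univ.filter fun r => v ≤ hP.eigenvalues r).card :=
    Fintype.card_subtype _
  let M : Matrix S' S ℂ := (star UP * Aᴴ * UX).submatrix Subtype.val Subtype.val
  have hker : LinearMap.ker M.mulVecLin ≠ ⊥ := by
    apply LinearMap.ker_ne_bot_of_finrank_lt
    rw [Module.finrank_fintype_fun_eq_card, Module.finrank_fintype_fun_eq_card, hcS, hcS']
    exact hcon
  obtain ⟨c, hc, hc0⟩ := (Submodule.ne_bot_iff _).1 hker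
  have hMc : M *ᵥ c = 0 := by simpa using hc
  -- extension by zero
  let c' : R → ℂ := fun j => if h : s < hX.eigenvalues j then c ⟨j, h⟩ else 0
  have hc'ne : ∃ j, c' j ≠ 0 := by
    by_contra hall
    push Not at hall
    apply hc0
    funext j
    have := hall j.1
    simp only [c', dif_pos j.2] at this
    simpa using this
  set W : R → ℂ := UX *ᵥ c' with hW
  set x : J → ℂ := Aᴴ *ᵥ W with hx
  set y : J → ℂ := star UP *ᵥ x with hy
  -- orthogonality
  have hy0 : ∀ r, v ≤ hP.eigenvalues r → y r = 0 := by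
    intro r hr
    have h1 := congrFun hMc ⟨r, hr⟩
    have h2 : y r = ∑ j, (star UP * Aᴴ * UX) r j * c' j := by
      have : y = (star UP * Aᴴ * UX) *ᵥ c' := by
        simp only [hy, hx, hW, mulVec_mulVec, Matrix.mul_assoc]
      rw [this]
      rfl
    have h3 : ∑ j, (star UP * Aᴴ * UX) r j * c' j
        = ∑ j : S, (star UP * Aᴴ * UX) r j.1 * c j := by
      have h4 : ∀ j, (star UP * Aᴴ * UX) r j * c' j
          = if h : s < hX.eigenvalues j then (star UP * Aᴴ * UX) r j * c ⟨j, h⟩ else 0 := by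
        intro j
        by_cases h : s < hX.eigenvalues j
        · simp [c', h]
        · simp [c', h]
      simp only [h4]
      rw [← Finset.sum_filter_add_sum_filter_not Finset.univ (fun j => s < hX.eigenvalues j)]
      have h5 : ∑ j ∈ Finset.univ.filter (fun j => ¬ s < hX.eigenvalues j),
          (if h : s < hX.eigenvalues j then (star UP * Aᴴ * UX) r j * c ⟨j, h⟩ else 0) = 0 := by
        refine Finset.sum_eq_zero fun j hj => ?_
        simp only [Finset.mem_filter, Finset.mem_univ, true_and] at hj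
        simp [hj]
      rw [h5, add_zero]
      refine Finset.sum_bij' (fun j hj => ⟨j, (Finset.mem_filter.1 hj).2⟩) (fun j _ => j.1)
        (fun _ _ => Finset.mem_univ _) (fun j _ => Finset.mem_filter.2 ⟨Finset.mem_univ _, j.2⟩)
        (fun _ _ => rfl) (fun _ _ => rfl) ?_
      intro j hj
      simp [(Finset.mem_filter.1 hj).2]
    rw [h2, h3]
    exact h1
  -- x in the eigenbasis of P
  have hxy : x = UP *ᵥ y := by
    have hUU : UP * star UP = 1 := (Matrix.mem_unitaryGroup_iff).1 hP.eigenvectorUnitary.2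
    rw [hy, mulVec_mulVec, hUU, one_mulVec]
  have hPform : (star x ⬝ᵥ (P *ᵥ x)).re = ∑ r, hP.eigenvalues r * ‖y r‖ ^ 2 := by
    rw [hxy]; exact cnt_form hP y
  have hxnorm : (star x ⬝ᵥ x).re = ∑ r, ‖y r‖ ^ 2 := by
    rw [hxy]; exact cnt_norm hP y
  have hPle : (star x ⬝ᵥ (P *ᵥ x)).re ≤ v * (star x ⬝ᵥ x).re := by
    rw [hPform, hxnorm, Finset.mul_sum]
    refine Finset.sum_le_sum fun r _ => ?_
    by_cases hr : v ≤ hP.eigenvalues r
    · rw [hy0 r hr]; simp
    · push Not at hr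
      exact mul_le_mul_of_nonneg_right hr.le (by positivity)
  -- strict positivity on the eigenspace of X
  have hWform : (star W ⬝ᵥ (X *ᵥ W)).re = ∑ j, hX.eigenvalues j * ‖c' j‖ ^ 2 := cnt_form hX c'
  have hWnorm : (star W ⬝ᵥ W).re = ∑ j, ‖c' j‖ ^ 2 := cnt_norm hX c'
  have hpos : s * (star W ⬝ᵥ W).re < (star W ⬝ᵥ (X *ᵥ W)).re := by
    rw [hWform, hWnorm, Finset.mul_sum]
    obtain ⟨j0, hj0⟩ := hc'ne
    refine Finset.sum_lt_sum (fun j _ => ?_) ⟨j0, Finset.mem_univ _, ?_⟩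
    · by_cases h : s < hX.eigenvalues j
      · exact mul_le_mul_of_nonneg_right h.le (by positivity)
      · have : c' j = 0 := by simp [c', h]
        simp [this]
    · have h : s < hX.eigenvalues j0 := by
        by_contra h
        exact hj0 (by simp [c', h])
      have : 0 < ‖c' j0‖ ^ 2 := by positivity
      exact mul_lt_mul_of_pos_right h this
  -- the matrix B
  set B : Matrix R R ℂ := H + (s : ℂ) • (1 : Matrix R R ℂ) with hB
  have hBpos : B.PosDef := by
    have h1 : ((s : ℂ) • (1 : Matrix R R ℂ)).PosDef :=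
      Matrix.PosDef.one.smul (by exact_mod_cast hs)
    rw [hB, add_comm H]
    exact h1.add_posSemidef hH
  have hBh : B.IsHermitian := hBpos.isHermitian
  have hBunit : IsUnit B.det := (Matrix.isUnit_iff_isUnit_det _).mp hBpos.isUnit
  have hBB : B * B⁻¹ = 1 := Matrix.mul_nonsing_inv _ hBunit
  have hBi : (B⁻¹)ᴴ = B⁻¹ := by
    rw [conjTranspose_nonsing_inv, hBh.eq]
  set z : R → ℂ := A *ᵥ x with hz
  set b : R → ℂ := B⁻¹ *ᵥ z with hb
  have hBb : B *ᵥ b = z := by
    rw [hb, mulVec_mulVec, hBB, one_mulVec]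
  -- expansions
  have e1 : star W ⬝ᵥ z = star x ⬝ᵥ x := by
    have h0 : star x = star W ᵥ* A := by
      rw [hx, star_mulVec, conjTranspose_conjTranspose]
    rw [hz, dotProduct_mulVec, h0]
  have e2 : (star b ⬝ᵥ (B *ᵥ W)).re = (star W ⬝ᵥ z).re := by
    have : star b ⬝ᵥ (B *ᵥ W) = star z ⬝ᵥ W := by
      have h0 : star (B *ᵥ b) = star b ᵥ* B := by rw [star_mulVec, hBh.eq]
      rw [dotProduct_mulVec, ← h0, hBb]
    rw [this, cnt_re_star_dot_comm]
  have e3 : (star b ⬝ᵥ z).re = (star x ⬝ᵥ (P *ᵥ x)).re := by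
    rw [cnt_re_star_dot_comm, hb, hPdef, ← mulVec_mulVec, ← mulVec_mulVec, ← hz,
      star_mulVec, hz, star_mulVec, ← dotProduct_mulVec]
  have e4 : (star b ⬝ᵥ (B *ᵥ b)).re = (star b ⬝ᵥ z).re := by rw [hBb]
  -- the completed square
  set w' : R → ℂ := W - ((v : ℂ)⁻¹) • b with hw'
  have hsq : 0 ≤ (star w' ⬝ᵥ (B *ᵥ w')).re := by
    have := hBpos.posSemidef.dotProduct_mulVec_nonneg w'
    exact (Complex.le_def.1 this).1
  have hexp : (star w' ⬝ᵥ (B *ᵥ w')).re
      = (star W ⬝ᵥ (B *ᵥ W)).re - v⁻¹ * (star W ⬝ᵥ z).re - v⁻¹ * (star b ⬝ᵥ (B *ᵥ W)).re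
        + v⁻¹ * v⁻¹ * (star b ⬝ᵥ z).re := by
    have h0 : star w' = star W - ((v : ℂ)⁻¹) • star b := by
      rw [hw', star_sub, star_smul]
      simp
    have h1 : B *ᵥ w' = B *ᵥ W - ((v : ℂ)⁻¹) • z := by
      rw [hw', mulVec_sub, mulVec_smul, hBb]
    have hr : ∀ w : ℂ, (((v : ℂ)⁻¹) * w).re = v⁻¹ * w.re := by
      intro w
      rw [← Complex.ofReal_inv, Complex.re_ofReal_mul]
    rw [h0, h1]
    simp only [sub_dotProduct, dotProduct_sub, smul_dotProduct, dotProduct_smul, smul_eq_mul,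
      Complex.sub_re, hr]
    ring
  -- the form of B and of X
  have hBW : (star W ⬝ᵥ (B *ᵥ W)).re = (star W ⬝ᵥ (H *ᵥ W)).re + s * (star W ⬝ᵥ W).re := by
    rw [hB, add_mulVec, dotProduct_add, Complex.add_re, smul_mulVec, one_mulVec, dotProduct_smul,
      smul_eq_mul, Complex.re_ofReal_mul]
  have hXW : (star W ⬝ᵥ (X *ᵥ W)).re
      = v⁻¹ * (star x ⬝ᵥ x).re - (star W ⬝ᵥ (H *ᵥ W)).re := by
    have h1 : star W ⬝ᵥ ((A * Aᴴ) *ᵥ W) = star W ⬝ᵥ z := by
      rw [hz, hx]
      exact congrArg _ (mulVec_mulVec W A Aᴴ).symm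
    rw [hXdef, sub_mulVec, dotProduct_sub, Complex.sub_re, smul_mulVec, dotProduct_smul,
      smul_eq_mul, h1, e1, ← Complex.ofReal_inv, Complex.re_ofReal_mul]
  -- conclusion
  have hP2 : v⁻¹ * v⁻¹ * (star x ⬝ᵥ (P *ᵥ x)).re ≤ v⁻¹ * (star x ⬝ᵥ x).re := by
    have hv' : 0 < v⁻¹ := inv_pos.2 hv
    have := mul_le_mul_of_nonneg_left hPle (by positivity : 0 ≤ v⁻¹ * v⁻¹)
    calc v⁻¹ * v⁻¹ * (star x ⬝ᵥ (P *ᵥ x)).re
        ≤ v⁻¹ * v⁻¹ * (v * (star x ⬝ᵥ x).re) := this
      _ = v⁻¹ * (star x ⬝ᵥ x).re := by field_simp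
  rw [hexp, e2, e3, e1] at hsq
  rw [hXW] at hpos
  rw [hBW] at hsq
  linarith

end

end Vale.Agent.P358G
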