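import Mathlib
import Vale.Agent.P358A.SchurFac

/-!
Schur and Sylvester steps (M1, M2 of the P358G plan): for positive semidefinite `H, G`, rectangular
`A, C` and `s > 0`, with `P = Aᴴ (s + H)⁻¹ A`, `Q = Cᴴ (s + G)⁻¹ C`, the sum of `log (1 + eig T / s)`
for the tree matrix `T` splits as the sums for `H`, `G` and `log det (1 + P + Q)`; and
`log det (1 + κ Q)` is the difference of the sums for `G + κ C Cᴴ` and for `G`.
-/

namespace Vale.Agent.P358G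
open Matrix Finset BigOperators Vale.Agent.P358A
open scoped ComplexOrder

noncomputable section

variable {R J : Type*} [Fintype R] [DecidableEq R] [Fintype J] [DecidableEq J]

/-- `Aᴴ (s + H)⁻¹ A`. -/
def PP (s : ℝ) (H : Matrix R R ℂ) (A : Matrix R J ℂ) : Matrix J J ℂ :=
  Aᴴ * (H + ((s : ℝ) : ℂ) • (1 : Matrix R R ℂ))⁻¹ * A

lemma PP_psd {H : Matrix R R ℂ} (hH : H.PosSemidef) (A : Matrix R J ℂ) {s : ℝ} (hs : 0 < s) :
    (PP s H A).PosSemidef := by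
  have hD : (H + ((s : ℝ) : ℂ) • (1 : Matrix R R ℂ)).PosDef := posDef_add_smul_one hH hs
  have hI := hD.inv
  unfold PP
  exact hI.posSemidef.conjTranspose_mul_mul_same A

/-- The determinant identity: `det (D + C B) = det D * det (1 + B E C)` if `E` inverts `D`. -/
lemma det_add_mul_eq {ι κ : Type*} [Fintype ι] [DecidableEq ι] [Fintype κ] [DecidableEq κ]
    (D E : Matrix ι ι ℂ) (hDE : D * E = 1) (C : Matrix ι κ ℂ) (B : Matrix κ ι ℂ) :
    (D + C * B).det = D.det * (1 + B * E * C).det := by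
  have h : D + C * B = D * (1 + (E * C) * B) := by
    rw [Matrix.mul_add, Matrix.mul_one, ← Matrix.mul_assoc, ← Matrix.mul_assoc, hDE, Matrix.one_mul]
  rw [h, Matrix.det_mul, Matrix.det_one_add_mul_comm, Matrix.mul_assoc]

variable {H G : Matrix R R ℂ}

lemma inv_D_mul {X : Matrix R R ℂ} (hX : X.PosSemidef) {s : ℝ} (hs : 0 < s) :
    (X + ((s : ℝ) : ℂ) • (1 : Matrix R R ℂ)) * (X + ((s : ℝ) : ℂ) • (1 : Matrix R R ℂ))⁻¹ = 1 := by
  have hD : (X + ((s : ℝ) : ℂ) • (1 : Matrix R R ℂ)).PosDef := posDef_add_smul_one hX hs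
  exact Matrix.mul_nonsing_inv _ ((Matrix.isUnit_iff_isUnit_det _).mp hD.isUnit)

lemma eig_nonneg_of_psd {ι : Type*} [Fintype ι] [DecidableEq ι] {X : Matrix ι ι ℂ}
    (hX : X.PosSemidef) (hX' : X.IsHermitian) (i : ι) : 0 ≤ hX'.eigenvalues i := by
  have := hX.eigenvalues_nonneg i
  simpa using this

/-- Sylvester step `M2`. -/
theorem sylv_log (hG : G.PosSemidef) (C : Matrix R J ℂ) {κ s : ℝ} (hκ : 0 ≤ κ) (hs : 0 < s)
    (hZ : (G + ((κ : ℝ) : ℂ) • (C * Cᴴ)).IsHermitian) (hG' : G.IsHermitian)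
    (hQ : (PP s G C).IsHermitian) :
    ∑ r, Real.log (1 + κ * hQ.eigenvalues r)
      = ∑ i, Real.log (1 + hZ.eigenvalues i / s) - ∑ i, Real.log (1 + hG'.eigenvalues i / s) := by
  have hκc : (0 : ℂ) ≤ ((κ : ℝ) : ℂ) := by exact_mod_cast hκ
  have hZp : (G + ((κ : ℝ) : ℂ) • (C * Cᴴ)).PosSemidef :=
    hG.add ((posSemidef_self_mul_conjTranspose C).smul hκc)
  have hZ0 : ∀ i, 0 ≤ hZ.eigenvalues i := eig_nonneg_of_psd hZp hZ
  have hG0 : ∀ i, 0 ≤ hG'.eigenvalues i := eig_nonneg_of_psd hG hG'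
  have hQ0 : ∀ i, 0 ≤ hQ.eigenvalues i := eig_nonneg_of_psd (PP_psd hG C hs) hQ
  rw [sum_log_eq hZ hZ0 hs, sum_log_eq hG' hG0 hs]
  obtain ⟨hz1, hz2⟩ := det_one_add_pos hZ hZ0 hs
  obtain ⟨hg1, hg2⟩ := det_one_add_pos hG' hG0 hs
  -- the determinant of `1 + κ Q`
  have hdetQ : (1 + ((κ : ℝ) : ℂ) • PP s G C).det
      = ((∏ r, (1 + κ * hQ.eigenvalues r) : ℝ) : ℂ) := det_one_add_smul hQ κ
  have hprodpos : 0 < ∏ r, (1 + κ * hQ.eigenvalues r) :=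
    Finset.prod_pos fun r _ => by have := hQ0 r; positivity
  -- the block identity
  set D := G + ((s : ℝ) : ℂ) • (1 : Matrix R R ℂ) with hD
  have hEq : (G + ((κ : ℝ) : ℂ) • (C * Cᴴ)) + ((s : ℝ) : ℂ) • (1 : Matrix R R ℂ)
      = D + C * (((κ : ℝ) : ℂ) • Cᴴ) := by
    rw [hD, Matrix.mul_smul]
    abel
  have hdet := det_add_mul_eq D D⁻¹ (inv_D_mul hG hs) C (((κ : ℝ) : ℂ) • Cᴴ)
  have hB : (1 + (((κ : ℝ) : ℂ) • Cᴴ) * D⁻¹ * C) = 1 + ((κ : ℝ) : ℂ) • PP s G C := by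
    simp only [PP, Matrix.smul_mul, hD]
  rw [hB, hdetQ, ← hEq, det_add_smul_one _ hs, hD, det_add_smul_one _ hs, hz1, hg1] at hdet
  have hsne : (((s : ℝ) : ℂ) ^ Fintype.card R) ≠ 0 := pow_ne_zero _ (by exact_mod_cast hs.ne')
  have h2 : (((1 + ((1 / s : ℝ) : ℂ) • (G + ((κ : ℝ) : ℂ) • (C * Cᴴ))).det.re : ℝ) : ℂ)
      = (((1 + ((1 / s : ℝ) : ℂ) • G).det.re : ℝ) : ℂ) * ((∏ r, (1 + κ * hQ.eigenvalues r) : ℝ) : ℂ) := by
    apply mul_left_cancel₀ hsne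
    rw [hdet]; ring
  have h3 : (1 + ((1 / s : ℝ) : ℂ) • (G + ((κ : ℝ) : ℂ) • (C * Cᴴ))).det.re
      = (1 + ((1 / s : ℝ) : ℂ) • G).det.re * ∏ r, (1 + κ * hQ.eigenvalues r) := by
    exact_mod_cast h2
  rw [h3, Real.log_mul hg2.ne' hprodpos.ne', Real.log_prod]
  · ring
  · intro r _
    have := hQ0 r
    positivity

/-- The tree matrix. -/
def treeT (H G : Matrix R R ℂ) (A C : Matrix R J ℂ) : Matrix (R ⊕ R) (R ⊕ R) ℂ :=
  fromBlocks (H + A * Aᴴ) (A * Cᴴ) (C * Aᴴ) (G + C * Cᴴ)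

lemma exists_factor {X : Matrix R R ℂ} (hX : X.PosSemidef) :
    ∃ B : Matrix R R ℂ, X = Bᴴ * B := by
  open scoped MatrixOrder Matrix.Norms.L2Operator in
  obtain ⟨B, hB⟩ := CStarAlgebra.nonneg_iff_eq_star_mul_self.mp hX.nonneg
  exact ⟨B, by simpa [star_eq_conjTranspose] using hB⟩

/-- Positivity of the tree matrix. -/
lemma treeT_psd (hH : H.PosSemidef) (hG : G.PosSemidef) (A C : Matrix R J ℂ) :
    (treeT H G A C).PosSemidef := by
  obtain ⟨B1, rfl⟩ := exists_factor hH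
  obtain ⟨B2, rfl⟩ := exists_factor hG
  have h1 : treeT (B1ᴴ * B1) (B2ᴴ * B2) A C
      = (fromBlocks (B1ᴴ * B1) 0 0 (B2ᴴ * B2)) + (Matrix.fromRows A C) * (Matrix.fromRows A C)ᴴ := by
    ext (i | i) (j | j) <;>
      simp [treeT, Matrix.mul_apply, Matrix.conjTranspose_apply]
  rw [h1]
  refine Matrix.PosSemidef.add ?_ (posSemidef_self_mul_conjTranspose _)
  have h2 : (fromBlocks (B1ᴴ * B1) 0 0 (B2ᴴ * B2) : Matrix (R ⊕ R) (R ⊕ R) ℂ)
      = (fromBlocks B1 0 0 B2)ᴴ * (fromBlocks B1 0 0 B2) := by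
    rw [fromBlocks_conjTranspose, fromBlocks_multiply]
    simp
  rw [h2]
  exact posSemidef_conjTranspose_mul_self _

/-- Schur step `M1`. -/
theorem schur_log (hH : H.PosSemidef) (hG : G.PosSemidef) (A C : Matrix R J ℂ) {s : ℝ} (hs : 0 < s)
    (hT : (treeT H G A C).IsHermitian) (hH' : H.IsHermitian) (hG' : G.IsHermitian)
    (hX : (1 + PP s H A + PP s G C).IsHermitian) :
    ∑ i, Real.log (1 + hT.eigenvalues i / s) - ∑ i, Real.log (1 + hH'.eigenvalues i / s)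
        - ∑ i, Real.log (1 + hG'.eigenvalues i / s)
      = ∑ r, Real.log (hX.eigenvalues r) := by
  have hT0 : ∀ i, 0 ≤ hT.eigenvalues i := eig_nonneg_of_psd (treeT_psd hH hG A C) hT
  have hH0 : ∀ i, 0 ≤ hH'.eigenvalues i := eig_nonneg_of_psd hH hH'
  have hG0 : ∀ i, 0 ≤ hG'.eigenvalues i := eig_nonneg_of_psd hG hG'
  rw [sum_log_eq hT hT0 hs, sum_log_eq hH' hH0 hs, sum_log_eq hG' hG0 hs]
  obtain ⟨ht1, ht2⟩ := det_one_add_pos hT hT0 hs
  obtain ⟨hh1, hh2⟩ := det_one_add_pos hH' hH0 hs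
  obtain ⟨hg1, hg2⟩ := det_one_add_pos hG' hG0 hs
  -- positivity of `1 + P + Q`
  have hXpos : (1 + PP s H A + PP s G C).PosDef := by
    have h1 : (1 + PP s H A).PosDef :=
      Matrix.PosDef.add_posSemidef Matrix.PosDef.one (PP_psd hH A hs)
    exact Matrix.PosDef.add_posSemidef h1 (PP_psd hG C hs)
  have hXeig : ∀ r, 0 < hX.eigenvalues r := hXpos.eigenvalues_pos
  have hXdet : (1 + PP s H A + PP s G C).det = ((∏ r, hX.eigenvalues r : ℝ) : ℂ) := by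
    rw [hX.det_eq_prod_eigenvalues]
    push_cast
    rfl
  have hprodpos : 0 < ∏ r, hX.eigenvalues r := Finset.prod_pos fun r _ => hXeig r
  -- block identity
  set DH := H + ((s : ℝ) : ℂ) • (1 : Matrix R R ℂ) with hDH
  set DG := G + ((s : ℝ) : ℂ) • (1 : Matrix R R ℂ) with hDG
  set CC : Matrix (R ⊕ R) J ℂ := Matrix.fromRows A C with hCC
  have hDE : (fromBlocks DH 0 0 DG : Matrix (R ⊕ R) (R ⊕ R) ℂ) * fromBlocks DH⁻¹ 0 0 DG⁻¹ = 1 := by
    rw [fromBlocks_multiply]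
    simp only [Matrix.mul_zero, Matrix.zero_mul, add_zero, zero_add]
    rw [inv_D_mul hH hs, inv_D_mul hG hs]
    exact fromBlocks_one
  have hEq : treeT H G A C + ((s : ℝ) : ℂ) • (1 : Matrix (R ⊕ R) (R ⊕ R) ℂ)
      = fromBlocks DH 0 0 DG + CC * CCᴴ := by
    ext (i | i) (j | j) <;>
      simp [treeT, hCC, hDH, hDG, Matrix.mul_apply, Matrix.conjTranspose_apply, Matrix.one_apply,
        add_assoc, add_comm, add_left_comm]
  have hdet := det_add_mul_eq _ _ hDE CC CCᴴ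
  have hB : CCᴴ * fromBlocks DH⁻¹ 0 0 DG⁻¹ * CC = PP s H A + PP s G C := by
    have e1 : CCᴴ = Matrix.fromCols Aᴴ Cᴴ := by
      ext j (i | i) <;> simp [hCC, Matrix.conjTranspose_apply]
    have hPH : PP s H A = Aᴴ * DH⁻¹ * A := rfl
    have hPG : PP s G C = Cᴴ * DG⁻¹ * C := rfl
    rw [hPH, hPG]
    ext a b
    simp [e1, hCC, Matrix.mul_apply, Fintype.sum_sum_type, Finset.sum_add_distrib,
      add_mul, Finset.sum_mul, Finset.mul_sum]
  have hdD : (fromBlocks DH 0 0 DG : Matrix (R ⊕ R) (R ⊕ R) ℂ).det = DH.det * DG.det := by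
    simp
  rw [hB, hdD] at hdet
  have hXdet' : (1 + (PP s H A + PP s G C)).det = ((∏ r, hX.eigenvalues r : ℝ) : ℂ) := by
    rw [← add_assoc]; exact hXdet
  rw [hXdet', ← hEq, det_add_smul_one _ hs, hDH, hDG, det_add_smul_one _ hs, det_add_smul_one _ hs,
    ht1, hh1, hg1] at hdet
  have hcard : Fintype.card (R ⊕ R) = Fintype.card R + Fintype.card R := by simp
  have hsne : (((s : ℝ) : ℂ) ^ Fintype.card (R ⊕ R)) ≠ 0 := pow_ne_zero _ (by exact_mod_cast hs.ne')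
  have h2 : (((1 + ((1 / s : ℝ) : ℂ) • treeT H G A C).det.re : ℝ) : ℂ)
      = (((1 + ((1 / s : ℝ) : ℂ) • H).det.re : ℝ) : ℂ) * (((1 + ((1 / s : ℝ) : ℂ) • G).det.re : ℝ) : ℂ)
        * ((∏ r, hX.eigenvalues r : ℝ) : ℂ) := by
    apply mul_left_cancel₀ hsne
    rw [hdet, hcard, pow_add]; ring
  have h3 : (1 + ((1 / s : ℝ) : ℂ) • treeT H G A C).det.re
      = (1 + ((1 / s : ℝ) : ℂ) • H).det.re * (1 + ((1 / s : ℝ) : ℂ) • G).det.re
        * ∏ r, hX.eigenvalues r := by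
    exact_mod_cast h2
  rw [h3, Real.log_mul (mul_pos hh2 hg2).ne' hprodpos.ne', Real.log_mul hh2.ne' hg2.ne',
    Real.log_prod (fun r _ => (hXeig r).ne')]
  ring

end

end Vale.Agent.P358G
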