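import Mathlib
import Vale.Agent.P358A.GeneralNu
import Vale.Agent.P358G.SchurSylv

/-!
Reduction of the one-step entropy inequality for the generalized amplitude damping channel, for all
`ν`, to the block inequality `GE` for tree shaped block matrices
`T = [[H + A Aᴴ, A Cᴴ], [C Aᴴ, G + C Cᴴ]]`.
-/

namespace Vale.Agent.P358G
open Matrix Finset BigOperators Vale.Agent.P358A Vale.Agent.P358h5
open scoped ComplexOrder

noncomputable section

section defs

variable {R J : Type*} [Fintype R] [DecidableEq R] [Fintype J] [DecidableEq J]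

/-- The block inequality `GE` at given blocks, in trace one form. -/
def GEAt (H G : Matrix R R ℂ) (A C : Matrix R J ℂ) : Prop :=
  H.trace.re + (A * Aᴴ).trace.re + G.trace.re + (C * Cᴴ).trace.re = 1 →
    Eent (2 * Real.sqrt ((H.trace.re + (A * Aᴴ).trace.re) * (G.trace.re + (C * Cᴴ).trace.re)
        - (A * Aᴴ).trace.re * (C * Cᴴ).trace.re)) +
      Fe H + Fe G + Fe (A * Aᴴ) + Fe (C * Cᴴ) ≤ Su (treeT H G A C)

end defs

section super

variable {κ : Type*} [Fintype κ] [DecidableEq κ]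

lemma psd_smul_real {P : Matrix κ κ ℂ} (hP : P.PosSemidef) {c : ℝ} (hc : 0 ≤ c) :
    (((c : ℝ) : ℂ) • P).PosSemidef := by
  refine hP.smul (a := ((c : ℝ) : ℂ)) ?_
  rw [Complex.le_def]
  simp only [Complex.zero_re, Complex.ofReal_re, Complex.zero_im, Complex.ofReal_im]
  exact ⟨hc, trivial⟩

lemma trace_real {P : Matrix κ κ ℂ} (hP : P.PosSemidef) : P.trace = ((P.trace.re : ℝ) : ℂ) := by
  apply Complex.ext
  · simp
  · have := (Complex.le_def.1 hP.trace_nonneg).2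
    simpa using this.symm

lemma zero_of_trace {P : Matrix κ κ ℂ} (hP : P.PosSemidef) (h : P.trace.re = 0) : P = 0 := by
  apply (hP.trace_eq_zero_iff).1
  rw [trace_real hP, h]
  simp

/-- Superadditivity and homogeneity of `F`. -/
theorem Fe_superadd {P Q : Matrix κ κ ℂ} (hP : P.PosSemidef) (hQ : Q.PosSemidef) {α β : ℝ}
    (hα : 0 ≤ α) (hβ : 0 ≤ β) :
    α * Fe P + β * Fe Q ≤ Fe (((α : ℝ) : ℂ) • P + ((β : ℝ) : ℂ) • Q) := by
  have hp0 : 0 ≤ P.trace.re := (Complex.le_def.1 hP.trace_nonneg).1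
  have hq0 : 0 ≤ Q.trace.re := (Complex.le_def.1 hQ.trace_nonneg).1
  rcases hp0.eq_or_lt with hp | hp
  · have hz := zero_of_trace hP hp.symm
    subst hz
    simp only [smul_zero, zero_add]
    rw [Fe_smul hQ.isHermitian hβ, Fe_zero']
    simp
  rcases hq0.eq_or_lt with hq | hq
  · have hz := zero_of_trace hQ hq.symm
    subst hz
    simp only [smul_zero, add_zero]
    rw [Fe_smul hP.isHermitian hα, Fe_zero']
    simp
  set p := P.trace.re with hpd
  set q := Q.trace.re with hqd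
  obtain ⟨P', hP'⟩ : ∃ P' : Matrix κ κ ℂ, P' = ((p⁻¹ : ℝ) : ℂ) • P := ⟨_, rfl⟩
  obtain ⟨Q', hQ'⟩ : ∃ Q' : Matrix κ κ ℂ, Q' = ((q⁻¹ : ℝ) : ℂ) • Q := ⟨_, rfl⟩
  have hP'psd : P'.PosSemidef := hP' ▸ psd_smul_real hP (inv_pos.2 hp).le
  have hQ'psd : Q'.PosSemidef := hQ' ▸ psd_smul_real hQ (inv_pos.2 hq).le
  have hPb : P = ((p : ℝ) : ℂ) • P' := by
    rw [hP', smul_smul, ← Complex.ofReal_mul, mul_inv_cancel₀ hp.ne']
    simp
  have hQb : Q = ((q : ℝ) : ℂ) • Q' := by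
    rw [hQ', smul_smul, ← Complex.ofReal_mul, mul_inv_cancel₀ hq.ne']
    simp
  have htrP : P'.trace = 1 := by
    rw [hP', Matrix.trace_smul, trace_real hP, ← hpd, smul_eq_mul, ← Complex.ofReal_mul,
      inv_mul_cancel₀ hp.ne']
    simp
  have htrQ : Q'.trace = 1 := by
    rw [hQ', Matrix.trace_smul, trace_real hQ, ← hqd, smul_eq_mul, ← Complex.ofReal_mul,
      inv_mul_cancel₀ hq.ne']
    simp
  have e1 : Fe P = p * Fe P' := by
    conv_lhs => rw [hPb]
    exact Fe_smul hP'psd.isHermitian hp.le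
  have e2 : Fe Q = q * Fe Q' := by
    conv_lhs => rw [hQb]
    exact Fe_smul hQ'psd.isHermitian hq.le
  have hs0 : 0 ≤ α * p + β * q := by positivity
  rcases hs0.eq_or_lt with hs | hs
  · have h1 : α * p = 0 := by nlinarith [mul_nonneg hα hp.le, mul_nonneg hβ hq.le]
    have h2 : β * q = 0 := by nlinarith [mul_nonneg hα hp.le, mul_nonneg hβ hq.le]
    have hα0 : α = 0 := by
      rcases mul_eq_zero.1 h1 with h | h
      · exact h
      · exact absurd h hp.ne'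
    have hβ0 : β = 0 := by
      rcases mul_eq_zero.1 h2 with h | h
      · exact h
      · exact absurd h hq.ne'
    subst hα0
    subst hβ0
    simp [Fe_zero']
  set s := α * p + β * q with hsd
  have ha : 0 ≤ α * p / s := by positivity
  have hb : 0 ≤ β * q / s := by positivity
  have hab : α * p / s + β * q / s = 1 := by
    rw [← add_div]
    exact div_self hs.ne'
  have hc := Fe_concave hP'psd hQ'psd (htrP.trans htrQ.symm) ha hb hab
  have hherm : (((α * p / s : ℝ) : ℂ) • P' + ((β * q / s : ℝ) : ℂ) • Q').IsHermitian :=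
    ((psd_smul_real hP'psd ha).add (psd_smul_real hQ'psd hb)).isHermitian
  have hfac : ((α : ℝ) : ℂ) • P + ((β : ℝ) : ℂ) • Q
      = ((s : ℝ) : ℂ) • (((α * p / s : ℝ) : ℂ) • P' + ((β * q / s : ℝ) : ℂ) • Q') := by
    rw [smul_add, smul_smul, smul_smul, ← Complex.ofReal_mul, ← Complex.ofReal_mul]
    have h1 : s * (α * p / s) = α * p := by field_simp
    have h2 : s * (β * q / s) = β * q := by field_simp
    rw [h1, h2]
    conv_lhs => rw [hPb, hQb]
    rw [smul_smul, smul_smul, ← Complex.ofReal_mul, ← Complex.ofReal_mul]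
  rw [hfac, Fe_smul hherm hs.le, e1, e2]
  have := mul_le_mul_of_nonneg_left hc hs.le
  have e3 : s * (α * p / s * Fe P' + β * q / s * Fe Q') = α * (p * Fe P') + β * (q * Fe Q') := by
    field_simp
  linarith

end super

variable {R : Type*} [Fintype R] [DecidableEq R] {γ ν : ℝ}

/-- The channel in block form. -/
lemma adT_eq_blocks (ρ : Matrix (Fin 2 × R) (Fin 2 × R) ℂ) :
    adT γ ν ρ = Matrix.reindex sumE sumE (fromBlocks
      (((1 - γ * ν : ℝ) : ℂ) • blk ρ 0 0 + ((γ * (1 - ν) : ℝ) : ℂ) • blk ρ 1 1)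
      (((Real.sqrt (1 - γ) : ℝ) : ℂ) • blk ρ 0 1)
      (((Real.sqrt (1 - γ) : ℝ) : ℂ) • blk ρ 1 0)
      (((γ * ν : ℝ) : ℂ) • blk ρ 0 0 + ((1 - γ + γ * ν : ℝ) : ℂ) • blk ρ 1 1)) := by
  obtain ⟨c1, c2, c3, c4, c5, c6, c7, c8, c9, c10, c11, c12, c13, c14, c15, c16⟩ := coef_table γ ν
  ext ⟨a, r⟩ ⟨b, r'⟩
  fin_cases a <;> fin_cases b <;>
    simp [adT, blk, sumE, Matrix.reindex_apply, Fin.sum_univ_two, c1, c2, c3, c4, c5, c6, c7, c8,
      c9, c10, c11, c12, c13, c14, c15, c16]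

lemma trace_adT (ρ : Matrix (Fin 2 × R) (Fin 2 × R) ℂ) : (adT γ ν ρ).trace = ρ.trace := by
  obtain ⟨c1, c2, c3, c4, c5, c6, c7, c8, c9, c10, c11, c12, c13, c14, c15, c16⟩ := coef_table γ ν
  simp only [Matrix.trace, Fintype.sum_prod_type, Fin.sum_univ_two, Matrix.diag, adT,
    Matrix.of_apply, c1, c2, c3, c4, c7, c8, c9, c10]
  rw [← Finset.sum_add_distrib, ← Finset.sum_add_distrib]
  refine Finset.sum_congr rfl fun r _ => ?_
  push_cast
  ring

lemma adT_smul (c : ℂ) (ρ : Matrix (Fin 2 × R) (Fin 2 × R) ℂ) :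
    adT γ ν (c • ρ) = c • adT γ ν ρ := by
  ext x y
  simp only [adT, Matrix.of_apply, Matrix.smul_apply, smul_eq_mul, Finset.mul_sum]
  refine Finset.sum_congr rfl fun a _ => Finset.sum_congr rfl fun b _ => ?_
  ring

/-- A choice of the splitting of `√(1-γ)`. -/
lemma exists_split (h0 : 0 ≤ γ) (h1 : γ ≤ 1) (hν0 : 0 ≤ ν) (hν1 : ν ≤ 1) :
    ∃ x y : ℝ, 0 ≤ x ∧ 0 ≤ y ∧ x * y = 1 - γ ∧ x ≤ 1 - γ * ν ∧ y ≤ 1 - γ + γ * ν := by
  have hγν : 0 ≤ γ * ν := mul_nonneg h0 hν0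
  have hγ1 : 0 ≤ 1 - γ := sub_nonneg.2 h1
  have hγν1 : γ * ν ≤ 1 := by nlinarith
  have hd0 : 0 ≤ 1 - γ + γ * ν := by linarith
  rcases hd0.eq_or_lt with hd | hd
  · have hg : 1 - γ = 0 := by linarith
    refine ⟨0, 0, le_rfl, le_rfl, by simp [hg], by linarith, by linarith⟩
  · refine ⟨(1 - γ) / (1 - γ + γ * ν), 1 - γ + γ * ν, by positivity, hd.le, by field_simp, ?_, le_rfl⟩
    rw [div_le_iff₀ hd]
    nlinarith [mul_nonneg (mul_nonneg h0 h0) (mul_nonneg hν0 (sub_nonneg.2 hν1))]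

lemma smul_mul_conj {J : Type*} [Fintype J] (x y : ℝ) (hx : 0 ≤ x) (hy : 0 ≤ y)
    (A B : Matrix R J ℂ) :
    (((Real.sqrt x : ℝ) : ℂ) • A) * (((Real.sqrt y : ℝ) : ℂ) • B)ᴴ
      = ((Real.sqrt (x * y) : ℝ) : ℂ) • (A * Bᴴ) := by
  simp only [conjTranspose_smul, star_sq, Matrix.smul_mul, Matrix.mul_smul, smul_smul]
  rw [Real.sqrt_mul hx, Complex.ofReal_mul, mul_comm]

/-- Trace one case of the reduction. -/
theorem estar_unit (h0 : 0 ≤ γ) (h1 : γ ≤ 1) (hν0 : 0 ≤ ν) (hν1 : ν ≤ 1)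
    (hGE : ∀ H G : Matrix R R ℂ, H.PosSemidef → G.PosSemidef →
      ∀ A C : Matrix R (Fin 2 × R) ℂ, GEAt H G A C)
    {ρ : Matrix (Fin 2 × R) (Fin 2 × R) ℂ} (hρ : ρ.PosSemidef) (htr : ρ.trace.re = 1) :
    Eent (2 * Real.sqrt (γ * ((1 - γ) * ((blk ρ 1 1).trace.re - ν) ^ 2 + ν * (1 - ν)))) +
      Fe (blk ρ 0 0) + Fe (blk ρ 1 1) ≤ Su (adT γ ν ρ) := by
  obtain ⟨A', B, h00, h11, h01, h10⟩ := exists_rows hρ
  obtain ⟨x, y, hx, hy, hxy, hxa, hyd⟩ := exists_split h0 h1 hν0 hν1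
  have hP : (blk ρ 0 0).PosSemidef := h00 ▸ Matrix.posSemidef_self_mul_conjTranspose A'
  have hQ : (blk ρ 1 1).PosSemidef := h11 ▸ Matrix.posSemidef_self_mul_conjTranspose B
  set P := blk ρ 0 0 with hPd
  set Q := blk ρ 1 1 with hQd
  set H : Matrix R R ℂ := ((1 - γ * ν - x : ℝ) : ℂ) • P + ((γ * (1 - ν) : ℝ) : ℂ) • Q with hH
  set G : Matrix R R ℂ := ((γ * ν : ℝ) : ℂ) • P + ((1 - γ + γ * ν - y : ℝ) : ℂ) • Q with hG
  set A : Matrix R (Fin 2 × R) ℂ := ((Real.sqrt x : ℝ) : ℂ) • A' with hA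
  set C : Matrix R (Fin 2 × R) ℂ := ((Real.sqrt y : ℝ) : ℂ) • B with hC
  have hγν : 0 ≤ γ * ν := mul_nonneg h0 hν0
  have hb0 : 0 ≤ γ * (1 - ν) := mul_nonneg h0 (sub_nonneg.2 hν1)
  have hHpsd : H.PosSemidef :=
    (psd_smul_real hP (sub_nonneg.2 hxa)).add (psd_smul_real hQ hb0)
  have hGpsd : G.PosSemidef :=
    (psd_smul_real hP hγν).add (psd_smul_real hQ (sub_nonneg.2 hyd))
  have hAA : A * Aᴴ = ((x : ℝ) : ℂ) • P := by
    rw [hA, smul_mul_conj x x hx hx, ← h00, Real.sqrt_mul_self hx]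
  have hCC : C * Cᴴ = ((y : ℝ) : ℂ) • Q := by
    rw [hC, smul_mul_conj y y hy hy, ← h11, Real.sqrt_mul_self hy]
  have hAC : A * Cᴴ = ((Real.sqrt (1 - γ) : ℝ) : ℂ) • blk ρ 0 1 := by
    rw [hA, hC, smul_mul_conj x y hx hy, hxy, h01]
  have hCA : C * Aᴴ = ((Real.sqrt (1 - γ) : ℝ) : ℂ) • blk ρ 1 0 := by
    rw [hA, hC, smul_mul_conj y x hy hx, mul_comm y x, hxy, h10]
  have hT : adT γ ν ρ = Matrix.reindex sumE sumE (treeT H G A C) := by
    rw [adT_eq_blocks, treeT, hAA, hCC, hAC, hCA, hH, hG]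
    congr 2
    · rw [add_right_comm, ← add_smul, ← Complex.ofReal_add]
      congr 3
      ring
    · rw [add_assoc, ← add_smul, ← Complex.ofReal_add]
      congr 3
      ring
  have hTherm : (treeT H G A C).IsHermitian := by
    refine Matrix.IsHermitian.fromBlocks ?_ ?_ ?_
    · exact (hHpsd.add (Matrix.posSemidef_self_mul_conjTranspose A)).isHermitian
    · simp [Matrix.conjTranspose_mul]
    · exact (hGpsd.add (Matrix.posSemidef_self_mul_conjTranspose C)).isHermitian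
  rw [hT, Su_reindex _ _ hTherm]
  -- traces
  set p := P.trace.re with hpd
  set q := Q.trace.re with hqd
  have hpq : p + q = 1 := by
    rw [trace_split, Complex.add_re] at htr
    exact htr
  have trH : H.trace.re = (1 - γ * ν - x) * p + γ * (1 - ν) * q := by
    simp [hH, Matrix.trace_add, Matrix.trace_smul, hpd, hqd]
  have trG : G.trace.re = γ * ν * p + (1 - γ + γ * ν - y) * q := by
    simp [hG, Matrix.trace_add, Matrix.trace_smul, hpd, hqd]
  have trA : (A * Aᴴ).trace.re = x * p := by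
    rw [hAA]
    simp [Matrix.trace_smul, hpd]
  have trC : (C * Cᴴ).trace.re = y * q := by
    rw [hCC]
    simp [Matrix.trace_smul, hqd]
  have hsum : H.trace.re + (A * Aᴴ).trace.re + G.trace.re + (C * Cᴴ).trace.re = 1 := by
    rw [trH, trG, trA, trC]
    have : (1 - γ * ν - x) * p + γ * (1 - ν) * q + x * p + (γ * ν * p + (1 - γ + γ * ν - y) * q)
        + y * q = p + q := by ring
    rw [this, hpq]
  have hmain := hGE H G hHpsd hGpsd A C hsum
  have hD : (H.trace.re + (A * Aᴴ).trace.re) * (G.trace.re + (C * Cᴴ).trace.re)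
      - (A * Aᴴ).trace.re * (C * Cᴴ).trace.re
      = γ * ((1 - γ) * (q - ν) ^ 2 + ν * (1 - ν)) := by
    rw [trH, trG, trA, trC]
    have e : ((1 - γ * ν - x) * p + γ * (1 - ν) * q + x * p) *
        (γ * ν * p + (1 - γ + γ * ν - y) * q + y * q) - x * p * (y * q)
        = ((1 - γ * ν) * p + γ * (1 - ν) * q) * (γ * ν * p + (1 - γ + γ * ν) * q)
          - (x * y) * (p * q) := by ring
    rw [e, hxy]
    have hp : p = 1 - q := by linarith
    rw [hp]
    ring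
  rw [hD] at hmain
  have f1 := Fe_superadd hP hQ (sub_nonneg.2 hxa) hb0
  have f2 := Fe_superadd hP hQ hγν (sub_nonneg.2 hyd)
  have f3 : Fe (A * Aᴴ) = x * Fe P := by
    rw [hAA]
    exact Fe_smul hP.isHermitian hx
  have f4 : Fe (C * Cᴴ) = y * Fe Q := by
    rw [hCC]
    exact Fe_smul hQ.isHermitian hy
  rw [f3, f4] at hmain
  have e : (1 - γ * ν - x) * Fe P + γ * (1 - ν) * Fe Q + (γ * ν * Fe P + (1 - γ + γ * ν - y) * Fe Q)
      + x * Fe P + y * Fe Q = Fe P + Fe Q := by ring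
  linarith

/-- The reduction: `GE` implies the one-step inequality for all `ν`. -/
theorem estarF_of_GE (h0 : 0 ≤ γ) (h1 : γ ≤ 1) (hν0 : 0 ≤ ν) (hν1 : ν ≤ 1)
    (hGE : ∀ (R : Type) [Fintype R] [DecidableEq R] (H G : Matrix R R ℂ), H.PosSemidef →
      G.PosSemidef → ∀ A C : Matrix R (Fin 2 × R) ℂ, GEAt H G A C) :
    EStarF γ ν (fun q => Eent (2 * Real.sqrt (γ * ((1 - γ) * (q - ν) ^ 2 + ν * (1 - ν))))) := by
  intro R _ _ ρ hρ
  have hTherm : ∀ {ρ : Matrix (Fin 2 × R) (Fin 2 × R) ℂ}, ρ.PosSemidef → (adT γ ν ρ).IsHermitian := by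
    intro ρ hρ
    obtain ⟨A', B, h00, h11, h01, h10⟩ := exists_rows hρ
    rw [adT_eq_blocks]
    refine isHerm_reindex _ (Matrix.IsHermitian.fromBlocks ?_ ?_ ?_)
    · have hP : (blk ρ 0 0).PosSemidef := h00 ▸ Matrix.posSemidef_self_mul_conjTranspose A'
      have hQ : (blk ρ 1 1).PosSemidef := h11 ▸ Matrix.posSemidef_self_mul_conjTranspose B
      have h2 : 0 ≤ γ * ν := mul_nonneg h0 hν0
      exact ((psd_smul_real hP (by nlinarith)).add
        (psd_smul_real hQ (mul_nonneg h0 (sub_nonneg.2 hν1)))).isHermitian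
    · rw [h01, h10]
      simp [Matrix.conjTranspose_mul]
    · have hP : (blk ρ 0 0).PosSemidef := h00 ▸ Matrix.posSemidef_self_mul_conjTranspose A'
      have hQ : (blk ρ 1 1).PosSemidef := h11 ▸ Matrix.posSemidef_self_mul_conjTranspose B
      have h2 : 0 ≤ γ * ν := mul_nonneg h0 hν0
      exact ((psd_smul_real hP h2).add
        (psd_smul_real hQ (by linarith))).isHermitian
  set w := ρ.trace.re with hw
  have hw0 : 0 ≤ w := (Complex.le_def.1 hρ.trace_nonneg).1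
  rcases hw0.eq_or_lt with hw1 | hw1
  · have hz : ρ = 0 := zero_of_trace hρ hw1.symm
    subst hz
    have hb : ∀ a b : Fin 2, blk (0 : Matrix (Fin 2 × R) (Fin 2 × R) ℂ) a b = 0 := by
      intro a b
      ext r r'
      simp [blk]
    have hc : adT γ ν (0 : Matrix (Fin 2 × R) (Fin 2 × R) ℂ) = 0 := by
      ext x y
      simp [adT]
    rw [hc, hb, hb, Fe_zero', Fe_zero', ← hw1]
    simp [persp]
  · set ρ' : Matrix (Fin 2 × R) (Fin 2 × R) ℂ := ((w⁻¹ : ℝ) : ℂ) • ρ with hρ'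
    have hback : ρ = ((w : ℝ) : ℂ) • ρ' := by
      rw [hρ', smul_smul, ← Complex.ofReal_mul, mul_inv_cancel₀ hw1.ne']
      simp
    have hPSD : ρ'.PosSemidef := psd_smul_real hρ (inv_pos.2 hw1).le
    have htr' : ρ'.trace.re = 1 := by
      rw [hρ', tr_cast', ← hw, inv_mul_cancel₀ hw1.ne']
    have hmain := estar_unit h0 h1 hν0 hν1 (hGE R) hPSD htr'
    have e1 : Fe (blk ρ 0 0) = w * Fe (blk ρ' 0 0) := by
      rw [hback, blk_smul, Fe_smul (blk_herm hPSD 0) hw1.le]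
    have e2 : Fe (blk ρ 1 1) = w * Fe (blk ρ' 1 1) := by
      rw [hback, blk_smul, Fe_smul (blk_herm hPSD 1) hw1.le]
    have e3 : Fe (adT γ ν ρ) = w * Fe (adT γ ν ρ') := by
      rw [hback, adT_smul, Fe_smul (hTherm hPSD) hw1.le]
    have e4 : Fe (adT γ ν ρ') = Su (adT γ ν ρ') := by
      unfold Fe
      rw [trace_adT, htr']
      simp
    have hq : (blk ρ' 1 1).trace.re = (blk ρ 1 1).trace.re / w := by
      rw [hρ', blk_smul, tr_cast'']
      field_simp
    simp only [persp]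
    rw [e1, e2, e3, e4, ← hq]
    have := mul_le_mul_of_nonneg_left hmain hw1.le
    nlinarith [this]

end

end Vale.Agent.P358G
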