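import Mathlib
import Vale.Agent.P358G.Reduce

/-!
The degenerate cases of the block inequality `GE` (`A = 0` or `C = 0`) and the removal of the
auxiliary parameter `κ`: `Fe X ≤ (1 / κ) (Fe (H + κ X) - Fe H)`.
-/

namespace Vale.Agent.P358G
open Matrix Finset BigOperators Vale.Agent.P358A
open scoped ComplexOrder

noncomputable section

variable {κ' : Type*} [Fintype κ'] [DecidableEq κ']

/-- Superadditivity used to remove `κ`. -/
theorem Fe_add_kappa {H X : Matrix κ' κ' ℂ} (hH : H.PosSemidef) (hX : X.PosSemidef) {k : ℝ}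
    (hk : 0 < k) : Fe X ≤ (1 / k) * (Fe (H + ((k : ℝ) : ℂ) • X) - Fe H) := by
  have h := Fe_superadd hH hX (α := 1) (β := k) zero_le_one hk.le
  have e : ((1 : ℝ) : ℂ) • H + ((k : ℝ) : ℂ) • X = H + ((k : ℝ) : ℂ) • X := by simp
  rw [e] at h
  rw [one_mul] at h
  rw [div_mul_eq_mul_div, one_mul, le_div_iff₀ hk]
  linarith

/-- Superadditivity, plain form. -/
theorem Fe_add_ge {X Y : Matrix κ' κ' ℂ} (hX : X.PosSemidef) (hY : Y.PosSemidef) :
    Fe X + Fe Y ≤ Fe (X + Y) := by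
  have h := Fe_superadd hX hY (α := 1) (β := 1) zero_le_one zero_le_one
  simpa using h

lemma Eent_split {p1 p2 : ℝ} (hp1 : 0 ≤ p1) (hp2 : 0 ≤ p2) (hs : p1 + p2 = 1) :
    Eent (2 * Real.sqrt (p1 * p2)) = Real.negMulLog p1 + Real.negMulLog p2 := by
  rw [Eent_eq (mul_nonneg hp1 hp2)]
  have h1 : 1 - 4 * (p1 * p2) = (p1 - p2) ^ 2 := by nlinarith
  unfold xpOf xmOf
  rw [h1, Real.sqrt_sq_eq_abs]
  rcases le_total p2 p1 with h | h
  · rw [abs_of_nonneg (by linarith)]
    have e1 : (1 + (p1 - p2)) / 2 = p1 := by linarith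
    have e2 : (1 - (p1 - p2)) / 2 = p2 := by linarith
    rw [e1, e2]
  · rw [abs_of_nonpos (by linarith)]
    have e1 : (1 + -(p1 - p2)) / 2 = p2 := by linarith
    have e2 : (1 - -(p1 - p2)) / 2 = p1 := by linarith
    rw [e1, e2]
    ring

variable {R J : Type*} [Fintype R] [DecidableEq R] [Fintype J] [DecidableEq J]

lemma trace_re_nn {X : Matrix R R ℂ} (hX : X.PosSemidef) : 0 ≤ X.trace.re :=
  (Complex.le_def.1 hX.trace_nonneg).1

lemma mul_conj_eq_zero {A : Matrix R J ℂ} (h : (A * Aᴴ).trace.re = 0) : A = 0 := by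
  have h1 : (A * Aᴴ).trace = 0 := by
    have h2 := (posSemidef_self_mul_conjTranspose A).trace_nonneg
    have h3 := Complex.nonneg_iff.mp h2
    apply Complex.ext
    · simpa using h
    · simpa using h3.2.symm
  exact Matrix.trace_mul_conjTranspose_self_eq_zero_iff.mp h1

/-- `GE` when `A = 0`. -/
theorem geAt_A_zero {H G : Matrix R R ℂ} (hH : H.PosSemidef) (hG : G.PosSemidef)
    (C : Matrix R J ℂ) : GEAt H G (0 : Matrix R J ℂ) C := by
  intro htr
  have hCC : (C * Cᴴ).PosSemidef := posSemidef_self_mul_conjTranspose C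
  have hX : (G + C * Cᴴ).PosSemidef := hG.add hCC
  have hT : treeT H G (0 : Matrix R J ℂ) C = fromBlocks H 0 0 (G + C * Cᴴ) := by
    simp [treeT]
  rw [hT, Su_fromBlocks hH.isHermitian hX.isHermitian]
  have h0 : ((0 : Matrix R J ℂ) * (0 : Matrix R J ℂ)ᴴ) = 0 := by simp
  rw [h0] at htr ⊢
  simp only [Matrix.trace_zero, Complex.zero_re, add_zero, zero_mul, sub_zero] at htr ⊢
  have hx : (G + C * Cᴴ).trace.re = G.trace.re + (C * Cᴴ).trace.re := by
    simp [Matrix.trace_add]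
  have hs : H.trace.re + (G + C * Cᴴ).trace.re = 1 := by
    rw [hx]
    linarith
  rw [← hx]
  rw [Eent_split (trace_re_nn hH) (trace_re_nn hX) hs]
  have hsa := Fe_add_ge hG hCC
  have hz : Fe (0 : Matrix R R ℂ) = 0 := Fe_zero'
  rw [hz]
  have e1 : Fe H = Su H + H.trace.re * Real.log H.trace.re := rfl
  have e2 : Fe (G + C * Cᴴ) = Su (G + C * Cᴴ) +
      (G + C * Cᴴ).trace.re * Real.log (G + C * Cᴴ).trace.re := rfl
  simp only [Real.negMulLog]
  nlinarith

/-- `GE` when `C = 0`. -/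
theorem geAt_C_zero {H G : Matrix R R ℂ} (hH : H.PosSemidef) (hG : G.PosSemidef)
    (A : Matrix R J ℂ) : GEAt H G A (0 : Matrix R J ℂ) := by
  intro htr
  have hAA : (A * Aᴴ).PosSemidef := posSemidef_self_mul_conjTranspose A
  have hX : (H + A * Aᴴ).PosSemidef := hH.add hAA
  have hT : treeT H G A (0 : Matrix R J ℂ) = fromBlocks (H + A * Aᴴ) 0 0 G := by
    simp [treeT]
  rw [hT, Su_fromBlocks hX.isHermitian hG.isHermitian]
  have h0 : ((0 : Matrix R J ℂ) * (0 : Matrix R J ℂ)ᴴ) = 0 := by simp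
  rw [h0] at htr ⊢
  simp only [Matrix.trace_zero, Complex.zero_re, add_zero, mul_zero, sub_zero] at htr ⊢
  have hx : (H + A * Aᴴ).trace.re = H.trace.re + (A * Aᴴ).trace.re := by
    simp [Matrix.trace_add]
  have hs : (H + A * Aᴴ).trace.re + G.trace.re = 1 := by
    rw [hx]
    linarith
  rw [← hx]
  rw [Eent_split (trace_re_nn hX) (trace_re_nn hG) hs]
  have hsa := Fe_add_ge hH hAA
  have hz : Fe (0 : Matrix R R ℂ) = 0 := Fe_zero'
  rw [hz]
  have e1 : Fe G = Su G + G.trace.re * Real.log G.trace.re := rfl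
  have e2 : Fe (H + A * Aᴴ) = Su (H + A * Aᴴ) +
      (H + A * Aᴴ).trace.re * Real.log (H + A * Aᴴ).trace.re := rfl
  simp only [Real.negMulLog]
  nlinarith

/-- `GE` in the degenerate cases, stated by traces. -/
theorem geAt_of_degenerate {H G : Matrix R R ℂ} (hH : H.PosSemidef) (hG : G.PosSemidef)
    {A C : Matrix R J ℂ} (h : (A * Aᴴ).trace.re = 0 ∨ (C * Cᴴ).trace.re = 0) : GEAt H G A C := by
  rcases h with h | h
  · rw [mul_conj_eq_zero h]
    exact geAt_A_zero hH hG C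
  · rw [mul_conj_eq_zero h]
    exact geAt_C_zero hH hG A

end

end Vale.Agent.P358G
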