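import Mathlib
import Vale.Agent.P358A.Upper
import Vale.Agent.P358A.FinalAD

namespace Vale.Agent.P358G

open Vale.Agent.P358h5 Vale.Agent.P358A Matrix Finset BigOperators
open scoped ComplexOrder ComplexConjugate

noncomputable section

variable {γ ν : ℝ}

/-- The determinant of the output of a pure state with excited population `q`. -/
def DD (γ ν q : ℝ) : ℝ := γ * ((1 - γ) * (q - ν) ^ 2 + ν * (1 - ν))

/-- The minimal output entropy on the latitude `q`, in nats. -/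
def fnu (γ ν q : ℝ) : ℝ := Eent (2 * Real.sqrt (DD γ ν q))

lemma DD_eq (γ ν q : ℝ) :
    DD γ ν q = ((1 - γ) * q + γ * ν) * (1 - ((1 - γ) * q + γ * ν)) - (1 - γ) * (q * (1 - q)) := by
  unfold DD
  ring

lemma DD_nonneg (h0 : 0 ≤ γ) (h1 : γ ≤ 1) (hν0 : 0 ≤ ν) (hν1 : ν ≤ 1) (q : ℝ) : 0 ≤ DD γ ν q := by
  unfold DD
  have h2 : 0 ≤ (1 - γ) * (q - ν) ^ 2 := mul_nonneg (by linarith) (sq_nonneg _)
  have h3 : 0 ≤ ν * (1 - ν) := mul_nonneg hν0 (by linarith)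
  exact mul_nonneg h0 (by linarith)

lemma DD_le (h1 : γ ≤ 1) {q : ℝ} (hq0 : 0 ≤ q) (hq1 : q ≤ 1) : DD γ ν q ≤ 1 / 4 := by
  rw [DD_eq]
  have h2 : 0 ≤ (1 - γ) * (q * (1 - q)) :=
    mul_nonneg (by linarith) (mul_nonneg hq0 (by linarith))
  nlinarith [sq_nonneg ((1 - γ) * q + γ * ν - 1 / 2)]

/-- `Eent` is monotone on `[0,1]`. -/
lemma Eent_mono : MonotoneOn Eent (Set.Icc (0 : ℝ) 1) := by
  intro x hx y hy hxy
  unfold Eent
  have hx2 : x ^ 2 ≤ 1 := by nlinarith [hx.1, hx.2]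
  have hy2 : y ^ 2 ≤ 1 := by nlinarith [hy.1, hy.2]
  have hxy2 : x ^ 2 ≤ y ^ 2 := by nlinarith [hx.1, hx.2]
  have h3 : Real.sqrt (1 - y ^ 2) ≤ Real.sqrt (1 - x ^ 2) := Real.sqrt_le_sqrt (by linarith)
  have h4 : Real.sqrt (1 - x ^ 2) ≤ 1 := by
    rw [Real.sqrt_le_iff]
    constructor <;> nlinarith [sq_nonneg x]
  have hm : ∀ u : ℝ, 0 ≤ u → u ≤ 1 → (1 + u) / 2 ∈ Set.Icc (2⁻¹ : ℝ) 1 := by
    intro u hu0 hu1
    constructor <;> linarith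
  exact Real.binEntropy_strictAntiOn.antitoneOn
    (hm _ (Real.sqrt_nonneg _) (h3.trans h4)) (hm _ (Real.sqrt_nonneg _) h4) (by linarith)


/-- Convexity of the norm of an affine function. -/
lemma sqrt_convex {A B : ℝ} (hA : 0 ≤ A) (hB : 0 ≤ B) (c : ℝ) :
    ConvexOn ℝ Set.univ (fun q : ℝ => Real.sqrt (A * (q - c) ^ 2 + B)) := by
  refine ⟨convex_univ, ?_⟩
  intro x _ y _ a b ha hb hab
  simp only [smul_eq_mul]
  set X := x - c with hX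
  set Y := y - c with hY
  have h1 : 0 ≤ A * X ^ 2 + B := by positivity
  have h2 : 0 ≤ A * Y ^ 2 + B := by positivity
  set P := Real.sqrt (A * X ^ 2 + B) with hP
  set R := Real.sqrt (A * Y ^ 2 + B) with hR
  have hP0 : 0 ≤ P := Real.sqrt_nonneg _
  have hR0 : 0 ≤ R := Real.sqrt_nonneg _
  have hP2 : P ^ 2 = A * X ^ 2 + B := Real.sq_sqrt h1
  have hR2 : R ^ 2 = A * Y ^ 2 + B := Real.sq_sqrt h2
  have hPR : A * (X * Y) + B ≤ P * R := by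
    by_contra hcon
    push Not at hcon
    have h3 : (P * R) ^ 2 < (A * (X * Y) + B) ^ 2 :=
      pow_lt_pow_left₀ hcon (mul_nonneg hP0 hR0) (by norm_num)
    rw [mul_pow, hP2, hR2] at h3
    have h4 : 0 ≤ A * B * (X - Y) ^ 2 := by positivity
    nlinarith
  have e : a * x + b * y - c = a * X + b * Y := by
    have : a = 1 - b := by linarith
    subst this
    simp only [hX, hY]
    ring
  rw [e]
  rw [Real.sqrt_le_iff]
  refine ⟨by positivity, ?_⟩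
  have hab2 : (a + b) ^ 2 = 1 := by rw [hab]; norm_num
  have h5 : 0 ≤ a * b := mul_nonneg ha hb
  have h6 := mul_le_mul_of_nonneg_left hPR h5
  have e2 : (a * P + b * R) ^ 2 = a ^ 2 * P ^ 2 + b ^ 2 * R ^ 2 + 2 * (a * b * (P * R)) := by ring
  rw [e2, hP2, hR2]
  have e3 : B = (a + b) ^ 2 * B := by rw [hab2, one_mul]
  nlinarith [h6]

lemma sqrtDD_eq (q : ℝ) : 2 * Real.sqrt (DD γ ν q) =
    Real.sqrt (4 * (γ * (1 - γ)) * (q - ν) ^ 2 + 4 * (γ * (ν * (1 - ν)))) := by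
  have e : 4 * (γ * (1 - γ)) * (q - ν) ^ 2 + 4 * (γ * (ν * (1 - ν))) = 2 ^ 2 * DD γ ν q := by
    unfold DD
    ring
  rw [e, Real.sqrt_mul (by norm_num), Real.sqrt_sq (by norm_num)]

/-- The concurrence lies in `[0,1]`. -/
lemma conc_mem (h1 : γ ≤ 1) {q : ℝ} (hq0 : 0 ≤ q) (hq1 : q ≤ 1) :
    2 * Real.sqrt (DD γ ν q) ∈ Set.Icc (0 : ℝ) 1 := by
  have h2 := DD_le (ν := ν) h1 hq0 hq1
  have h3 : Real.sqrt (DD γ ν q) ≤ 1 / 2 := by
    rw [Real.sqrt_le_iff]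
    constructor
    · norm_num
    · nlinarith
  exact ⟨by positivity, by linarith⟩

/-- Convexity of the minimal output entropy on latitudes. -/
theorem fnu_convex (h0 : 0 ≤ γ) (h1 : γ ≤ 1) (hν0 : 0 ≤ ν) (hν1 : ν ≤ 1) :
    ConvexOn ℝ (Set.Icc (0 : ℝ) 1) (fnu γ ν) := by
  refine ⟨convex_Icc 0 1, ?_⟩
  intro x hx y hy a b ha hb hab
  simp only [smul_eq_mul]
  have hc := (sqrt_convex (A := 4 * (γ * (1 - γ))) (B := 4 * (γ * (ν * (1 - ν))))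
    (mul_nonneg (by norm_num) (mul_nonneg h0 (by linarith)))
    (mul_nonneg (by norm_num) (mul_nonneg h0 (mul_nonneg hν0 (by linarith)))) ν).2
    (Set.mem_univ x) (Set.mem_univ y) ha hb hab
  simp only [smul_eq_mul, ← sqrtDD_eq] at hc
  have hxm := conc_mem (ν := ν) h1 hx.1 hx.2
  have hym := conc_mem (ν := ν) h1 hy.1 hy.2
  have hz : a * x + b * y ∈ Set.Icc (0 : ℝ) 1 := (convex_Icc (0 : ℝ) 1) hx hy ha hb hab
  have hzm := conc_mem (ν := ν) h1 hz.1 hz.2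
  have hmid := (convex_Icc (0 : ℝ) 1) hxm hym ha hb hab
  simp only [smul_eq_mul] at hmid
  unfold fnu
  calc Eent (2 * Real.sqrt (DD γ ν (a * x + b * y)))
      ≤ Eent (a * (2 * Real.sqrt (DD γ ν x)) + b * (2 * Real.sqrt (DD γ ν y))) :=
        Eent_mono hzm hmid hc
    _ ≤ a * Eent (2 * Real.sqrt (DD γ ν x)) + b * Eent (2 * Real.sqrt (DD γ ν y)) := by
        have := convexOn_Eent.2 hxm hym ha hb hab
        simpa only [smul_eq_mul] using this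

lemma continuous_fnu (γ ν : ℝ) : Continuous (fnu γ ν) := by
  unfold fnu DD
  exact continuous_Eent.comp (by fun_prop)

/-- The single letter objective in bits. -/
def gainNu (γ ν q : ℝ) : ℝ :=
  (Real.binEntropy ((1 - γ) * q + γ * ν) - fnu γ ν q) / Real.log 2

lemma continuous_gainNu (γ ν : ℝ) : Continuous (gainNu γ ν) := by
  unfold gainNu
  refine Continuous.div_const (Continuous.sub ?_ (continuous_fnu γ ν)) _
  exact Real.binEntropy_continuous.comp (by fun_prop)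

lemma gadcN_c1' (X : Matrix (Qb 1) (Qb 1) ℂ) (i j : Fin 2) :
    gadcN γ ν 1 X (c1 i) (c1 j) =
      ∑ a : Fin 2, ∑ b : Fin 2, coef γ ν i j a b * X (c1 a) (c1 b) := by
  simp only [gadcN, Matrix.of_apply, sum_qb1, Fin.sum_univ_two]
  simp only [c1, Fin.prod_univ_one]

lemma gadcN_entries' (X : Matrix (Qb 1) (Qb 1) ℂ) :
    gadcN γ ν 1 X (c1 0) (c1 0) =
      ((1 - γ * ν : ℝ) : ℂ) * X (c1 0) (c1 0) + ((γ * (1 - ν) : ℝ) : ℂ) * X (c1 1) (c1 1) ∧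
    gadcN γ ν 1 X (c1 0) (c1 1) = ((Real.sqrt (1 - γ) : ℝ) : ℂ) * X (c1 0) (c1 1) ∧
    gadcN γ ν 1 X (c1 1) (c1 0) = ((Real.sqrt (1 - γ) : ℝ) : ℂ) * X (c1 1) (c1 0) ∧
    gadcN γ ν 1 X (c1 1) (c1 1) =
      ((γ * ν : ℝ) : ℂ) * X (c1 0) (c1 0) + ((1 - γ + γ * ν : ℝ) : ℂ) * X (c1 1) (c1 1) := by
  obtain ⟨h1, h2, h3, h4, h5, h6, h7, h8, h9, h10, h11, h12, h13, h14, h15, h16⟩ := coef_table γ ν
  refine ⟨?_, ?_, ?_, ?_⟩ <;> rw [gadcN_c1'] <;> simp only [Fin.sum_univ_two] <;>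
    simp only [h1, h2, h3, h4, h5, h6, h7, h8, h9, h10, h11, h12, h13, h14, h15, h16] <;>
    simp

/-- The single letter ensemble attains `h(t) - fnu q` at every latitude. -/
theorem single_letter_nu (h0 : 0 ≤ γ) (h1 : γ ≤ 1) (hν0 : 0 ≤ ν) (hν1 : ν ≤ 1) {q : ℝ}
    (hq0 : 0 ≤ q) (hq1 : q ≤ 1) :
    ∃ (p : Fin 2 → ℝ) (ρ : Fin 2 → Matrix (Qb 1) (Qb 1) ℂ),
      (∀ a, 0 ≤ p a) ∧ ∑ a, p a = 1 ∧ (∀ a, (ρ a).PosSemidef) ∧ (∀ a, (ρ a).trace = 1) ∧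
      holevoN γ ν 1 p ρ = gainNu γ ν q := by
  classical
  set s : Fin 2 → ℝ := fun a => if a = 0 then 1 else -1 with hsdef
  have hs2 : ∀ a, s a ^ 2 = 1 := by
    intro a
    simp only [hsdef]
    split_ifs <;> norm_num
  set ρ : Fin 2 → Matrix (Qb 1) (Qb 1) ℂ := fun a => rhoS q (s a) with hρdef
  have hρ : ∀ a, (ρ a).PosSemidef := fun a => rhoS_psd _ _
  have hρtr : ∀ a, (ρ a).trace = 1 := fun a => rhoS_trace hq0 hq1 (hs2 a)
  refine ⟨fun _ => 1 / 2, ρ, fun _ => by norm_num, by norm_num, hρ, hρtr, ?_⟩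
  set a0 := Real.sqrt (1 - q) with ha0
  set b0 := Real.sqrt q with hb0
  have ha2 : a0 * a0 = 1 - q := Real.mul_self_sqrt (by linarith)
  have hb2 : b0 * b0 = q := Real.mul_self_sqrt hq0
  set r := Real.sqrt (1 - γ) with hr
  have hr2 : r * r = 1 - γ := Real.mul_self_sqrt (by linarith)
  have hT : ∀ a, (gadcN γ ν 1 (ρ a)).PosSemidef := fun a =>
    gadcN_psd h0 h1 hν0 hν1 1 (ρ a) (hρ a)
  set t := (1 - γ) * q + γ * ν with ht
  -- entries of the outputs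
  have hX : ∀ a, ρ a (c1 0) (c1 0) = ((a0 * a0 : ℝ) : ℂ) ∧
      ρ a (c1 0) (c1 1) = ((a0 * (s a * b0) : ℝ) : ℂ) ∧
      ρ a (c1 1) (c1 0) = ((s a * b0 * a0 : ℝ) : ℂ) ∧
      ρ a (c1 1) (c1 1) = ((s a * b0 * (s a * b0) : ℝ) : ℂ) := by
    intro a
    simp only [hρdef, rhoS_apply, psi_c0, psi_c1, Complex.conj_ofReal]
    refine ⟨?_, ?_, ?_, ?_⟩ <;> push_cast <;> ring
  have hsq : ∀ a, s a * b0 * (s a * b0) = q := by
    intro a
    have : s a * b0 * (s a * b0) = s a ^ 2 * (b0 * b0) := by ring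
    rw [this, hs2, hb2, one_mul]
  have hTa : ∀ a,
      gadcN γ ν 1 (ρ a) (c1 0) (c1 0) = ((1 - t : ℝ) : ℂ) ∧
      gadcN γ ν 1 (ρ a) (c1 0) (c1 1) = ((r * (a0 * (s a * b0)) : ℝ) : ℂ) ∧
      gadcN γ ν 1 (ρ a) (c1 1) (c1 0) = ((r * (s a * b0 * a0) : ℝ) : ℂ) ∧
      gadcN γ ν 1 (ρ a) (c1 1) (c1 1) = ((t : ℝ) : ℂ) := by
    intro a
    obtain ⟨e1', e2', e3', e4'⟩ := gadcN_entries' (γ := γ) (ν := ν) (ρ a)
    obtain ⟨x1, x2, x3, x4⟩ := hX a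
    rw [e1', e2', e3', e4', x1, x2, x3, x4, hsq, ha2]
    refine ⟨?_, ?_, ?_, ?_⟩
    · rw [ht]
      push_cast
      ring
    · push_cast
      ring
    · push_cast
      ring
    · rw [ht]
      push_cast
      ring
  have hD0 := DD_nonneg h0 h1 hν0 hν1 q
  have hD1 := DD_le (ν := ν) h1 hq0 hq1
  -- entropy of each output
  have hEnt : ∀ a, ∑ i, Real.negMulLog ((hT a).isHermitian.eigenvalues i) = fnu γ ν q := by
    intro a
    obtain ⟨t1, t2, t3, t4⟩ := hTa a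
    have hC2 : (2 * Real.sqrt (DD γ ν q)) ^ 2 = 4 * DD γ ν q := by
      rw [mul_pow, Real.sq_sqrt hD0]
      norm_num
    have hsr : Real.sqrt (1 - (2 * Real.sqrt (DD γ ν q)) ^ 2) *
        Real.sqrt (1 - (2 * Real.sqrt (DD γ ν q)) ^ 2) = 1 - 4 * DD γ ν q := by
      rw [Real.mul_self_sqrt (by rw [hC2]; linarith), hC2]
    set u := Real.sqrt (1 - (2 * Real.sqrt (DD γ ν q)) ^ 2) with hu
    have hdet : gadcN γ ν 1 (ρ a) (c1 0) (c1 0) * gadcN γ ν 1 (ρ a) (c1 1) (c1 1) -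
        gadcN γ ν 1 (ρ a) (c1 0) (c1 1) * gadcN γ ν 1 (ρ a) (c1 1) (c1 0) =
        ((((1 + u) / 2) * (1 - (1 + u) / 2) : ℝ) : ℂ) := by
      rw [t1, t2, t3, t4, ← Complex.ofReal_mul, ← Complex.ofReal_mul, ← Complex.ofReal_sub]
      congr 1
      have e : r * (a0 * (s a * b0)) * (r * (s a * b0 * a0)) =
          (r * r) * (a0 * a0) * (s a * b0 * (s a * b0)) := by ring
      rw [e, hr2, ha2, hsq]
      have e2 : (1 + u) / 2 * (1 - (1 + u) / 2) = (1 - u * u) / 4 := by ring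
      rw [e2, hsr, DD_eq, ht]
      ring
    have htr : gadcN γ ν 1 (ρ a) (c1 0) (c1 0) + gadcN γ ν 1 (ρ a) (c1 1) (c1 1) = 1 := by
      rw [t1, t4, ← Complex.ofReal_add]
      have : 1 - t + t = 1 := by ring
      rw [this]
      simp
    have := su_two _ (hT a).isHermitian ((1 + u) / 2) htr hdet
    rw [this]
    rfl
  -- the average
  set B : Matrix (Qb 1) (Qb 1) ℂ := ∑ a, (((1 / 2 : ℝ) : ℝ) : ℂ) • gadcN γ ν 1 (ρ a) with hB
  have hBH : B.IsHermitian := by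
    have : B.PosSemidef := Matrix.posSemidef_sum _ fun a _ =>
      (hT a).smul (Complex.zero_le_real.mpr (by norm_num))
    exact this.isHermitian
  have hBe : ∀ x y, B x y = ((1 / 2 : ℝ) : ℂ) * gadcN γ ν 1 (ρ 0) x y +
      ((1 / 2 : ℝ) : ℂ) * gadcN γ ν 1 (ρ 1) x y := by
    intro x y
    simp [hB, Fin.sum_univ_two]
  have hEntB : ∑ i, Real.negMulLog (hBH.eigenvalues i) = Real.binEntropy t := by
    obtain ⟨t1, t2, t3, t4⟩ := hTa 0
    obtain ⟨u1, u2, u3, u4⟩ := hTa 1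
    have hs0 : s 0 = 1 := by simp [hsdef]
    have hs1 : s 1 = -1 := by simp [hsdef]
    rw [hs0] at t2 t3
    rw [hs1] at u2 u3
    refine su_two B hBH _ ?_ ?_
    · rw [hBe, hBe, t1, t4, u1, u4]
      push_cast
      ring
    · rw [hBe, hBe, hBe, hBe, t1, t2, t3, t4, u1, u2, u3, u4]
      push_cast
      ring
  have hgoal : holevoN γ ν 1 (fun _ => 1 / 2) ρ =
      (∑ i, Real.negMulLog (hBH.eigenvalues i)) / Real.log 2 -
        ∑ a, (1 / 2 : ℝ) * ((∑ i, Real.negMulLog ((hT a).isHermitian.eigenvalues i)) / Real.log 2) := by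
    have : holevoN γ ν 1 (fun _ => 1 / 2) ρ = vnEntropy B - ∑ a, (1 / 2 : ℝ) * vnEntropy (gadcN γ ν 1 (ρ a)) := rfl
    rw [this, vnEntropy, dif_pos hBH, Finset.sum_div]
    congr 1
    refine Finset.sum_congr rfl fun a _ => ?_
    rw [vnEntropy, dif_pos (hT a).isHermitian, Finset.sum_div]
  rw [hgoal, hEntB]
  simp only [hEnt, Fin.sum_univ_two, gainNu]
  ring

/-- From the one-step entropy inequality to the capacity formula, for all parameters. -/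
theorem capacity_of_EStarF (h0 : 0 ≤ γ) (h1 : γ ≤ 1) (hν0 : 0 ≤ ν) (hν1 : ν ≤ 1)
    (hE : EStarF γ ν (fnu γ ν)) :
    ∃ χ : ℝ,
      (∃ q ∈ Set.Icc (0 : ℝ) 1, χ = gainNu γ ν q) ∧ (∀ q ∈ Set.Icc (0 : ℝ) 1, gainNu γ ν q ≤ χ) ∧
      (∀ q ∈ Set.Icc (0 : ℝ) 1, ∃ (p : Fin 2 → ℝ) (ρ : Fin 2 → Matrix (Qb 1) (Qb 1) ℂ),
        (∀ a, 0 ≤ p a) ∧ ∑ a, p a = 1 ∧ (∀ a, (ρ a).PosSemidef) ∧ (∀ a, (ρ a).trace = 1) ∧
        holevoN γ ν 1 p ρ = gainNu γ ν q) ∧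
      (∀ (n : ℕ) (ι : Type) [Fintype ι] (p : ι → ℝ) (ρ : ι → Matrix (Qb n) (Qb n) ℂ),
        (∀ a, 0 ≤ p a) → ∑ a, p a = 1 → (∀ a, (ρ a).PosSemidef) → (∀ a, (ρ a).trace = 1) →
        holevoN γ ν n p ρ ≤ n * χ) := by
  obtain ⟨qs, hqs, hmax⟩ := isCompact_Icc.exists_isMaxOn (s := Set.Icc (0 : ℝ) 1)
    ⟨0, by simp⟩ (continuous_gainNu γ ν).continuousOn
  refine ⟨gainNu γ ν qs, ⟨qs, hqs, rfl⟩, fun q hq => hmax hq, ?_, ?_⟩
  · intro q hq
    exact single_letter_nu h0 h1 hν0 hν1 hq.1 hq.2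
  · intro n ι _ p ρ hp0 hp1 hρ htr
    have h := holevo_le_sum hE (fnu_convex h0 h1 hν0 hν1) h0 h1 hν0 hν1 n p hp0 hp1 ρ hρ htr
    refine h.trans ?_
    have hre : ∀ a, (ρ a).trace.re = 1 := fun a => by rw [htr a]; simp
    have hmem : ∀ i, (∑ a, p a * pop (ρ a) i) ∈ Set.Icc (0:ℝ) 1 := by
      intro i
      constructor
      · exact Finset.sum_nonneg fun a _ => mul_nonneg (hp0 a) (pop_nonneg (hρ a) i)
      · calc ∑ a, p a * pop (ρ a) i ≤ ∑ a, p a * 1 :=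
              Finset.sum_le_sum fun a _ => mul_le_mul_of_nonneg_left
                (by simpa [hre a] using pop_le_trace (hρ a) i) (hp0 a)
          _ = 1 := by simpa using hp1
    calc _ ≤ ∑ _i : Fin n, gainNu γ ν qs := Finset.sum_le_sum fun i _ => hmax (hmem i)
      _ = n * gainNu γ ν qs := by simp

end

end Vale.Agent.P358G
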