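import Mathlib
import Vale.Agent.P358G.FinalAll

/-! Product ensembles: the Holevo quantity of `𝒜^{⊗n}` on a product ensemble is `n` times that of
`𝒜`. This gives `χ(𝒜^{⊗n}) ≥ n χ(𝒜)`. -/

namespace Vale.Agent.P358G

open Vale.Agent.P358h5 Vale.Agent.P358A Matrix Finset BigOperators
open scoped ComplexOrder Kronecker

noncomputable section

section kron
variable {κ μ : Type*} [Fintype κ] [DecidableEq κ] [Fintype μ] [DecidableEq μ]

lemma charpoly_kron {A : Matrix κ κ ℂ} {B : Matrix μ μ ℂ} (hA : A.IsHermitian) (hB : B.IsHermitian) :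
    (A ⊗ₖ B).charpoly = ∏ i : κ × μ, (Polynomial.X - Polynomial.C
      (((hA.eigenvalues i.1 * hB.eigenvalues i.2 : ℝ)) : ℂ)) := by
  set U : Matrix κ κ ℂ := (hA.eigenvectorUnitary : Matrix κ κ ℂ) with hU
  set V : Matrix μ μ ℂ := (hB.eigenvectorUnitary : Matrix μ μ ℂ) with hV
  have hU' : star U * U = 1 := (Matrix.mem_unitaryGroup_iff').1 hA.eigenvectorUnitary.2
  have hV' : star V * V = 1 := (Matrix.mem_unitaryGroup_iff').1 hB.eigenvectorUnitary.2
  have hA' : A = U * diagonal (RCLike.ofReal ∘ hA.eigenvalues) * star U := by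
    conv_lhs => rw [hA.spectral_theorem]
    rfl
  have hB' : B = V * diagonal (RCLike.ofReal ∘ hB.eigenvalues) * star V := by
    conv_lhs => rw [hB.spectral_theorem]
    rfl
  have h : A ⊗ₖ B = (U ⊗ₖ V) *
      (diagonal fun i : κ × μ => (((hA.eigenvalues i.1 * hB.eigenvalues i.2 : ℝ)) : ℂ)) *
      (star U ⊗ₖ star V) := by
    have hd : (diagonal fun i : κ × μ => (((hA.eigenvalues i.1 * hB.eigenvalues i.2 : ℝ)) : ℂ)) =
        diagonal (RCLike.ofReal ∘ hA.eigenvalues) ⊗ₖ diagonal (RCLike.ofReal ∘ hB.eigenvalues) := by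
      rw [diagonal_kronecker_diagonal]
      congr 1
      funext i
      simp
    rw [hd, ← mul_kronecker_mul, ← mul_kronecker_mul, ← hA', ← hB']
  rw [h, Matrix.charpoly_mul_comm, ← mul_assoc, ← mul_kronecker_mul, hU', hV', one_kronecker_one,
    one_mul, Matrix.charpoly_diagonal]

lemma isHermitian_kron {A : Matrix κ κ ℂ} {B : Matrix μ μ ℂ} (hA : A.IsHermitian)
    (hB : B.IsHermitian) : (A ⊗ₖ B).IsHermitian := by
  rw [Matrix.IsHermitian, conjTranspose_kronecker, hA.eq, hB.eq]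

/-- Additivity of the entropy on product states. -/
lemma Su_kron {A : Matrix κ κ ℂ} {B : Matrix μ μ ℂ} (hA : A.IsHermitian) (hB : B.IsHermitian)
    (tA : A.trace.re = 1) (tB : B.trace.re = 1) : Su (A ⊗ₖ B) = Su A + Su B := by
  have hAB := isHermitian_kron hA hB
  rw [Su_of_herm hAB, sum_eig_eq_of_charpoly_prod hAB _ (charpoly_kron hA hB), Su_of_herm hA,
    Su_of_herm hB, Fintype.sum_prod_type]
  have sa : ∑ i, hA.eigenvalues i = 1 := by rw [← trace_eq_sum_eig hA, tA]
  have sb : ∑ i, hB.eigenvalues i = 1 := by rw [← trace_eq_sum_eig hB, tB]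
  simp only [Real.negMulLog_mul, Finset.sum_add_distrib, ← Finset.sum_mul, ← Finset.mul_sum, sa, sb,
    one_mul]

end kron

/-- Product of one-qubit matrices. -/
def ten {n : ℕ} (M : Fin n → Matrix (Qb 1) (Qb 1) ℂ) : Matrix (Qb n) (Qb n) ℂ :=
  Matrix.of fun x y => ∏ i, M i (c1 (x i)) (c1 (y i))

lemma ten_succ {n : ℕ} (M : Fin (n + 1) → Matrix (Qb 1) (Qb 1) ℂ) :
    (ten M).submatrix (consE n) (consE n) =
      (Matrix.reindex e1 e1 (M 0)) ⊗ₖ ten (fun i : Fin n => M i.succ) := by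
  ext ⟨x₀, x⟩ ⟨y₀, y⟩
  simp only [Matrix.submatrix_apply, consE_apply, ten, Matrix.of_apply, Fin.prod_univ_succ,
    Fin.cons_zero, Fin.cons_succ, kroneckerMap_apply, Matrix.reindex_apply]
  rfl

lemma trace_reindex_e1 (X : Matrix (Qb 1) (Qb 1) ℂ) : (Matrix.reindex e1 e1 X).trace = X.trace := by
  simp only [Matrix.trace, Matrix.diag_apply, Matrix.reindex_apply, Matrix.submatrix_apply]
  exact e1.symm.sum_comp fun x => X x x

lemma psd_of_submatrix_consE {n : ℕ} {Y : Matrix (Qb (n + 1)) (Qb (n + 1)) ℂ}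
    (h : (Y.submatrix (consE n) (consE n)).PosSemidef) : Y.PosSemidef := by
  have h2 := h.submatrix (consE n).symm
  simpa [Matrix.submatrix_submatrix] using h2

/-- Products of states are states, with additive entropy. -/
theorem ten_props {n : ℕ} (M : Fin n → Matrix (Qb 1) (Qb 1) ℂ) (hM : ∀ i, (M i).PosSemidef)
    (ht : ∀ i, (M i).trace = 1) :
    (ten M).PosSemidef ∧ (ten M).trace = 1 ∧ Su (ten M) = ∑ i, Su (M i) := by
  induction n with
  | zero =>
    have h1 : ten M = 1 := by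
      ext x y
      have : x = y := Subsingleton.elim x y
      subst this
      simp [ten]
    have hP : (ten M).PosSemidef := by rw [h1]; exact Matrix.PosSemidef.one
    have htr : (ten M).trace = 1 := by
      rw [h1]
      simp [Matrix.trace]
    refine ⟨hP, htr, ?_⟩
    have hH := hP.isHermitian
    have h2 : (ten M).trace.re = hH.eigenvalues default := by
      rw [hH.trace_eq_sum_eigenvalues, Fintype.sum_subsingleton _ default]
      simp
    rw [Su_of_herm hH, Fintype.sum_subsingleton _ default, ← h2, htr]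
    simp
  | succ n ih =>
    obtain ⟨h1, h2, h3⟩ := ih (fun i => M i.succ) (fun i => hM _) (fun i => ht _)
    have hR : (Matrix.reindex e1 e1 (M 0)).PosSemidef := (hM 0).submatrix _
    have hs := ten_succ M
    have hP : (ten M).PosSemidef := by
      apply psd_of_submatrix_consE
      rw [hs]
      exact hR.kronecker h1
    have htr : (ten M).trace = 1 := by
      rw [← trace_subE, hs, trace_kronecker, trace_reindex_e1, ht 0, h2, one_mul]
    refine ⟨hP, htr, ?_⟩
    rw [← Su_reindex (consE n).symm _ hP.isHermitian, reindex_consE, hs,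
      Su_kron hR.isHermitian h1.isHermitian (by rw [trace_reindex_e1, ht 0]; simp) (by rw [h2]; simp),
      Matrix.reindex_apply, h3, Fin.sum_univ_succ]
    have := Su_reindex e1 (M 0) (hM 0).isHermitian
    rw [Matrix.reindex_apply] at this
    rw [this]

variable {γ ν : ℝ}

/-- The channel acts factorwise on products. -/
lemma gadcN_ten {n : ℕ} (M : Fin n → Matrix (Qb 1) (Qb 1) ℂ) :
    gadcN γ ν n (ten M) = ten (fun i => gadcN γ ν 1 (M i)) := by
  ext x y
  have e : ∀ i, gadcN γ ν 1 (M i) (c1 (x i)) (c1 (y i)) =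
      ∑ a0 : Fin 2, ∑ b0 : Fin 2, coef γ ν (x i) (y i) a0 b0 * M i (c1 a0) (c1 b0) :=
    fun i => gadcN_c1' _ _ _
  have hR : ten (fun i => gadcN γ ν 1 (M i)) x y =
      ∏ i, ∑ a0 : Fin 2, ∑ b0 : Fin 2, coef γ ν (x i) (y i) a0 b0 * M i (c1 a0) (c1 b0) := by
    simp only [ten, Matrix.of_apply, e]
  have hL : gadcN γ ν n (ten M) x y = ∑ a : Qb n, ∑ b : Qb n,
      (∏ i, coef γ ν (x i) (y i) (a i) (b i)) * ∏ i, M i (c1 (a i)) (c1 (b i)) := rfl
  rw [hR, hL, Finset.prod_univ_sum (fun _ : Fin n => (Finset.univ : Finset (Fin 2)))]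
  simp only [Fintype.piFinset_univ]
  refine Finset.sum_congr rfl fun a _ => ?_
  rw [Finset.prod_univ_sum (fun _ : Fin n => (Finset.univ : Finset (Fin 2)))]
  simp only [Fintype.piFinset_univ]
  refine Finset.sum_congr rfl fun b _ => ?_
  rw [Finset.prod_mul_distrib]

lemma sum_ten {n : ℕ} {ι : Type*} [Fintype ι] (p : ι → ℝ) (T : ι → Matrix (Qb 1) (Qb 1) ℂ) :
    ∑ a : Fin n → ι, (((∏ i, p (a i) : ℝ)) : ℂ) • ten (fun i => T (a i)) =
      ten (fun _ : Fin n => ∑ b, ((p b : ℝ) : ℂ) • T b) := by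
  ext x y
  simp only [Matrix.sum_apply, Matrix.smul_apply, smul_eq_mul, ten, Matrix.of_apply]
  rw [Finset.prod_univ_sum]
  simp only [Fintype.piFinset_univ]
  refine Finset.sum_congr rfl fun a _ => ?_
  rw [Finset.prod_mul_distrib]
  push_cast
  rfl

lemma sum_prod_one {n : ℕ} {ι : Type*} [Fintype ι] (p : ι → ℝ) (hp1 : ∑ b, p b = 1) :
    ∑ a : Fin n → ι, ∏ j, p (a j) = 1 := by
  have h := (Finset.prod_univ_sum (fun _ : Fin n => (Finset.univ : Finset ι)) (fun _ b => p b)).symm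
  rw [Fintype.piFinset_univ] at h
  rw [h]
  simp [hp1]

lemma sum_marginal {n : ℕ} {ι : Type*} [Fintype ι] (p : ι → ℝ) (hp1 : ∑ b, p b = 1) (f : ι → ℝ)
    (i : Fin n) : ∑ a : Fin n → ι, (∏ j, p (a j)) * f (a i) = ∑ b, p b * f b := by
  classical
  have h := (Finset.prod_univ_sum (fun _ : Fin n => (Finset.univ : Finset ι))
    (fun j b => p b * (if j = i then f b else 1))).symm
  rw [Fintype.piFinset_univ] at h
  have e : ∀ a : Fin n → ι, ∏ j, (p (a j) * (if j = i then f (a j) else 1)) =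
      (∏ j, p (a j)) * f (a i) := by
    intro a
    rw [Finset.prod_mul_distrib, Finset.prod_ite_eq' Finset.univ i (fun j => f (a j))]
    simp
  simp only [e] at h
  rw [h]
  have e2 : ∀ j : Fin n, ∑ b, p b * (if j = i then f b else 1) =
      if j = i then ∑ b, p b * f b else 1 := by
    intro j
    split_ifs
    · rfl
    · simpa using hp1
  simp only [e2]
  rw [Finset.prod_ite_eq' Finset.univ i (fun _ => ∑ b, p b * f b)]
  simp

/-- Holevo quantity of a product ensemble. -/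
theorem holevo_product (h0 : 0 ≤ γ) (h1 : γ ≤ 1) (hν0 : 0 ≤ ν) (hν1 : ν ≤ 1) {ι : Type} [Fintype ι]
    (p : ι → ℝ) (hp0 : ∀ a, 0 ≤ p a) (hp1 : ∑ a, p a = 1) (ρ : ι → Matrix (Qb 1) (Qb 1) ℂ)
    (hρ : ∀ a, (ρ a).PosSemidef) (htr : ∀ a, (ρ a).trace = 1) (n : ℕ) :
    ∃ (p' : (Fin n → ι) → ℝ) (ρ' : (Fin n → ι) → Matrix (Qb n) (Qb n) ℂ),
      (∀ a, 0 ≤ p' a) ∧ ∑ a, p' a = 1 ∧ (∀ a, (ρ' a).PosSemidef) ∧ (∀ a, (ρ' a).trace = 1) ∧
      holevoN γ ν n p' ρ' = n * holevoN γ ν 1 p ρ := by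
  refine ⟨fun a => ∏ j, p (a j), fun a => ten fun i => ρ (a i),
    fun a => Finset.prod_nonneg fun j _ => hp0 _, sum_prod_one p hp1,
    fun a => (ten_props _ (fun i => hρ _) (fun i => htr _)).1,
    fun a => (ten_props _ (fun i => hρ _) (fun i => htr _)).2.1, ?_⟩
  set T : ι → Matrix (Qb 1) (Qb 1) ℂ := fun b => gadcN γ ν 1 (ρ b) with hT
  have hTp : ∀ b, (T b).PosSemidef := fun b => gadcN_psd h0 h1 hν0 hν1 1 (ρ b) (hρ b)
  have hTt : ∀ b, (T b).trace = 1 := fun b => by
    rw [hT]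
    simp only
    rw [gadcN_trace, htr b]
  set B : Matrix (Qb 1) (Qb 1) ℂ := ∑ b, ((p b : ℝ) : ℂ) • T b with hB
  have hBp : B.PosSemidef :=
    Matrix.posSemidef_sum _ fun b _ => (hTp b).smul (Complex.zero_le_real.mpr (hp0 b))
  have hBt : B.trace = 1 := by
    rw [hB, Matrix.trace_sum]
    simp only [Matrix.trace_smul, hTt, smul_eq_mul, mul_one]
    rw [← Complex.ofReal_sum, hp1, Complex.ofReal_one]
  have hout : ∀ a : Fin n → ι, gadcN γ ν n (ten fun i => ρ (a i)) = ten fun i => T (a i) :=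
    fun a => gadcN_ten _
  have hSa : ∀ a : Fin n → ι, vnEntropy (ten fun i => T (a i)) =
      (∑ i, Su (T (a i))) / Real.log 2 := by
    intro a
    obtain ⟨h2, _, h4⟩ := ten_props (fun i => T (a i)) (fun i => hTp _) (fun i => hTt _)
    rw [vnEntropy_eq_Su h2.isHermitian, h4]
  have hSB : vnEntropy (ten fun _ : Fin n => B) = n * (Su B / Real.log 2) := by
    obtain ⟨h2, _, h4⟩ := ten_props (fun _ : Fin n => B) (fun _ => hBp) (fun _ => hBt)
    rw [vnEntropy_eq_Su h2.isHermitian, h4]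
    simp only [Finset.sum_const, Finset.card_univ, Fintype.card_fin, nsmul_eq_mul]
    ring
  have h1' : holevoN γ ν 1 p ρ = Su B / Real.log 2 - ∑ b, p b * (Su (T b) / Real.log 2) := by
    have : holevoN γ ν 1 p ρ = vnEntropy B - ∑ b, p b * vnEntropy (T b) := rfl
    rw [this, vnEntropy_eq_Su hBp.isHermitian]
    congr 1
    refine Finset.sum_congr rfl fun b _ => ?_
    rw [vnEntropy_eq_Su (hTp b).isHermitian]
  have hn : holevoN γ ν n (fun a : Fin n → ι => ∏ j, p (a j)) (fun a => ten fun i => ρ (a i)) =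
      vnEntropy (∑ a : Fin n → ι, ((∏ j, p (a j) : ℝ) : ℂ) • ten fun i => T (a i)) -
        ∑ a : Fin n → ι, (∏ j, p (a j)) * vnEntropy (ten fun i => T (a i)) := by
    simp only [holevoN, hout]
  rw [hn, sum_ten, hSB, h1']
  simp only [hSa]
  have hsum : ∑ a : Fin n → ι, (∏ j, p (a j)) * ((∑ i, Su (T (a i))) / Real.log 2) =
      n * ∑ b, p b * (Su (T b) / Real.log 2) := by
    calc _ = ∑ a : Fin n → ι, ∑ i, (∏ j, p (a j)) * (Su (T (a i)) / Real.log 2) := by
          refine Finset.sum_congr rfl fun a _ => ?_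
          rw [Finset.sum_div, Finset.mul_sum]
      _ = ∑ i : Fin n, ∑ a : Fin n → ι, (∏ j, p (a j)) * (Su (T (a i)) / Real.log 2) :=
          Finset.sum_comm
      _ = ∑ _i : Fin n, ∑ b, p b * (Su (T b) / Real.log 2) :=
          Finset.sum_congr rfl fun i _ =>
            sum_marginal p hp1 (fun b => Su (T b) / Real.log 2) i
      _ = _ := by simp
  rw [hsum]
  ring

end

end Vale.Agent.P358G
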