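import Mathlib
import Vale.Agent.P358G.Product
import Vale.Agent.P358G.Reduce

/-! The capacity formula for all parameters, from the block inequality `GE`. -/

namespace Vale.Agent.P358G

open Vale.Agent.P358h5 Vale.Agent.P358A Matrix
open scoped ComplexOrder

noncomputable section

/-- The explicit single letter objective, in bits. -/
def gainExplicit (γ ν q : ℝ) : ℝ :=
  (Real.binEntropy ((1 - γ) * q + γ * ν) -
    Real.binEntropy ((1 + Real.sqrt (1 - 4 * (γ * ((1 - γ) * (q - ν) ^ 2 + ν * (1 - ν))))) / 2)) /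
      Real.log 2

/-- All Holevo quantities of finite ensembles of states on `n` qubits for `𝒜_{γ,ν}^{⊗n}`. -/
def holevoValues (γ ν : ℝ) (n : ℕ) : Set ℝ :=
  {x : ℝ | ∃ (ι : Type) (_ : Fintype ι) (p : ι → ℝ) (ρ : ι → Matrix (Qb n) (Qb n) ℂ),
    (∀ a, 0 ≤ p a) ∧ ∑ a, p a = 1 ∧ (∀ a, (ρ a).PosSemidef) ∧ (∀ a, (ρ a).trace = 1) ∧
      x = holevoN γ ν n p ρ}

lemma gainExplicit_eq {γ ν : ℝ} (h0 : 0 ≤ γ) (h1 : γ ≤ 1) (hν0 : 0 ≤ ν) (hν1 : ν ≤ 1) (q : ℝ) :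
    gainExplicit γ ν q = gainNu γ ν q := by
  have hD := DD_nonneg h0 h1 hν0 hν1 q
  have e : (2 * Real.sqrt (DD γ ν q)) ^ 2 = 4 * (γ * ((1 - γ) * (q - ν) ^ 2 + ν * (1 - ν))) := by
    rw [mul_pow, Real.sq_sqrt hD]
    unfold DD
    norm_num
  unfold gainExplicit gainNu fnu Eent
  rw [e]

/-- The final theorem, from `GE`. -/
theorem capacity_formula (hGE : ∀ (R : Type) [Fintype R] [DecidableEq R] (H G : Matrix R R ℂ),
      H.PosSemidef → G.PosSemidef → ∀ A C : Matrix R (Fin 2 × R) ℂ, GEAt H G A C) {γ ν : ℝ} (h0 : 0 ≤ γ) (h1 : γ ≤ 1) (hν0 : 0 ≤ ν)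
    (hν1 : ν ≤ 1) :
    ∃ χ : ℝ,
      IsGreatest (gainExplicit γ ν '' Set.Icc (0 : ℝ) 1) χ ∧
      (∀ q ∈ Set.Icc (0 : ℝ) 1, ∃ (p : Fin 2 → ℝ) (ρ : Fin 2 → Matrix (Qb 1) (Qb 1) ℂ),
        (∀ a, 0 ≤ p a) ∧ ∑ a, p a = 1 ∧ (∀ a, (ρ a).PosSemidef) ∧ (∀ a, (ρ a).trace = 1) ∧
        holevoN γ ν 1 p ρ = gainExplicit γ ν q) ∧
      (∀ n : ℕ, IsGreatest (holevoValues γ ν n) (n * χ)) ∧
      IsGreatest {x : ℝ | ∃ n : ℕ, 1 ≤ n ∧ ∃ y ∈ holevoValues γ ν n, x = y / n} χ := by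
  have hE : EStarF γ ν (fnu γ ν) := by
    have e : fnu γ ν = fun q => Eent (2 * Real.sqrt (γ * ((1 - γ) * (q - ν) ^ 2 + ν * (1 - ν)))) := by
      funext q
      rfl
    rw [e]
    exact estarF_of_GE h0 h1 hν0 hν1 hGE
  obtain ⟨χ, ⟨qs, hqs, hχ⟩, hmax, hatt, hall⟩ := capacity_of_EStarF h0 h1 hν0 hν1 hE
  have hge := gainExplicit_eq h0 h1 hν0 hν1
  have hub : ∀ n : ℕ, ∀ x ∈ holevoValues γ ν n, x ≤ n * χ := by
    rintro n x ⟨ι, _, p, ρ, hp0, hp1, hρ, htr, rfl⟩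
    exact hall n ι p ρ hp0 hp1 hρ htr
  have hmem : ∀ n : ℕ, (n : ℝ) * χ ∈ holevoValues γ ν n := by
    intro n
    obtain ⟨p, ρ, hp0, hp1, hρ, htr, hv⟩ := hatt qs hqs
    obtain ⟨p', ρ', h2, h3, h4, h5, h6⟩ := holevo_product h0 h1 hν0 hν1 p hp0 hp1 ρ hρ htr n
    refine ⟨Fin n → Fin 2, inferInstance, p', ρ', h2, h3, h4, h5, ?_⟩
    rw [h6, hv, hχ]
  refine ⟨χ, ⟨⟨qs, hqs, by rw [hge, hχ]⟩, ?_⟩, ?_, fun n => ⟨hmem n, hub n⟩, ⟨?_, ?_⟩⟩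
  · rintro x ⟨q, hq, rfl⟩
    rw [hge]
    exact hmax q hq
  · intro q hq
    simpa only [hge] using hatt q hq
  · refine ⟨1, le_rfl, _, hmem 1, ?_⟩
    simp
  · rintro x ⟨n, hn, y, hy, rfl⟩
    have hn' : (0 : ℝ) < n := by exact_mod_cast hn
    rw [div_le_iff₀ hn', mul_comm]
    exact hub n y hy

end

end Vale.Agent.P358G
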