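import Mathlib

/-!
M5: level integration.  If `C` has derivative `C'` on `s > 0` and `C' s` dominates the step
function `∑_{i : s < m i} d i`, then the integrated form holds with positive parts.  No integrals.
-/

namespace Vale.Agent.P358G
open Finset BigOperators

noncomputable section

lemma hasDerivWithinAt_neg_pos_part (m s : ℝ) :
    HasDerivWithinAt (fun x : ℝ => -(max (m - x) 0)) (if s < m then 1 else 0) (Set.Ici s) s := by
  split_ifs with h
  · have h1 : HasDerivAt (fun x : ℝ => x - m) 1 s := (hasDerivAt_id s).sub_const m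
    refine h1.hasDerivWithinAt.congr_of_eventuallyEq ?_ ?_
    · filter_upwards [mem_nhdsWithin_of_mem_nhds (Iio_mem_nhds h)] with x hx
      have hx' : x < m := hx
      rw [max_eq_left (by linarith)]
      ring
    · rw [max_eq_left (by linarith)]
      ring
  · have hm : m ≤ s := not_lt.mp h
    refine (hasDerivWithinAt_const s (Set.Ici s) (0 : ℝ)).congr ?_ ?_
    · intro x hx
      have hx' : s ≤ x := hx
      rw [max_eq_right (by linarith)]
      simp
    · rw [max_eq_right (by linarith)]
      simp

/-- M5. -/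
theorem level_integrate {ι : Type*} [Fintype ι] (d m : ι → ℝ) (hd : ∀ i, 0 ≤ d i)
    (C C' : ℝ → ℝ) (hC : ∀ s, 0 < s → HasDerivAt C (C' s) s)
    (hle : ∀ s, 0 < s → ∑ i, (if s < m i then d i else 0) ≤ C' s)
    {s0 s1 : ℝ} (h0 : 0 < s0) (h01 : s0 ≤ s1) :
    ∑ i, d i * (max (m i - s0) 0 - max (m i - s1) 0) ≤ C s1 - C s0 := by
  classical
  set f : ℝ → ℝ := fun s => ∑ i, d i * (max (m i - s0) 0 + -(max (m i - s) 0)) with hf
  set f' : ℝ → ℝ := fun s => ∑ i, (if s < m i then d i else 0) with hf'
  have hcont : ContinuousOn f (Set.Icc s0 s1) := by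
    apply Continuous.continuousOn
    apply continuous_finsetSum
    intro i _
    fun_prop
  have hderiv : ∀ x ∈ Set.Ico s0 s1, HasDerivWithinAt f (f' x) (Set.Ici x) x := by
    intro x _
    have h1 : ∀ i ∈ (Finset.univ : Finset ι),
        HasDerivWithinAt (fun s : ℝ => d i * (max (m i - s0) 0 + -(max (m i - s) 0)))
          (if x < m i then d i else 0) (Set.Ici x) x := by
      intro i _
      have h2 := ((hasDerivWithinAt_neg_pos_part (m i) x).const_add
        (max (m i - s0) 0)).const_mul (d i)
      refine h2.congr_deriv ?_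
      split_ifs <;> simp
    have h3 := HasDerivWithinAt.fun_sum h1
    exact h3
  have hB : ContinuousOn (fun s => C s - C s0) (Set.Icc s0 s1) := by
    intro x hx
    have hxpos : 0 < x := lt_of_lt_of_le h0 hx.1
    exact ((hC x hxpos).continuousAt.sub continuousAt_const).continuousWithinAt
  have hB' : ∀ x ∈ Set.Ico s0 s1, HasDerivWithinAt (fun s => C s - C s0) (C' x) (Set.Ici x) x := by
    intro x hx
    have hxpos : 0 < x := lt_of_lt_of_le h0 hx.1
    exact ((hC x hxpos).sub_const (C s0)).hasDerivWithinAt
  have hbase : f s0 ≤ C s0 - C s0 := by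
    simp [hf]
  have hbound : ∀ x ∈ Set.Ico s0 s1, f' x ≤ C' x := by
    intro x hx
    exact hle x (lt_of_lt_of_le h0 hx.1)
  have key := image_le_of_deriv_right_le_deriv_boundary hcont hderiv hbase hB hB' hbound
    (Set.right_mem_Icc.mpr h01)
  have e : ∑ i, d i * (max (m i - s0) 0 - max (m i - s1) 0) = f s1 := by
    simp only [hf]
    refine Finset.sum_congr rfl fun i _ => ?_
    ring
  rw [e]
  exact key

end

end Vale.Agent.P358G
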