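import Mathlib
import Vale.Agent.P358G.Level
import Vale.Agent.P358A.Anti

/-!
Limits for the level integration: `s₁ → ∞`, `s₀ → 0+`, and the sums of `anti`.
-/

namespace Vale.Agent.P358G
open Filter Topology Finset BigOperators Vale.Agent.P358A

noncomputable section

lemma tendsto_max_sub_top (m : ℝ) :
    Tendsto (fun s : ℝ => max (m - s) 0) atTop (𝓝 0) := by
  refine tendsto_const_nhds.congr' ?_
  filter_upwards [eventually_gt_atTop m] with s hs
  rw [max_eq_right (by linarith)]

lemma tendsto_max_sub_zero (m : ℝ) :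
    Tendsto (fun s : ℝ => max (m - s) 0) (𝓝[>] 0) (𝓝 (max m 0)) := by
  have hc : Continuous (fun s : ℝ => max (m - s) 0) := by fun_prop
  have h := hc.tendsto 0
  simp only [sub_zero] at h
  exact h.mono_left nhdsWithin_le_nhds

/-- Sum of `anti` with total weight zero tends to `0` at infinity. -/
theorem tendsto_sum_anti_top {ι : Type*} [Fintype ι] (w l : ι → ℝ) (hl : ∀ i, 0 ≤ l i)
    (hw : ∑ i, w i * l i = 0) :
    Tendsto (fun t => ∑ i, w i * anti (l i) t) atTop (𝓝 0) := by
  have h1 : Tendsto (fun t => ∑ i, w i * (anti (l i) t - l i * Real.log (1 + t))) atTop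
      (𝓝 (∑ i, w i * l i)) :=
    tendsto_finsetSum _ fun i _ => (tendsto_anti_top (hl i)).const_mul (w i)
  rw [hw] at h1
  refine h1.congr fun t => ?_
  have e : ∑ i, w i * (anti (l i) t - l i * Real.log (1 + t))
      = ∑ i, w i * anti (l i) t - (∑ i, w i * l i) * Real.log (1 + t) := by
    rw [Finset.sum_mul, ← Finset.sum_sub_distrib]
    refine Finset.sum_congr rfl fun i _ => ?_
    ring
  rw [e, hw]
  simp

/-- Sum of `anti` at `0+`. -/
theorem tendsto_sum_anti_zero {ι : Type*} [Fintype ι] (w l : ι → ℝ) :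
    Tendsto (fun t => ∑ i, w i * anti (l i) t) (𝓝[>] 0)
      (𝓝 (∑ i, w i * (l i * Real.log (l i)))) :=
  tendsto_finsetSum _ fun i _ => (tendsto_anti_zero (l i)).const_mul (w i)

/-- For `l' ≤ l`, the difference of `anti` dominates its limit at `0+`. -/
theorem anti_sub_ge_Lam {l l' δ : ℝ} (hl' : 0 ≤ l') (hll : l' ≤ l) (hδ : 0 < δ) :
    l * Real.log l - l' * Real.log l' ≤ anti l δ - anti l' δ := by
  have hl : 0 ≤ l := hl'.trans hll
  have hder : ∀ t, 0 < t → HasDerivAt (fun t => anti l t - anti l' t)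
      (Real.log (1 + l / t) - Real.log (1 + l' / t)) t :=
    fun t ht => (hasDerivAt_anti hl ht).sub (hasDerivAt_anti hl' ht)
  have hmono : MonotoneOn (fun t => anti l t - anti l' t) (Set.Ioi 0) := by
    refine monotoneOn_of_deriv_nonneg (convex_Ioi 0) ?_ ?_ ?_
    · intro t ht
      exact (hder t ht).continuousAt.continuousWithinAt
    · intro t ht
      rw [interior_Ioi] at ht
      exact (hder t ht).differentiableAt.differentiableWithinAt
    · intro t ht
      rw [interior_Ioi] at ht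
      rw [(hder t ht).deriv]
      have ht' : 0 < t := ht
      have h2 : 0 < 1 + l' / t := by positivity
      have h3 : 1 + l' / t ≤ 1 + l / t := by
        have := div_le_div_of_nonneg_right hll ht'.le
        linarith
      linarith [Real.log_le_log h2 h3]
  have hlim : Tendsto (fun t => anti l t - anti l' t) (𝓝[>] 0)
      (𝓝 (l * Real.log l - l' * Real.log l')) :=
    (tendsto_anti_zero l).sub (tendsto_anti_zero l')
  refine le_of_tendsto hlim ?_
  filter_upwards [Ioo_mem_nhdsGT hδ] with s hs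
  exact hmono (Set.mem_Ioi.mpr hs.1) (Set.mem_Ioi.mpr hδ) hs.2.le

/-- Level integration with both limits taken. -/
theorem level_limit {ι : Type*} [Fintype ι] (d m : ι → ℝ) (hd : ∀ i, 0 ≤ d i) (C C' : ℝ → ℝ)
    (hC : ∀ s, 0 < s → HasDerivAt C (C' s) s)
    (hle : ∀ s, 0 < s → ∑ i, (if s < m i then d i else 0) ≤ C' s)
    {C0 : ℝ} (h0 : Tendsto C (𝓝[>] 0) (𝓝 C0)) (h1 : Tendsto C atTop (𝓝 0)) :
    ∑ i, d i * max (m i) 0 ≤ -C0 := by
  have hlev : ∀ s0 s1, 0 < s0 → s0 ≤ s1 →
      ∑ i, d i * (max (m i - s0) 0 - max (m i - s1) 0) ≤ C s1 - C s0 :=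
    fun s0 s1 hs0 hs => level_integrate d m hd C C' hC hle hs0 hs
  -- first `s₁ → ∞`
  have hA : ∀ s0, 0 < s0 → ∑ i, d i * max (m i - s0) 0 ≤ - C s0 := by
    intro s0 hs0
    have hl : Tendsto (fun s1 => ∑ i, d i * (max (m i - s0) 0 - max (m i - s1) 0)) atTop
        (𝓝 (∑ i, d i * (max (m i - s0) 0 - 0))) :=
      tendsto_finsetSum _ fun i _ =>
        (tendsto_const_nhds.sub (tendsto_max_sub_top (m i))).const_mul (d i)
    have hr : Tendsto (fun s1 => C s1 - C s0) atTop (𝓝 (0 - C s0)) :=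
      h1.sub tendsto_const_nhds
    have := le_of_tendsto_of_tendsto hl hr (by
      filter_upwards [eventually_ge_atTop s0] with s1 hs1
      exact hlev s0 s1 hs0 hs1)
    simpa using this
  -- then `s₀ → 0+`
  have hl : Tendsto (fun s0 => ∑ i, d i * max (m i - s0) 0) (𝓝[>] 0)
      (𝓝 (∑ i, d i * max (m i) 0)) :=
    tendsto_finsetSum _ fun i _ => (tendsto_max_sub_zero (m i)).const_mul (d i)
  refine le_of_tendsto_of_tendsto hl h0.neg ?_
  filter_upwards [self_mem_nhdsWithin] with s0 hs0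
  exact hA s0 hs0

end

end Vale.Agent.P358G
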