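import Vale.Agent.P358G.Potentials
import Vale.Agent.P358A.Anti

/-!
# P358 all nu: scalar layer in grid form (S1-S5 of the plan)

Parameters `0 < a`, `0 < c`, `0 ≤ h`, `0 ≤ g`.
-/

namespace Vale.Agent.P358G

open Real Filter Topology Finset

noncomputable section

/-- `p σ = a/(σ+h)` -/
def pS (a h σ : ℝ) : ℝ := a / (σ + h)

/-- `KK σ = w log(σ+xp) + (1-w) log(σ+xm) - log(σ+h)` -/
def KK (a c g h σ : ℝ) : ℝ :=
  wp a c g h * log (σ + xp a c g h) + wm a c g h * log (σ + xm a c g h) - log (σ + h)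

/-- `LL σ = (1-w) log(σ+xp) + w log(σ+xm) - log(σ+g)` -/
def LL (a c g h σ : ℝ) : ℝ :=
  wm a c g h * log (σ + xp a c g h) + wp a c g h * log (σ + xm a c g h) - log (σ + g)

/-- the regularising concave function -/
def ee (κ y : ℝ) : ℝ := (1 / κ) * log (1 + κ * y)

/-- `ft σ = KK σ - e(p σ)` -/
def ft (κ a c g h σ : ℝ) : ℝ := KK a c g h σ - ee κ (pS a h σ)

/-- `ft1 σ = LL σ - e(q σ)` -/
def ft1 (κ a c g h σ : ℝ) : ℝ := LL a c g h σ - ee κ (pS c g σ)

/-- the explicit antiderivative of `Psi = ft + ft1` -/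
def WW (κ a c g h σ : ℝ) : ℝ :=
  P358A.anti (xp a c g h) σ + P358A.anti (xm a c g h) σ - P358A.anti h σ - P358A.anti g σ
    - (1 / κ) * (P358A.anti (h + κ * a) σ - P358A.anti h σ)
    - (1 / κ) * (P358A.anti (g + κ * c) σ - P358A.anti g σ)

section
variable {a c g h : ℝ}

lemma xp_pos' (ha : 0 < a) (hc : 0 < c) (hh : 0 ≤ h) : 0 < xp a c g h := by
  have := xp_ge (g := g) (h := h) ha hc
  linarith

lemma xm_nonneg' (ha : 0 < a) (hc : 0 < c) (hh : 0 ≤ h) (hg : 0 ≤ g) : 0 ≤ xm a c g h := by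
  have h1 := xp_mul_xm (g := g) (h := h) ha hc
  have h2 := xp_pos' (g := g) ha hc hh
  by_contra hcon
  push Not at hcon
  have : xp a c g h * xm a c g h < 0 := mul_neg_of_pos_of_neg h2 hcon
  have h3 : 0 ≤ (h + a) * (g + c) - a * c := by
    have e : (h + a) * (g + c) - a * c = h * g + h * c + a * g := by ring
    rw [e]; positivity
  linarith

lemma poly_D (ha : 0 < a) (hc : 0 < c) (s τ : ℝ) :
    (s + h + a) * (τ + g + c) - a * c =
      wp a c g h * ((s + xp a c g h) * (τ + xm a c g h)) +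
        wm a c g h * ((s + xm a c g h) * (τ + xp a c g h)) := by
  have h0 := w_mean0 (g := g) (h := h) ha hc
  have h1 := w_mean1 (g := g) (h := h) ha hc
  have hw := wp_add_wm (g := g) (h := h) ha hc
  have hm := xp_mul_xm (g := g) (h := h) ha hc
  have e : wp a c g h * ((s + xp a c g h) * (τ + xm a c g h)) +
        wm a c g h * ((s + xm a c g h) * (τ + xp a c g h)) =
      (wp a c g h + wm a c g h) * (s * τ + xp a c g h * xm a c g h)
        + τ * (wp a c g h * xp a c g h + wm a c g h * xm a c g h)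
        + s * (wm a c g h * xp a c g h + wp a c g h * xm a c g h) := by ring
  rw [e, hw, h0, h1, hm]; ring

/-- `S1`, tightness. -/
theorem S1 (ha : 0 < a) (hc : 0 < c) (hh : 0 ≤ h) (hg : 0 ≤ g) {σ : ℝ} (hσ : 0 < σ) :
    KK a c g h σ + LL a c g h σ = log (1 + pS a h σ + pS c g σ) := by
  have hxp := xp_pos' (g := g) ha hc hh
  have hxm := xm_nonneg' ha hc hh hg
  have h1 : 0 < σ + xp a c g h := by linarith
  have h2 : 0 < σ + xm a c g h := by linarith
  have h3 : 0 < σ + h := by linarith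
  have h4 : 0 < σ + g := by linarith
  have hw := wp_add_wm (g := g) (h := h) ha hc
  have e5 : 1 + pS a h σ + pS c g σ =
      (σ + xp a c g h) * (σ + xm a c g h) / ((σ + h) * (σ + g)) := by
    have hm := xp_mul_xm (g := g) (h := h) ha hc
    have hs := xp_add_xm (a := a) (c := c) (g := g) (h := h)
    unfold pS
    field_simp
    rw [show (σ + xp a c g h) * (σ + xm a c g h) =
      σ ^ 2 + σ * (xp a c g h + xm a c g h) + xp a c g h * xm a c g h by ring, hs, hm]
    ring
  rw [e5, log_div (mul_pos h1 h2).ne' (mul_pos h3 h4).ne', log_mul h1.ne' h2.ne',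
    log_mul h3.ne' h4.ne']
  unfold KK LL
  have hwp : wp a c g h = 1 - wm a c g h := by linarith
  rw [hwp]; ring

/-- `S2`, validity for independent arguments. -/
theorem S2 (ha : 0 < a) (hc : 0 < c) (hh : 0 ≤ h) (hg : 0 ≤ g) {s τ : ℝ} (hs : 0 < s)
    (hτ : 0 < τ) : KK a c g h s + LL a c g h τ ≤ log (1 + pS a h s + pS c g τ) := by
  have hxp := xp_pos' (g := g) ha hc hh
  have hxm := xm_nonneg' ha hc hh hg
  have h1 : 0 < s + xp a c g h := by linarith
  have h2 : 0 < s + xm a c g h := by linarith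
  have h1' : 0 < τ + xp a c g h := by linarith
  have h2' : 0 < τ + xm a c g h := by linarith
  have h3 : 0 < s + h := by linarith
  have h4 : 0 < τ + g := by linarith
  have hw := wp_add_wm (g := g) (h := h) ha hc
  have hw0 := wp_nonneg (g := g) (h := h) ha hc
  have hw1 := wm_nonneg (g := g) (h := h) ha hc
  have e5 : 1 + pS a h s + pS c g τ =
      ((s + h + a) * (τ + g + c) - a * c) / ((s + h) * (τ + g)) := by
    unfold pS
    field_simp
    ring
  have hD := poly_D (g := g) (h := h) ha hc s τ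
  have hcv := (strictConcaveOn_log_Ioi.concaveOn).2
    (x := (s + xp a c g h) * (τ + xm a c g h)) (y := (s + xm a c g h) * (τ + xp a c g h))
    (mul_pos h1 h2') (mul_pos h2 h1') hw0 hw1 hw
  simp only [smul_eq_mul] at hcv
  rw [log_mul h1.ne' h2'.ne', log_mul h2.ne' h1'.ne', ← hD] at hcv
  have hpos : 0 < (s + h + a) * (τ + g + c) - a * c := by
    rw [hD]
    rcases hw0.lt_or_eq with h5 | h5
    · have : 0 < wp a c g h * ((s + xp a c g h) * (τ + xm a c g h)) := by positivity
      have h6 : 0 ≤ wm a c g h * ((s + xm a c g h) * (τ + xp a c g h)) := by positivity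
      linarith
    · have h7 : 0 < wm a c g h := by rw [← h5] at hw; linarith
      have : 0 < wm a c g h * ((s + xm a c g h) * (τ + xp a c g h)) := by positivity
      have h6 : 0 ≤ wp a c g h * ((s + xp a c g h) * (τ + xm a c g h)) := by positivity
      linarith
  rw [e5, log_div hpos.ne' (mul_pos h3 h4).ne', log_mul h3.ne' h4.ne']
  unfold KK LL
  nlinarith

/-- `S2'`, first row. -/
theorem S2a (ha : 0 < a) (hc : 0 < c) (hh : 0 ≤ h) (hg : 0 ≤ g) {s : ℝ} (hs : 0 < s) :
    KK a c g h s ≤ log (1 + pS a h s) := by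
  have hxp := xp_pos' (g := g) ha hc hh
  have hxm := xm_nonneg' ha hc hh hg
  have h1 : 0 < s + xp a c g h := by linarith
  have h2 : 0 < s + xm a c g h := by linarith
  have h3 : 0 < s + h := by linarith
  have hw := wp_add_wm (g := g) (h := h) ha hc
  have hw0 := wp_nonneg (g := g) (h := h) ha hc
  have hw1 := wm_nonneg (g := g) (h := h) ha hc
  have hcv := (strictConcaveOn_log_Ioi.concaveOn).2 h1 h2 hw0 hw1 hw
  simp only [smul_eq_mul] at hcv
  have e : wp a c g h * (s + xp a c g h) + wm a c g h * (s + xm a c g h) = s + h + a := by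
    have h0 := w_mean0 (g := g) (h := h) ha hc
    have : wp a c g h * (s + xp a c g h) + wm a c g h * (s + xm a c g h) =
        (wp a c g h + wm a c g h) * s + (wp a c g h * xp a c g h + wm a c g h * xm a c g h) := by
      ring
    rw [this, hw, h0]; ring
  rw [e] at hcv
  have e5 : 1 + pS a h s = (s + h + a) / (s + h) := by
    unfold pS; field_simp
  rw [e5, log_div (by linarith) h3.ne']
  unfold KK
  linarith

/-- `S2'`, second row. -/
theorem S2b (ha : 0 < a) (hc : 0 < c) (hh : 0 ≤ h) (hg : 0 ≤ g) {s : ℝ} (hs : 0 < s) :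
    LL a c g h s ≤ log (1 + pS c g s) := by
  have hxp := xp_pos' (g := g) ha hc hh
  have hxm := xm_nonneg' ha hc hh hg
  have h1 : 0 < s + xp a c g h := by linarith
  have h2 : 0 < s + xm a c g h := by linarith
  have h3 : 0 < s + g := by linarith
  have hw := wp_add_wm (g := g) (h := h) ha hc
  have hw0 := wp_nonneg (g := g) (h := h) ha hc
  have hw1 := wm_nonneg (g := g) (h := h) ha hc
  have hw' : wm a c g h + wp a c g h = 1 := by linarith
  have hcv := (strictConcaveOn_log_Ioi.concaveOn).2 h1 h2 hw1 hw0 hw'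
  simp only [smul_eq_mul] at hcv
  have e : wm a c g h * (s + xp a c g h) + wp a c g h * (s + xm a c g h) = s + g + c := by
    have h0 := w_mean1 (g := g) (h := h) ha hc
    have : wm a c g h * (s + xp a c g h) + wp a c g h * (s + xm a c g h) =
        (wp a c g h + wm a c g h) * s + (wm a c g h * xp a c g h + wp a c g h * xm a c g h) := by
      ring
    rw [this, hw, h0]; ring
  rw [e] at hcv
  have e5 : 1 + pS c g s = (s + g + c) / (s + g) := by
    unfold pS; field_simp
  rw [e5, log_div (by linarith) h3.ne']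
  unfold LL
  linarith

/-- hypothesis on `κ`. -/
def KappaOK (κ a c g h δ : ℝ) : Prop :=
  2 + (c / a) * (1 + h / δ) + (a / c) * (1 + g / δ) ≤ κ

lemma kappa_two {κ δ : ℝ} (ha : 0 < a) (hc : 0 < c) (hh : 0 ≤ h) (hg : 0 ≤ g) (hδ : 0 < δ)
    (hκ : KappaOK κ a c g h δ) : 2 ≤ κ := by
  unfold KappaOK at hκ
  have h1 : 0 ≤ (c / a) * (1 + h / δ) := by positivity
  have h2 : 0 ≤ (a / c) * (1 + g / δ) := by positivity
  linarith

lemma kappa_c {κ δ σ : ℝ} (ha : 0 < a) (hc : 0 < c) (hh : 0 ≤ h) (hg : 0 ≤ g) (hδ : 0 < δ)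
    (hκ : KappaOK κ a c g h δ) (hσ : δ ≤ σ) : c * (σ + h) ≤ (κ - 1) * a * (σ + g) := by
  unfold KappaOK at hκ
  have hσ0 : 0 < σ := by linarith
  set A := 1 + h / δ with hA
  have hA0 : 0 < A := by positivity
  have h1 : σ + h ≤ A * σ := by
    rw [hA]
    have : h / δ * σ = h * (σ / δ) := by ring
    have h2 : 1 ≤ σ / δ := by rw [le_div_iff₀ hδ]; linarith
    nlinarith [mul_le_mul_of_nonneg_left h2 hh]
  have h2 : c * A ≤ (κ - 1) * a := by
    have h3 : 0 ≤ (a / c) * (1 + g / δ) := by positivity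
    have h4 : (c / a) * A ≤ κ - 1 := by linarith
    calc c * A = (c / a) * A * a := by field_simp
      _ ≤ (κ - 1) * a := mul_le_mul_of_nonneg_right h4 ha.le
  calc c * (σ + h) ≤ c * (A * σ) := mul_le_mul_of_nonneg_left h1 hc.le
    _ = (c * A) * σ := by ring
    _ ≤ ((κ - 1) * a) * σ := mul_le_mul_of_nonneg_right h2 hσ0.le
    _ ≤ ((κ - 1) * a) * (σ + g) := by
      apply mul_le_mul_of_nonneg_left (by linarith)
      exact le_trans (by positivity) h2
    _ = (κ - 1) * a * (σ + g) := by ring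

lemma kappa_a {κ δ σ : ℝ} (ha : 0 < a) (hc : 0 < c) (hh : 0 ≤ h) (hg : 0 ≤ g) (hδ : 0 < δ)
    (hκ : KappaOK κ a c g h δ) (hσ : δ ≤ σ) : a * (σ + g) ≤ (κ - 1) * c * (σ + h) := by
  have hκ' : KappaOK κ c a h g δ := by
    unfold KappaOK at hκ ⊢
    linarith
  exact kappa_c hc ha hg hh hδ hκ' hσ

end

end

end Vale.Agent.P358G
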