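import Mathlib
import Vale.Agent.P358G.Scalar
import Vale.Agent.P358G.Degenerate
import Vale.Agent.P358G.LevelLimit

/-!
End of the `GE` chain: from the bound `C₀ ≤ W(δ)` for every `δ > 0` (any admissible `κ`) to the
block inequality `GEAt`; the auxiliary `κ` disappears by superadditivity of `Fe`, and `δ → 0`.
-/

namespace Vale.Agent.P358G

open Matrix Finset BigOperators Filter Topology Vale.Agent.P358A
open scoped ComplexOrder

noncomputable section

variable {R J : Type*} [Fintype R] [DecidableEq R] [Fintype J] [DecidableEq J]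

lemma Su_eq_Fe_sub (X : Matrix R R ℂ) :
    Su X = Fe X - X.trace.re * Real.log X.trace.re := by
  unfold Fe; ring

lemma trace_add_smul (X Y : Matrix R R ℂ) (k : ℝ) :
    (X + ((k : ℝ) : ℂ) • Y).trace.re = X.trace.re + k * Y.trace.re := by
  simp [Matrix.trace_add, Matrix.trace_smul]

/-- From the bound at every `δ > 0` to `GEAt`. -/
theorem geAt_of_bound {H G : Matrix R R ℂ} (hH : H.PosSemidef) (hG : G.PosSemidef)
    (A C : Matrix R J ℂ) (ha : 0 < (A * Aᴴ).trace.re) (hc : 0 < (C * Cᴴ).trace.re)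
    (hB : ∀ d : ℝ, 0 < d → ∃ k : ℝ, 0 < k ∧
      -Su (treeT H G A C) + Su H + Su G
        + (1 / k) * (Su (H + ((k : ℝ) : ℂ) • (A * Aᴴ)) - Su H)
        + (1 / k) * (Su (G + ((k : ℝ) : ℂ) • (C * Cᴴ)) - Su G)
      ≤ WW k (A * Aᴴ).trace.re (C * Cᴴ).trace.re G.trace.re H.trace.re d) :
    GEAt H G A C := by
  intro htot
  set a := (A * Aᴴ).trace.re with hadef
  set c := (C * Cᴴ).trace.re with hcdef
  set h := H.trace.re with hhdef
  set g := G.trace.re with hgdef
  have hh0 : 0 ≤ h := trace_re_nn hH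
  have hg0 : 0 ≤ g := trace_re_nn hG
  have hAA : (A * Aᴴ).PosSemidef := posSemidef_self_mul_conjTranspose A
  have hCC : (C * Cᴴ).PosSemidef := posSemidef_self_mul_conjTranspose C
  set X := -Su (treeT H G A C) + Su H + Su G + Fe (A * Aᴴ) + Fe (C * Cᴴ) with hX
  -- the bound at each `d`
  have key : ∀ d : ℝ, 0 < d →
      X ≤ anti (xp a c g h) d + anti (xm a c g h) d - anti h d - anti g d := by
    intro d hd
    obtain ⟨k, hk, hb⟩ := hB d hd
    have f1 := Fe_add_kappa hH hAA hk
    have f2 := Fe_add_kappa hG hCC hk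
    have a1 := anti_sub_ge_Lam (l' := h) (l := h + k * a) hh0 (by nlinarith) hd
    have a2 := anti_sub_ge_Lam (l' := g) (l := g + k * c) hg0 (by nlinarith) hd
    have hk1 : 0 ≤ 1 / k := by positivity
    have a1' := mul_le_mul_of_nonneg_left a1 hk1
    have a2' := mul_le_mul_of_nonneg_left a2 hk1
    rw [Su_eq_Fe_sub (H + ((k : ℝ) : ℂ) • (A * Aᴴ)), Su_eq_Fe_sub (G + ((k : ℝ) : ℂ) • (C * Cᴴ)),
      trace_add_smul, trace_add_smul, Su_eq_Fe_sub H, Su_eq_Fe_sub G] at hb
    simp only [WW] at hb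
    rw [← hadef, ← hcdef, ← hhdef, ← hgdef] at hb
    have e1 : Su H = Fe H - h * Real.log h := Su_eq_Fe_sub H
    have e2 : Su G = Fe G - g * Real.log g := Su_eq_Fe_sub G
    rw [hX, e1, e2]
    nlinarith [hb, f1, f2, a1', a2']
  -- the limit `d → 0+`
  have hlim : Tendsto (fun d => anti (xp a c g h) d + anti (xm a c g h) d - anti h d - anti g d)
      (𝓝[>] 0) (𝓝 (xp a c g h * Real.log (xp a c g h) + xm a c g h * Real.log (xm a c g h)
        - h * Real.log h - g * Real.log g)) :=
    (((tendsto_anti_zero _).add (tendsto_anti_zero _)).sub (tendsto_anti_zero _)).sub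
      (tendsto_anti_zero _)
  have hle : X ≤ xp a c g h * Real.log (xp a c g h) + xm a c g h * Real.log (xm a c g h)
        - h * Real.log h - g * Real.log g := by
    refine ge_of_tendsto hlim ?_
    filter_upwards [self_mem_nhdsWithin] with d hd
    exact key d hd
  -- the entropy of the scalar matrix
  have hsum : xp a c g h + xm a c g h = 1 := by
    rw [xp_add_xm]
    linarith
  have hprod : xp a c g h * xm a c g h = (h + a) * (g + c) - a * c := xp_mul_xm ha hc
  have hxm : 0 ≤ xm a c g h := xm_nonneg' ha hc hh0 hg0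
  have hxp : 0 ≤ xp a c g h := (xp_pos' ha hc hh0).le
  have hE := Eent_split hxp hxm hsum
  rw [hprod] at hE
  rw [hE]
  have e1 : Fe H = Su H + h * Real.log h := rfl
  have e2 : Fe G = Su G + g * Real.log g := rfl
  rw [e1, e2]
  simp only [Real.negMulLog]
  rw [hX] at hle
  linarith

end

end Vale.Agent.P358G
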