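import Vale.Agent.P358G.Scalar

/-!
# P358 all nu: derivative and limit of `WW` (scalar part of S5)
-/

namespace Vale.Agent.P358G

open Real Filter Topology

noncomputable section

variable {a c g h κ : ℝ}

lemma log_one_add_div_eq {l σ : ℝ} (hl : 0 ≤ l) (hσ : 0 < σ) :
    log (1 + l / σ) = log (σ + l) - log σ := by
  have h1 : 1 + l / σ = (σ + l) / σ := by field_simp
  rw [h1, log_div (by linarith) hσ.ne']

lemma ee_pS_eq (hκ : 0 < κ) (ha : 0 < a) {σ : ℝ} (hh : 0 < σ + h) :
    ee κ (pS a h σ) = (1 / κ) * (log (σ + (h + κ * a)) - log (σ + h)) := by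
  unfold ee pS
  have h1 : 1 + κ * (a / (σ + h)) = (σ + (h + κ * a)) / (σ + h) := by field_simp; ring
  have h2 : 0 < σ + (h + κ * a) := by have : 0 < κ * a := by positivity
                                      linarith
  rw [h1, log_div h2.ne' hh.ne']

/-- `WW' = ft + ft1` on `σ > 0`. -/
theorem hasDerivAt_WW (hκ : 0 < κ) (ha : 0 < a) (hc : 0 < c) (hh : 0 ≤ h) (hg : 0 ≤ g) {σ : ℝ}
    (hσ : 0 < σ) :
    HasDerivAt (WW κ a c g h) (ft κ a c g h σ + ft1 κ a c g h σ) σ := by
  have hxp := xp_pos' (g := g) ha hc hh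
  have hxm := xm_nonneg' ha hc hh hg
  have hka : 0 ≤ h + κ * a := by positivity
  have hkc : 0 ≤ g + κ * c := by positivity
  have d1 := P358A.hasDerivAt_anti hxp.le hσ
  have d2 := P358A.hasDerivAt_anti hxm hσ
  have d3 := P358A.hasDerivAt_anti hh hσ
  have d4 := P358A.hasDerivAt_anti hg hσ
  have d5 := P358A.hasDerivAt_anti hka hσ
  have d6 := P358A.hasDerivAt_anti hkc hσ
  have D := ((((d1.fun_add d2).fun_sub d3).fun_sub d4).fun_sub
    ((d5.fun_sub d3).const_mul (1 / κ))).fun_sub ((d6.fun_sub d4).const_mul (1 / κ))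
  refine HasDerivAt.congr_deriv D ?_
  rw [log_one_add_div_eq hxp.le hσ, log_one_add_div_eq hxm hσ, log_one_add_div_eq hh hσ,
    log_one_add_div_eq hg hσ, log_one_add_div_eq hka hσ, log_one_add_div_eq hkc hσ]
  unfold ft ft1
  rw [ee_pS_eq hκ ha (by linarith), ee_pS_eq hκ hc (by linarith)]
  unfold KK LL
  have hw := wp_add_wm (g := g) (h := h) ha hc
  have hwp : wp a c g h = 1 - wm a c g h := by linarith
  rw [hwp]
  ring

/-- `WW → 0` at infinity. -/
theorem tendsto_WW (hκ : 0 < κ) (ha : 0 < a) (hc : 0 < c) (hh : 0 ≤ h) (hg : 0 ≤ g) :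
    Tendsto (WW κ a c g h) atTop (𝓝 0) := by
  have hxp := xp_pos' (g := g) ha hc hh
  have hxm := xm_nonneg' ha hc hh hg
  have hka : 0 ≤ h + κ * a := by positivity
  have hkc : 0 ≤ g + κ * c := by positivity
  have t1 := P358A.tendsto_anti_top hxp.le
  have t2 := P358A.tendsto_anti_top hxm
  have t3 := P358A.tendsto_anti_top hh
  have t4 := P358A.tendsto_anti_top hg
  have t5 := P358A.tendsto_anti_top hka
  have t6 := P358A.tendsto_anti_top hkc
  have T := ((((t1.add t2).sub t3).sub t4).sub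
    ((t5.sub t3).const_mul (1 / κ))).sub ((t6.sub t4).const_mul (1 / κ))
  have hsum := xp_add_xm (a := a) (c := c) (g := g) (h := h)
  have hval : xp a c g h + xm a c g h - h - g - 1 / κ * (h + κ * a - h) -
      1 / κ * (g + κ * c - g) = 0 := by
    rw [hsum]
    field_simp
    ring
  rw [hval] at T
  refine T.congr' ?_
  refine Eventually.of_forall fun σ => ?_
  unfold WW
  have hfun : xp a c g h + xm a c g h - h - g - 1 / κ * (h + κ * a - h) -
      1 / κ * (g + κ * c - g) = 0 := hval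
  have key : (xp a c g h + xm a c g h - h - g - 1 / κ * (h + κ * a - h) -
      1 / κ * (g + κ * c - g)) * log (1 + σ) = 0 := by rw [hfun, zero_mul]
  linear_combination -key

end

end Vale.Agent.P358G
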