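import Mathlib

/-!
S3: monotonicity of `ft = KK - e ∘ p` and of `ft1 = LL - e ∘ q` on `[δ, ∞)`, nonnegativity.
Pure real analysis.
-/

namespace Vale.Agent.P358G
open Filter Topology

noncomputable section

/-- `ftF` is `KK - e(p)` written with explicit parameters. -/
def ftF (a h xp xm w κ σ : ℝ) : ℝ :=
  w * Real.log ((σ + xp) / (σ + h)) + (1 - w) * Real.log ((σ + xm) / (σ + h))
    - (1 / κ) * Real.log (1 + κ * (a / (σ + h)))

/-- Its closed form with logs split, valid for `σ > 0`. -/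
def ftG (a h xp xm w κ σ : ℝ) : ℝ :=
  w * (Real.log (σ + xp) - Real.log (σ + h)) + (1 - w) * (Real.log (σ + xm) - Real.log (σ + h))
    - (1 / κ) * (Real.log (σ + h + κ * a) - Real.log (σ + h))

lemma ftF_eq_ftG {a h xp xm w κ σ : ℝ} (ha : 0 < a) (hh : 0 ≤ h) (hκ : 0 < κ) (hxp : 0 ≤ xp)
    (hxm : 0 ≤ xm) (hσ : 0 < σ) : ftF a h xp xm w κ σ = ftG a h xp xm w κ σ := by
  have h1 : σ + h ≠ 0 := by positivity
  have h2 : σ + xp ≠ 0 := by positivity
  have h3 : σ + xm ≠ 0 := by positivity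
  have h4 : σ + h + κ * a ≠ 0 := by positivity
  have e : 1 + κ * (a / (σ + h)) = (σ + h + κ * a) / (σ + h) := by
    field_simp
  unfold ftF ftG
  rw [e, Real.log_div h2 h1, Real.log_div h3 h1, Real.log_div h4 h1]

lemma hasDerivAt_ftG {a h xp xm w κ σ : ℝ} (ha : 0 < a) (hh : 0 ≤ h) (hκ : 0 < κ) (hxp : 0 ≤ xp)
    (hxm : 0 ≤ xm) (hσ : 0 < σ) :
    HasDerivAt (ftG a h xp xm w κ)
      (w * (1 / (σ + xp) - 1 / (σ + h)) + (1 - w) * (1 / (σ + xm) - 1 / (σ + h))
        - (1 / κ) * (1 / (σ + h + κ * a) - 1 / (σ + h))) σ := by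
  have h1 : σ + h ≠ 0 := by positivity
  have h2 : σ + xp ≠ 0 := by positivity
  have h3 : σ + xm ≠ 0 := by positivity
  have h4 : σ + h + κ * a ≠ 0 := by positivity
  have d (x : ℝ) (hx : σ + x ≠ 0) : HasDerivAt (fun s : ℝ => Real.log (s + x)) (1 / (σ + x)) σ := by
    have := ((hasDerivAt_id σ).add_const x).log hx
    simpa using this
  have d4 : HasDerivAt (fun s : ℝ => Real.log (s + h + κ * a)) (1 / (σ + h + κ * a)) σ := by
    have := d (h + κ * a) (by rw [← add_assoc]; exact h4)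
    simpa [add_assoc] using this
  exact (((d xp h2).sub (d h h1)).const_mul w).add (((d xm h3).sub (d h h1)).const_mul (1 - w))
    |>.sub ((d4.sub (d h h1)).const_mul (1 / κ))

/-- The sign condition. -/
lemma key_sign {a c h g κ δ σ : ℝ} (ha : 0 < a) (hc : 0 < c) (hh : 0 ≤ h) (hg : 0 ≤ g) (hδ : 0 < δ)
    (hκ : 2 + (c / a) * (1 + h / δ) + (a / c) * (1 + g / δ) ≤ κ) (hσ : δ ≤ σ) :
    c * (σ + h) ≤ (κ - 1) * a * (σ + g) := by
  have hσ0 : 0 < σ := lt_of_lt_of_le hδ hσ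
  have h1 : 0 ≤ (a / c) * (1 + g / δ) := by positivity
  have h2 : (c / a) * (1 + h / δ) ≤ κ - 1 := by linarith
  have h3 : (c / a) * (1 + h / δ) * (a * (σ + g)) ≤ (κ - 1) * (a * (σ + g)) :=
    mul_le_mul_of_nonneg_right h2 (by positivity)
  have h4 : (c / a) * (1 + h / δ) * (a * (σ + g)) = c * (1 + h / δ) * (σ + g) := by
    field_simp
  have h5 : c * (σ + h) ≤ c * (1 + h / δ) * (σ + g) := by
    have h6 : h ≤ (h / δ) * σ := by
      rw [div_mul_eq_mul_div, le_div_iff₀ hδ]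
      exact mul_le_mul_of_nonneg_left hσ hh
    have h7 : σ + h ≤ (1 + h / δ) * (σ + g) := by
      have : 0 ≤ (1 + h / δ) * g := by positivity
      nlinarith
    calc c * (σ + h) ≤ c * ((1 + h / δ) * (σ + g)) := mul_le_mul_of_nonneg_left h7 hc.le
      _ = c * (1 + h / δ) * (σ + g) := by ring
  nlinarith

lemma deriv_ftG_nonpos {a c h g xp xm w κ δ σ : ℝ} (ha : 0 < a) (hc : 0 < c) (hh : 0 ≤ h)
    (hg : 0 ≤ g) (hδ : 0 < δ) (hsum : xp + xm = h + a + g + c)
    (hprod : xp * xm = (h + a) * (g + c) - a * c) (hxm : 0 ≤ xm) (hlt : xm < xp)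
    (hw : w * (xp - xm) = h + a - xm)
    (hκ : 2 + (c / a) * (1 + h / δ) + (a / c) * (1 + g / δ) ≤ κ) (hσ : δ ≤ σ) :
    w * (1 / (σ + xp) - 1 / (σ + h)) + (1 - w) * (1 / (σ + xm) - 1 / (σ + h))
        - (1 / κ) * (1 / (σ + h + κ * a) - 1 / (σ + h)) ≤ 0 := by
  have hσ0 : 0 < σ := lt_of_lt_of_le hδ hσ
  have hκ2 : 2 ≤ κ := by
    have h1 : 0 ≤ (c / a) * (1 + h / δ) := by positivity
    have h2 : 0 ≤ (a / c) * (1 + g / δ) := by positivity
    linarith
  have hκ0 : 0 < κ := by linarith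
  have hxp : 0 ≤ xp := by linarith
  set S := σ + h with hS
  have hSpos : 0 < S := by positivity
  have hU : 0 < σ + xp := by positivity
  have hV : 0 < σ + xm := by positivity
  have hK : 0 < S + κ * a := by positivity
  have hkey := key_sign ha hc hh hg hδ hκ hσ
  have hD : (σ + xp) * (σ + xm) = S * (σ + g + c) + a * (σ + g) := by
    rw [hS]; nlinarith
  have hnum : w * (σ + xm) + (1 - w) * (σ + xp) = σ + g + c := by nlinarith
  have e1 : w * (1 / (σ + xp)) + (1 - w) * (1 / (σ + xm))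
      = (σ + g + c) / ((σ + xp) * (σ + xm)) := by
    rw [← hnum]; field_simp
  have e2 : (1 / κ) * (1 / (S + κ * a) - 1 / S) = - (a / (S * (S + κ * a))) := by
    field_simp
    ring
  have e3 : w * (1 / (σ + xp) - 1 / S) + (1 - w) * (1 / (σ + xm) - 1 / S)
      - (1 / κ) * (1 / (S + κ * a) - 1 / S)
      = (σ + g + c) / ((σ + xp) * (σ + xm)) - 1 / S + a / (S * (S + κ * a)) := by
    rw [e2, ← e1]; ring
  rw [e3, hD]
  have hD0 : 0 < S * (σ + g + c) + a * (σ + g) := by positivity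
  have e4 : (σ + g + c) / (S * (σ + g + c) + a * (σ + g)) - 1 / S + a / (S * (S + κ * a))
      = (σ + g + c) / (S * (σ + g + c) + a * (σ + g)) - (S + (κ - 1) * a) / (S * (S + κ * a)) := by
    field_simp
    ring
  rw [e4, sub_nonpos, div_le_div_iff₀ hD0 (by positivity)]
  have : (S + (κ - 1) * a) * (S * (σ + g + c) + a * (σ + g)) - (σ + g + c) * (S * (S + κ * a))
      = a * ((κ - 1) * a * (σ + g) - c * S) := by ring
  have h5 : 0 ≤ a * ((κ - 1) * a * (σ + g) - c * S) :=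
    mul_nonneg ha.le (by rw [hS]; linarith)
  linarith

/-- S3, first row. -/
theorem ftF_antitoneOn {a c h g xp xm w κ δ : ℝ} (ha : 0 < a) (hc : 0 < c) (hh : 0 ≤ h)
    (hg : 0 ≤ g) (hδ : 0 < δ) (hsum : xp + xm = h + a + g + c)
    (hprod : xp * xm = (h + a) * (g + c) - a * c) (hxm : 0 ≤ xm) (hlt : xm < xp)
    (hw : w * (xp - xm) = h + a - xm)
    (hκ : 2 + (c / a) * (1 + h / δ) + (a / c) * (1 + g / δ) ≤ κ) :
    AntitoneOn (ftF a h xp xm w κ) (Set.Ici δ) := by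
  have hκ0 : 0 < κ := by
    have h1 : 0 ≤ (c / a) * (1 + h / δ) := by positivity
    have h2 : 0 ≤ (a / c) * (1 + g / δ) := by positivity
    linarith
  have hxp : 0 ≤ xp := by linarith
  have hG : AntitoneOn (ftG a h xp xm w κ) (Set.Ici δ) := by
    refine antitoneOn_of_hasDerivWithinAt_nonpos (convex_Ici δ) (f' := fun σ =>
      w * (1 / (σ + xp) - 1 / (σ + h)) + (1 - w) * (1 / (σ + xm) - 1 / (σ + h))
        - (1 / κ) * (1 / (σ + h + κ * a) - 1 / (σ + h))) ?_ ?_ ?_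
    · intro x hx
      have hx0 : 0 < x := lt_of_lt_of_le hδ hx
      exact (hasDerivAt_ftG ha hh hκ0 hxp hxm hx0).continuousAt.continuousWithinAt
    · intro x hx
      rw [interior_Ici] at hx
      have hx0 : 0 < x := lt_trans hδ hx
      exact (hasDerivAt_ftG ha hh hκ0 hxp hxm hx0).hasDerivWithinAt
    · intro x hx
      rw [interior_Ici] at hx
      exact deriv_ftG_nonpos ha hc hh hg hδ hsum hprod hxm hlt hw hκ (le_of_lt hx)
  intro x hx y hy hxy
  have hx0 : 0 < x := lt_of_lt_of_le hδ hx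
  have hy0 : 0 < y := lt_of_lt_of_le hδ hy
  rw [ftF_eq_ftG ha hh hκ0 hxp hxm hx0, ftF_eq_ftG ha hh hκ0 hxp hxm hy0]
  exact hG hx hy hxy

lemma tendsto_div_add_one (x h : ℝ) :
    Tendsto (fun t : ℝ => (t + x) / (t + h)) atTop (𝓝 1) := by
  have h1 : Tendsto (fun t : ℝ => 1 + (x - h) / (t + h)) atTop (𝓝 (1 + 0)) := by
    refine tendsto_const_nhds.add (Tendsto.const_div_atTop ?_ _)
    exact tendsto_atTop_add_const_right _ _ tendsto_id
  rw [add_zero] at h1
  refine h1.congr' ?_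
  filter_upwards [eventually_gt_atTop (-h)] with t ht
  have : t + h ≠ 0 := by linarith
  field_simp
  ring

lemma tendsto_ftF (a h xp xm w κ : ℝ) : Tendsto (ftF a h xp xm w κ) atTop (𝓝 0) := by
  have hlog : ∀ x, Tendsto (fun t : ℝ => Real.log ((t + x) / (t + h))) atTop (𝓝 0) := by
    intro x
    have := (Real.continuousAt_log one_ne_zero).tendsto.comp (tendsto_div_add_one x h)
    simpa [Function.comp_def] using this
  have h3 : Tendsto (fun t : ℝ => Real.log (1 + κ * (a / (t + h)))) atTop (𝓝 0) := by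
    have h4 : Tendsto (fun t : ℝ => 1 + κ * (a / (t + h))) atTop (𝓝 (1 + κ * 0)) := by
      refine tendsto_const_nhds.add (Tendsto.const_mul _ (Tendsto.const_div_atTop ?_ _))
      exact tendsto_atTop_add_const_right _ _ tendsto_id
    have h5 : ((1 : ℝ) + κ * 0) = 1 := by ring
    rw [h5] at h4
    have := (Real.continuousAt_log one_ne_zero).tendsto.comp h4
    simpa [Function.comp_def] using this
  have h6 := (((hlog xp).const_mul w).add ((hlog xm).const_mul (1 - w))).sub (h3.const_mul (1 / κ))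
  simp only [mul_zero, add_zero, sub_zero] at h6
  exact h6

/-- S3: nonnegativity, first row. -/
theorem ftF_nonneg {a c h g xp xm w κ δ : ℝ} (ha : 0 < a) (hc : 0 < c) (hh : 0 ≤ h)
    (hg : 0 ≤ g) (hδ : 0 < δ) (hsum : xp + xm = h + a + g + c)
    (hprod : xp * xm = (h + a) * (g + c) - a * c) (hxm : 0 ≤ xm) (hlt : xm < xp)
    (hw : w * (xp - xm) = h + a - xm)
    (hκ : 2 + (c / a) * (1 + h / δ) + (a / c) * (1 + g / δ) ≤ κ) {x : ℝ} (hx : δ ≤ x) :
    0 ≤ ftF a h xp xm w κ x := by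
  have hanti := ftF_antitoneOn ha hc hh hg hδ hsum hprod hxm hlt hw hκ
  refine le_of_tendsto (tendsto_ftF a h xp xm w κ) ?_
  filter_upwards [eventually_ge_atTop x] with y hy
  exact hanti (Set.mem_Ici.mpr hx) (Set.mem_Ici.mpr (le_trans hx hy)) hy

/-- `ft1` as an instance of `ftF` with the roles swapped. -/
lemma swap_weight {a c h g xp xm w : ℝ} (hsum : xp + xm = h + a + g + c) (hlt : xm < xp)
    (hw : w * (xp - xm) = h + a - xm) : (1 - w) * (xp - xm) = g + c - xm := by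
  nlinarith

/-- S3, second row: `(1-w) log((σ+xp)/(σ+g)) + w log((σ+xm)/(σ+g)) - e(c/(σ+g))` is antitone. -/
theorem ftF_antitoneOn' {a c h g xp xm w κ δ : ℝ} (ha : 0 < a) (hc : 0 < c) (hh : 0 ≤ h)
    (hg : 0 ≤ g) (hδ : 0 < δ) (hsum : xp + xm = h + a + g + c)
    (hprod : xp * xm = (h + a) * (g + c) - a * c) (hxm : 0 ≤ xm) (hlt : xm < xp)
    (hw : w * (xp - xm) = h + a - xm)
    (hκ : 2 + (c / a) * (1 + h / δ) + (a / c) * (1 + g / δ) ≤ κ) :
    AntitoneOn (ftF c g xp xm (1 - w) κ) (Set.Ici δ) :=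
  ftF_antitoneOn hc ha hg hh hδ (by linarith) (by rw [hprod]; ring) hxm hlt
    (swap_weight hsum hlt hw) (by linarith)

theorem ftF_nonneg' {a c h g xp xm w κ δ : ℝ} (ha : 0 < a) (hc : 0 < c) (hh : 0 ≤ h)
    (hg : 0 ≤ g) (hδ : 0 < δ) (hsum : xp + xm = h + a + g + c)
    (hprod : xp * xm = (h + a) * (g + c) - a * c) (hxm : 0 ≤ xm) (hlt : xm < xp)
    (hw : w * (xp - xm) = h + a - xm)
    (hκ : 2 + (c / a) * (1 + h / δ) + (a / c) * (1 + g / δ) ≤ κ) {x : ℝ} (hx : δ ≤ x) :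
    0 ≤ ftF c g xp xm (1 - w) κ x :=
  ftF_nonneg hc ha hg hh hδ (by linarith) (by rw [hprod]; ring) hxm hlt
    (swap_weight hsum hlt hw) (by linarith) hx

/-- The last line of S3: `(κ-1) p(δ) ≥ q(δ)`. -/
theorem kappa_p_ge_q {a c h g κ δ : ℝ} (ha : 0 < a) (hc : 0 < c) (hh : 0 ≤ h) (hg : 0 ≤ g)
    (hδ : 0 < δ) (hκ : 2 + (c / a) * (1 + h / δ) + (a / c) * (1 + g / δ) ≤ κ) :
    c / (δ + g) ≤ (κ - 1) * (a / (δ + h)) := by
  have := key_sign ha hc hh hg hδ hκ (le_refl δ)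
  have h1 : 0 < δ + g := by positivity
  have h2 : 0 < δ + h := by positivity
  rw [← mul_div_assoc, div_le_div_iff₀ h1 h2]
  linarith

theorem kappa_q_ge_p {a c h g κ δ : ℝ} (ha : 0 < a) (hc : 0 < c) (hh : 0 ≤ h) (hg : 0 ≤ g)
    (hδ : 0 < δ) (hκ : 2 + (c / a) * (1 + h / δ) + (a / c) * (1 + g / δ) ≤ κ) :
    a / (δ + h) ≤ (κ - 1) * (c / (δ + g)) :=
  kappa_p_ge_q hc ha hg hh hδ (by linarith)

end

end Vale.Agent.P358G
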