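import Vale.Agent.P358G.StepPot
import Vale.Agent.P358G.Scalar
import Vale.Agent.P358G.ScalarS3

/-!
S4 for the concrete scalar functions `KK`, `LL`, `ft`, `ft1` of `Scalar`.
-/

namespace Vale.Agent.P358G
open Real Finset

noncomputable section

variable {a c g h κ δ : ℝ}

lemma hw_eq (ha : 0 < a) (hc : 0 < c) :
    wp a c g h * (xp a c g h - xm a c g h) = h + a - xm a c g h := by
  have hd : 0 < dl a c g h := by
    unfold dl
    apply Real.sqrt_pos.mpr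
    have : 0 < 4 * a * c := by positivity
    nlinarith [sq_nonneg (h + a - g - c)]
  rw [xp_sub_xm]
  unfold wp
  field_simp

lemma xm_lt_xp (ha : 0 < a) (hc : 0 < c) : xm a c g h < xp a c g h := by
  have hd : 0 < dl a c g h := by
    unfold dl
    apply Real.sqrt_pos.mpr
    have : 0 < 4 * a * c := by positivity
    nlinarith [sq_nonneg (h + a - g - c)]
  have := xp_sub_xm (a := a) (c := c) (g := g) (h := h)
  linarith

lemma ft_eq_ftF (ha : 0 < a) (hc : 0 < c) (hh : 0 ≤ h) (hg : 0 ≤ g) {σ : ℝ} (hσ : 0 < σ) :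
    ft κ a c g h σ = ftF a h (xp a c g h) (xm a c g h) (wp a c g h) κ σ := by
  have hxp := xp_pos' (g := g) ha hc hh
  have hxm := xm_nonneg' ha hc hh hg
  have h1 : 0 < σ + xp a c g h := by linarith
  have h2 : 0 < σ + xm a c g h := by linarith
  have h3 : 0 < σ + h := by linarith
  have hw := wp_add_wm (g := g) (h := h) ha hc
  have hwm : 1 - wp a c g h = wm a c g h := by linarith
  unfold ft ftF KK ee pS
  rw [log_div h1.ne' h3.ne', log_div h2.ne' h3.ne', hwm]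
  have : log (σ + h) = (wp a c g h + wm a c g h) * log (σ + h) := by rw [hw, one_mul]
  linear_combination (-1 : ℝ) * this

lemma ft1_eq_ftF (ha : 0 < a) (hc : 0 < c) (hh : 0 ≤ h) (hg : 0 ≤ g) {σ : ℝ} (hσ : 0 < σ) :
    ft1 κ a c g h σ = ftF c g (xp a c g h) (xm a c g h) (1 - wp a c g h) κ σ := by
  have hxp := xp_pos' (g := g) ha hc hh
  have hxm := xm_nonneg' ha hc hh hg
  have h1 : 0 < σ + xp a c g h := by linarith
  have h2 : 0 < σ + xm a c g h := by linarith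
  have h3 : 0 < σ + g := by linarith
  have hw := wp_add_wm (g := g) (h := h) ha hc
  have hwm : 1 - wp a c g h = wm a c g h := by linarith
  have hwp : 1 - wm a c g h = wp a c g h := by linarith
  unfold ft1 ftF LL ee pS
  rw [log_div h1.ne' h3.ne', log_div h2.ne' h3.ne', hwm, hwp]
  have : log (σ + g) = (wp a c g h + wm a c g h) * log (σ + g) := by rw [hw, one_mul]
  linear_combination (-1 : ℝ) * this

/-- S3 for `ft`. -/
theorem ft_antitoneOn (ha : 0 < a) (hc : 0 < c) (hh : 0 ≤ h) (hg : 0 ≤ g) (hδ : 0 < δ)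
    (hκ : KappaOK κ a c g h δ) : AntitoneOn (ft κ a c g h) (Set.Ici δ) := by
  have h1 := ftF_antitoneOn (w := wp a c g h) (xp := xp a c g h) (xm := xm a c g h) ha hc hh hg hδ
    (by rw [xp_add_xm]) (by rw [xp_mul_xm ha hc]) (xm_nonneg' ha hc hh hg) (xm_lt_xp ha hc)
    (hw_eq ha hc) hκ
  intro x hx y hy hxy
  have hx0 : 0 < x := lt_of_lt_of_le hδ hx
  have hy0 : 0 < y := lt_of_lt_of_le hδ hy
  rw [ft_eq_ftF ha hc hh hg hx0, ft_eq_ftF ha hc hh hg hy0]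
  exact h1 hx hy hxy

theorem ft_nonneg (ha : 0 < a) (hc : 0 < c) (hh : 0 ≤ h) (hg : 0 ≤ g) (hδ : 0 < δ)
    (hκ : KappaOK κ a c g h δ) {x : ℝ} (hx : δ ≤ x) : 0 ≤ ft κ a c g h x := by
  have hx0 : 0 < x := lt_of_lt_of_le hδ hx
  rw [ft_eq_ftF ha hc hh hg hx0]
  exact ftF_nonneg ha hc hh hg hδ (by rw [xp_add_xm]) (by rw [xp_mul_xm ha hc])
    (xm_nonneg' ha hc hh hg) (xm_lt_xp ha hc) (hw_eq ha hc) hκ hx

/-- S3 for `ft1`. -/
theorem ft1_antitoneOn (ha : 0 < a) (hc : 0 < c) (hh : 0 ≤ h) (hg : 0 ≤ g) (hδ : 0 < δ)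
    (hκ : KappaOK κ a c g h δ) : AntitoneOn (ft1 κ a c g h) (Set.Ici δ) := by
  have h1 := ftF_antitoneOn' (w := wp a c g h) (xp := xp a c g h) (xm := xm a c g h) ha hc hh hg hδ
    (by rw [xp_add_xm]) (by rw [xp_mul_xm ha hc]) (xm_nonneg' ha hc hh hg) (xm_lt_xp ha hc)
    (hw_eq ha hc) hκ
  intro x hx y hy hxy
  have hx0 : 0 < x := lt_of_lt_of_le hδ hx
  have hy0 : 0 < y := lt_of_lt_of_le hδ hy
  rw [ft1_eq_ftF ha hc hh hg hx0, ft1_eq_ftF ha hc hh hg hy0]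
  exact h1 hx hy hxy

theorem ft1_nonneg (ha : 0 < a) (hc : 0 < c) (hh : 0 ≤ h) (hg : 0 ≤ g) (hδ : 0 < δ)
    (hκ : KappaOK κ a c g h δ) {x : ℝ} (hx : δ ≤ x) : 0 ≤ ft1 κ a c g h x := by
  have hx0 : 0 < x := lt_of_lt_of_le hδ hx
  rw [ft1_eq_ftF ha hc hh hg hx0]
  exact ftF_nonneg' ha hc hh hg hδ (by rw [xp_add_xm]) (by rw [xp_mul_xm ha hc])
    (xm_nonneg' ha hc hh hg) (xm_lt_xp ha hc) (hw_eq ha hc) hκ hx

/-- The potential of the first row. -/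
def kstep (κ a c g h δ : ℝ) (L : ℕ) (x : ℝ) : ℝ :=
  eK κ x + ∑ n ∈ range L, Dw (ft κ a c g h) δ L n * (if pS a h (((n : ℝ) + 1) * δ) ≤ x then 1 else 0)

/-- The potential of the second row. -/
def lstep (κ a c g h δ : ℝ) (L : ℕ) (y : ℝ) : ℝ :=
  eK κ y + ∑ n ∈ range L, Dw (ft1 κ a c g h) δ L n * (if pS c g (((n : ℝ) + 1) * δ) ≤ y then 1 else 0)

/-- S4 for the concrete potentials. -/
theorem kstep_lstep_le (ha : 0 < a) (hc : 0 < c) (hh : 0 ≤ h) (hg : 0 ≤ g) (hδ : 0 < δ)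
    (hκ : KappaOK κ a c g h δ) (L : ℕ) {x y : ℝ} (hx : 0 ≤ x) (hy : 0 ≤ y) :
    kstep κ a c g h δ L x + lstep κ a c g h δ L y ≤ log (1 + x + y) := by
  have hκ2 := kappa_two ha hc hh hg hδ hκ
  have := step_pot_le (KK := KK a c g h) (LL := LL a c g h) ha hc hh hg hδ hκ2
    (fun s τ hs hτ => S2 ha hc hh hg hs hτ) (fun s hs => S2a ha hc hh hg hs)
    (fun s hs => S2b ha hc hh hg hs) (ft_antitoneOn ha hc hh hg hδ hκ)
    (fun σ hσ => ft_nonneg ha hc hh hg hδ hκ hσ) (ft1_antitoneOn ha hc hh hg hδ hκ)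
    (fun σ hσ => ft1_nonneg ha hc hh hg hδ hκ hσ) (kappa_p_ge_q ha hc hh hg hδ hκ)
    (kappa_q_ge_p ha hc hh hg hδ hκ) L hx hy
  exact this

lemma kstep_eq (κ a c g h δ : ℝ) (L : ℕ) (x : ℝ) :
    kstep κ a c g h δ L x = ee κ x + ∑ n ∈ range L, Dw (ft κ a c g h) δ L n *
      (if pS a h (((n : ℝ) + 1) * δ) ≤ x then 1 else 0) := rfl

lemma lstep_eq (κ a c g h δ : ℝ) (L : ℕ) (y : ℝ) :
    lstep κ a c g h δ L y = ee κ y + ∑ n ∈ range L, Dw (ft1 κ a c g h) δ L n *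
      (if pS c g (((n : ℝ) + 1) * δ) ≤ y then 1 else 0) := rfl

end
end Vale.Agent.P358G
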