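import Mathlib
import Vale.Agent.P358G.StepInst
import Vale.Agent.P358G.ScalarW
import Vale.Agent.P358G.LevelLimit

/-!
From the pointwise inequality for all `s > 0` (counting form) to the bound `C0 ≤ WW δ`:
level integration, `Tr X₊ ≥ Tr X`, Abel summation, Riemann sums and the limit `L → ∞`.
-/

namespace Vale.Agent.P358G
open Filter Topology Finset BigOperators

noncomputable section

variable {a c g h κ δ C0 : ℝ}

lemma sum_ite_const_card {K : Type*} [Fintype K] (D : ℝ) (f : K → ℝ) (s : ℝ) :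
    ∑ j, (if s < f j then D else 0) = D * ((univ.filter fun j => s < f j).card : ℝ) := by
  classical
  rw [← Finset.sum_filter, Finset.sum_const, nsmul_eq_mul]
  ring

theorem C0_le_WW {J J' : Type*} [Fintype J] [Fintype J'] (ha : 0 < a) (hc : 0 < c) (hh : 0 ≤ h)
    (hg : 0 ≤ g) (hδ : 0 < δ) (hκ : KappaOK κ a c g h δ)
    (m : ℕ → J → ℝ) (m' : ℕ → J' → ℝ)
    (htr : ∀ n, ∑ j, m n j = ((n : ℝ) + 1) * δ) (htr' : ∀ n, ∑ j, m' n j = ((n : ℝ) + 1) * δ)
    (C C' : ℝ → ℝ) (hC : ∀ s, 0 < s → HasDerivAt C (C' s) s)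
    (h0 : Tendsto C (𝓝[>] 0) (𝓝 C0)) (h1 : Tendsto C atTop (𝓝 0))
    (hpoint : ∀ (L : ℕ) (s : ℝ), 0 < s →
      ∑ n ∈ range L, Dw (ft κ a c g h) δ L n * ((univ.filter fun j => s < m n j).card : ℝ)
        + ∑ n ∈ range L, Dw (ft1 κ a c g h) δ L n * ((univ.filter fun j => s < m' n j).card : ℝ)
        ≤ C' s) :
    C0 ≤ WW κ a c g h δ := by
  classical
  have hκ2 := kappa_two ha hc hh hg hδ hκ
  have hκ0 : 0 < κ := by linarith
  have hanti0 := ft_antitoneOn ha hc hh hg hδ hκ
  have hanti1 := ft1_antitoneOn ha hc hh hg hδ hκ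
  have hD0 : ∀ L n, 0 ≤ Dw (ft κ a c g h) δ L n := fun L n =>
    Dw_nonneg hδ hanti0 (fun x hx => ft_nonneg ha hc hh hg hδ hκ hx) L n
  have hD1 : ∀ L n, 0 ≤ Dw (ft1 κ a c g h) δ L n := fun L n =>
    Dw_nonneg hδ hanti1 (fun x hx => ft1_nonneg ha hc hh hg hδ hκ hx) L n
  have hmain : ∀ L : ℕ, WW κ a c g h (((L : ℝ) + 1) * δ) - WW κ a c g h δ ≤ -C0 := by
    intro L
    -- the index set
    let d : (Fin L × J) ⊕ (Fin L × J') → ℝ :=
      Sum.elim (fun p => Dw (ft κ a c g h) δ L p.1) (fun p => Dw (ft1 κ a c g h) δ L p.1)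
    let mm : (Fin L × J) ⊕ (Fin L × J') → ℝ :=
      Sum.elim (fun p => m p.1 p.2) (fun p => m' p.1 p.2)
    have hd : ∀ i, 0 ≤ d i := by
      rintro (p | p)
      · exact hD0 L _
      · exact hD1 L _
    have hle : ∀ s, 0 < s → ∑ i, (if s < mm i then d i else 0) ≤ C' s := by
      intro s hs
      refine le_trans (le_of_eq ?_) (hpoint L s hs)
      rw [Fintype.sum_sum_type, Fintype.sum_prod_type, Fintype.sum_prod_type]
      simp only [d, mm, Sum.elim_inl, Sum.elim_inr]
      rw [← Fin.sum_univ_eq_sum_range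
          (fun n => Dw (ft κ a c g h) δ L n * ((univ.filter fun j => s < m n j).card : ℝ)) L,
        ← Fin.sum_univ_eq_sum_range
          (fun n => Dw (ft1 κ a c g h) δ L n * ((univ.filter fun j => s < m' n j).card : ℝ)) L]
      congr 1
      · refine Finset.sum_congr rfl fun n _ => ?_
        exact sum_ite_const_card _ (m n) s
      · refine Finset.sum_congr rfl fun n _ => ?_
        exact sum_ite_const_card _ (m' n) s
    have hlev := level_limit d mm hd C C' hC hle h0 h1
    -- lower bound by the traces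
    have hlow : ∑ n ∈ range L, Dw (ft κ a c g h) δ L n * (((n : ℝ) + 1) * δ)
        + ∑ n ∈ range L, Dw (ft1 κ a c g h) δ L n * (((n : ℝ) + 1) * δ)
        ≤ ∑ i, d i * max (mm i) 0 := by
      rw [Fintype.sum_sum_type, Fintype.sum_prod_type, Fintype.sum_prod_type]
      simp only [d, mm, Sum.elim_inl, Sum.elim_inr]
      rw [← Fin.sum_univ_eq_sum_range
          (fun n => Dw (ft κ a c g h) δ L n * (((n : ℝ) + 1) * δ)) L,
        ← Fin.sum_univ_eq_sum_range
          (fun n => Dw (ft1 κ a c g h) δ L n * (((n : ℝ) + 1) * δ)) L]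
      refine add_le_add ?_ ?_
      · refine Finset.sum_le_sum fun n _ => ?_
        rw [← htr n, Finset.mul_sum]
        exact Finset.sum_le_sum fun j _ =>
          mul_le_mul_of_nonneg_left (le_max_left _ _) (hD0 L _)
      · refine Finset.sum_le_sum fun n _ => ?_
        rw [← htr' n, Finset.mul_sum]
        exact Finset.sum_le_sum fun j _ =>
          mul_le_mul_of_nonneg_left (le_max_left _ _) (hD1 L _)
    rw [abel_Dw, abel_Dw] at hlow
    have hriem := sub_le_riemann_of_antitone (W := WW κ a c g h)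
      (Ψ := fun x => ft κ a c g h x + ft1 κ a c g h x) hδ
      (fun x hx => hasDerivAt_WW hκ0 ha hc hh hg (lt_of_lt_of_le hδ hx))
      (fun x hx y hy hxy => add_le_add (hanti0 hx hy hxy) (hanti1 hx hy hxy)) L
    have e : δ * ∑ n ∈ range L, (ft κ a c g h (((n : ℝ) + 1) * δ) + ft1 κ a c g h (((n : ℝ) + 1) * δ))
        = δ * ∑ n ∈ range L, ft κ a c g h (((n : ℝ) + 1) * δ)
          + δ * ∑ n ∈ range L, ft1 κ a c g h (((n : ℝ) + 1) * δ) := by
      rw [Finset.sum_add_distrib, mul_add]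
    beta_reduce at hriem
    linarith
  have hlim : Tendsto (fun L : ℕ => WW κ a c g h (((L : ℝ) + 1) * δ) - WW κ a c g h δ)
      atTop (𝓝 (0 - WW κ a c g h δ)) := by
    refine Tendsto.sub_const ?_ _
    refine (tendsto_WW hκ0 ha hc hh hg).comp ?_
    refine Tendsto.atTop_mul_const hδ ?_
    exact tendsto_atTop_add_const_right _ _ tendsto_natCast_atTop_atTop
  have := le_of_tendsto hlim (Eventually.of_forall hmain)
  linarith

end

end Vale.Agent.P358G
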