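import Mathlib

/-!
Key lemma (no commutation needed): if `k p + l q ≤ log (1 + p + q)` for all `p, q ≥ 0`, then
`Tr k(P) + Tr l(Q) ≤ log det (1 + P + Q)` for all positive semidefinite `P, Q`.
-/

namespace Vale.Agent.P358G
open Matrix Finset BigOperators
open scoped ComplexOrder

noncomputable section

/-- Scalar core: Jensen on doubly stochastic weights. -/
lemma core_stochastic {r i j : Type*} [Fintype r] [Fintype i] [Fintype j]
    (α : r → i → ℝ) (β : r → j → ℝ)
    (hα : ∀ a b, 0 ≤ α a b) (hβ : ∀ a b, 0 ≤ β a b)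
    (hα1 : ∀ a, ∑ b, α a b = 1) (hβ1 : ∀ a, ∑ b, β a b = 1)
    (hα2 : ∀ b, ∑ a, α a b = 1) (hβ2 : ∀ b, ∑ a, β a b = 1)
    (p : i → ℝ) (q : j → ℝ) (hp : ∀ b, 0 ≤ p b) (hq : ∀ b, 0 ≤ q b)
    (k l : ℝ → ℝ) (hkl : ∀ x y, 0 ≤ x → 0 ≤ y → k x + l y ≤ Real.log (1 + x + y)) :
    ∑ b, k (p b) + ∑ b, l (q b)
      ≤ ∑ a, Real.log (1 + ∑ b, α a b * p b + ∑ b, β a b * q b) := by
  classical
  have key : ∀ a, ∑ b, α a b * k (p b) + ∑ c, β a c * l (q c)
      ≤ Real.log (1 + ∑ b, α a b * p b + ∑ c, β a c * q c) := by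
    intro a
    have hw0 : ∀ x ∈ (Finset.univ : Finset (i × j)), 0 ≤ α a x.1 * β a x.2 :=
      fun x _ => mul_nonneg (hα _ _) (hβ _ _)
    have hw1 : ∑ x ∈ (Finset.univ : Finset (i × j)), α a x.1 * β a x.2 = 1 := by
      rw [Fintype.sum_prod_type]
      simp only [← Finset.mul_sum, hβ1, mul_one, hα1]
    have hmem : ∀ x ∈ (Finset.univ : Finset (i × j)),
        1 + p x.1 + q x.2 ∈ Set.Ioi (0 : ℝ) := by
      intro x _
      have := hp x.1
      have := hq x.2
      simp only [Set.mem_Ioi]
      linarith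
    have hJ := strictConcaveOn_log_Ioi.concaveOn.le_map_sum hw0 hw1 hmem
    have h1 : ∑ x ∈ (Finset.univ : Finset (i × j)), (α a x.1 * β a x.2) • (1 + p x.1 + q x.2)
        = 1 + ∑ b, α a b * p b + ∑ c, β a c * q c := by
      simp only [smul_eq_mul]
      rw [Fintype.sum_prod_type]
      have : ∀ b c, α a b * β a c * (1 + p b + q c)
          = α a b * β a c + (α a b * p b) * β a c + α a b * (β a c * q c) := by
        intro b c; ring
      simp only [this, Finset.sum_add_distrib, ← Finset.mul_sum, hβ1, mul_one, hα1,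
        ← Finset.sum_mul, one_mul]
    rw [h1] at hJ
    refine le_trans ?_ hJ
    have h2 : ∑ b, α a b * k (p b) + ∑ c, β a c * l (q c)
        = ∑ x ∈ (Finset.univ : Finset (i × j)), (α a x.1 * β a x.2) * (k (p x.1) + l (q x.2)) := by
      rw [Fintype.sum_prod_type]
      have : ∀ b c, α a b * β a c * (k (p b) + l (q c))
          = (α a b * k (p b)) * β a c + α a b * (β a c * l (q c)) := by
        intro b c; ring
      simp only [this, Finset.sum_add_distrib, ← Finset.mul_sum, hβ1, mul_one, hα1,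
        ← Finset.sum_mul, one_mul]
    rw [h2]
    refine Finset.sum_le_sum fun x hx => ?_
    rw [smul_eq_mul]
    exact mul_le_mul_of_nonneg_left (hkl _ _ (hp _) (hq _)) (hw0 x hx)
  have hsum := Finset.sum_le_sum (fun a (_ : a ∈ (Finset.univ : Finset r)) => key a)
  refine le_trans (le_of_eq ?_) hsum
  rw [Finset.sum_add_distrib]
  congr 1
  · rw [Finset.sum_comm]
    refine Finset.sum_congr rfl fun b _ => ?_
    rw [← Finset.sum_mul, hα2, one_mul]
  · rw [Finset.sum_comm]
    refine Finset.sum_congr rfl fun b _ => ?_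
    rw [← Finset.sum_mul, hβ2, one_mul]

variable {m : Type*} [Fintype m] [DecidableEq m]

lemma unitary_col_sum {W : Matrix m m ℂ} (h : star W * W = 1) (r : m) :
    ∑ i, ‖W i r‖ ^ 2 = 1 := by
  have h1 := congrFun (congrFun h r) r
  simp only [Matrix.mul_apply, Matrix.star_apply, Matrix.one_apply_eq] at h1
  have h2 : ∀ i, star (W i r) * W i r = ((‖W i r‖ ^ 2 : ℝ) : ℂ) := by
    intro i
    rw [Complex.star_def, Complex.conj_mul']
    push_cast
    rfl
  simp only [h2] at h1
  exact_mod_cast h1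

lemma unitary_row_sum {W : Matrix m m ℂ} (h : W * star W = 1) (i : m) :
    ∑ r, ‖W i r‖ ^ 2 = 1 := by
  have h1 := congrFun (congrFun h i) i
  simp only [Matrix.mul_apply, Matrix.star_apply, Matrix.one_apply_eq] at h1
  have h2 : ∀ r, W i r * star (W i r) = ((‖W i r‖ ^ 2 : ℝ) : ℂ) := by
    intro r
    rw [Complex.star_def, Complex.mul_conj']
    push_cast
    rfl
  simp only [h2] at h1
  exact_mod_cast h1

lemma spectral_form {X : Matrix m m ℂ} (h : X.IsHermitian) :
    X = (h.eigenvectorUnitary : Matrix m m ℂ) * diagonal (fun i => ((h.eigenvalues i : ℝ) : ℂ)) *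
      star (h.eigenvectorUnitary : Matrix m m ℂ) := by
  conv_lhs => rw [h.spectral_theorem]
  rfl

lemma eU_star_mul {X : Matrix m m ℂ} (h : X.IsHermitian) :
    star (h.eigenvectorUnitary : Matrix m m ℂ) * (h.eigenvectorUnitary : Matrix m m ℂ) = 1 :=
  (Matrix.mem_unitaryGroup_iff').1 h.eigenvectorUnitary.2

lemma eU_mul_star {X : Matrix m m ℂ} (h : X.IsHermitian) :
    (h.eigenvectorUnitary : Matrix m m ℂ) * star (h.eigenvectorUnitary : Matrix m m ℂ) = 1 :=
  (Matrix.mem_unitaryGroup_iff).1 h.eigenvectorUnitary.2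

/-- Expansion of the diagonal of a Hermitian matrix in another orthonormal basis. -/
lemma conj_diag_re {P : Matrix m m ℂ} (hP : P.IsHermitian) (V : Matrix m m ℂ) (r : m) :
    ((star V * P * V) r r).re
      = ∑ i, ‖(star (hP.eigenvectorUnitary : Matrix m m ℂ) * V) i r‖ ^ 2 * hP.eigenvalues i := by
  set U := (hP.eigenvectorUnitary : Matrix m m ℂ) with hU
  set W := star U * V with hW
  have hPe : star V * P * V = star W * diagonal (fun i => ((hP.eigenvalues i : ℝ) : ℂ)) * W := by
    have h1 : star W = star V * U := by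
      rw [hW, star_mul, star_star]
    rw [h1, hW]
    conv_lhs => rw [spectral_form hP]
    simp only [Matrix.mul_assoc, ← hU]
  rw [hPe]
  have h2 : (star W * diagonal (fun i => ((hP.eigenvalues i : ℝ) : ℂ)) * W) r r
      = ∑ i, ((‖W i r‖ ^ 2 * hP.eigenvalues i : ℝ) : ℂ) := by
    rw [Matrix.mul_apply]
    refine Finset.sum_congr rfl fun i _ => ?_
    rw [Matrix.mul_diagonal, Matrix.star_apply]
    have : star (W i r) * ((hP.eigenvalues i : ℝ) : ℂ) * W i r
        = (star (W i r) * W i r) * ((hP.eigenvalues i : ℝ) : ℂ) := by ring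
    rw [this, Complex.star_def, Complex.conj_mul']
    push_cast
    rfl
  rw [h2, Complex.re_sum]
  simp only [Complex.ofReal_re]

/-- **Key lemma**. -/
theorem mi_lemma {P Q : Matrix m m ℂ} (hP : P.IsHermitian) (hQ : Q.IsHermitian)
    (hX : (1 + P + Q).IsHermitian)
    (hP0 : ∀ i, 0 ≤ hP.eigenvalues i) (hQ0 : ∀ i, 0 ≤ hQ.eigenvalues i)
    (k l : ℝ → ℝ) (hkl : ∀ x y, 0 ≤ x → 0 ≤ y → k x + l y ≤ Real.log (1 + x + y)) :
    ∑ i, k (hP.eigenvalues i) + ∑ i, l (hQ.eigenvalues i)
      ≤ ∑ r, Real.log (hX.eigenvalues r) := by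
  set V := (hX.eigenvectorUnitary : Matrix m m ℂ) with hV
  set UP := (hP.eigenvectorUnitary : Matrix m m ℂ) with hUP
  set UQ := (hQ.eigenvectorUnitary : Matrix m m ℂ) with hUQ
  have hVV : star V * V = 1 := eU_star_mul hX
  have hVV' : V * star V = 1 := eU_mul_star hX
  have hPP : star UP * UP = 1 := eU_star_mul hP
  have hPP' : UP * star UP = 1 := eU_mul_star hP
  have hQQ : star UQ * UQ = 1 := eU_star_mul hQ
  have hQQ' : UQ * star UQ = 1 := eU_mul_star hQ
  set WP := star UP * V with hWP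
  set WQ := star UQ * V with hWQ
  have uni (U : Matrix m m ℂ) (hU : star U * U = 1) (hU' : U * star U = 1) :
      star (star U * V) * (star U * V) = 1 ∧ (star U * V) * star (star U * V) = 1 := by
    rw [star_mul, star_star]
    constructor
    · calc star V * U * (star U * V) = star V * (U * star U) * V := by
            simp only [Matrix.mul_assoc]
        _ = 1 := by rw [hU', Matrix.mul_one, hVV]
    · calc star U * V * (star V * U) = star U * (V * star V) * U := by
            simp only [Matrix.mul_assoc]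
        _ = 1 := by rw [hVV', Matrix.mul_one, hU]
  obtain ⟨hW1, hW2⟩ := uni UP hPP hPP'
  obtain ⟨hW3, hW4⟩ := uni UQ hQQ hQQ'
  have hcore := core_stochastic (fun r i => ‖WP i r‖ ^ 2) (fun r j => ‖WQ j r‖ ^ 2)
    (fun _ _ => by positivity) (fun _ _ => by positivity)
    (fun r => unitary_col_sum hW1 r) (fun r => unitary_col_sum hW3 r)
    (fun i => unitary_row_sum hW2 i) (fun i => unitary_row_sum hW4 i)
    hP.eigenvalues hQ.eigenvalues hP0 hQ0 k l hkl
  refine le_trans hcore (le_of_eq ?_)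
  refine Finset.sum_congr rfl fun r _ => ?_
  congr 1
  have hD : star V * (1 + P + Q) * V = diagonal (fun i => ((hX.eigenvalues i : ℝ) : ℂ)) := by
    conv_lhs => rw [spectral_form hX]
    calc star V * (V * diagonal (fun i => ((hX.eigenvalues i : ℝ) : ℂ)) * star V) * V
        = (star V * V) * diagonal (fun i => ((hX.eigenvalues i : ℝ) : ℂ)) * (star V * V) := by
          simp only [Matrix.mul_assoc]
      _ = _ := by rw [hVV, Matrix.one_mul, Matrix.mul_one]
  have hE : (star V * (1 + P + Q) * V) r r = (1 : ℂ) + (star V * P * V) r r + (star V * Q * V) r r := by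
    have : star V * (1 + P + Q) * V = 1 + star V * P * V + star V * Q * V := by
      rw [Matrix.mul_add, Matrix.mul_add, Matrix.add_mul, Matrix.add_mul, Matrix.mul_one, hVV]
    rw [this]
    simp [Matrix.add_apply]
  have hre := congrArg Complex.re hE
  rw [hD, Matrix.diagonal_apply_eq, Complex.ofReal_re, Complex.add_re, Complex.add_re,
    Complex.one_re, conj_diag_re hP V r, conj_diag_re hQ V r] at hre
  rw [hre]

end

end Vale.Agent.P358G
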