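import Mathlib
import Vale.Agent.P358G.Abel

/-!
S4: the step potentials satisfy `kstep x + lstep y ≤ log (1 + x + y)`, in abstract form: the
functions `KK`, `LL` are only used through the inequalities S2, S2' and the monotonicity S3.
-/

namespace Vale.Agent.P358G
open Finset BigOperators

noncomputable section

/-- The smooth part of the potentials. -/
def eK (κ y : ℝ) : ℝ := (1 / κ) * Real.log (1 + κ * y)

lemma eK_zero (κ : ℝ) : eK κ 0 = 0 := by simp [eK]

/-- Weighted Jensen for the logarithm with weights `1/κ`, `1/κ`, `1 - 2/κ`. -/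
lemma jensen_three {κ A B : ℝ} (hκ : 2 ≤ κ) (hA : 0 < A) (hB : 0 < B) :
    (1 / κ) * (Real.log A + Real.log B) ≤ Real.log (1 + ((A - 1) + (B - 1)) / κ) := by
  have hκ0 : 0 < κ := by linarith
  set M := 1 + ((A - 1) + (B - 1)) / κ with hM
  have hM0 : 0 < M := by
    have : M = (A + B + (κ - 2)) / κ := by rw [hM]; field_simp; ring
    rw [this]
    apply div_pos _ hκ0
    linarith
  have h1 : Real.log A - Real.log M ≤ A / M - 1 := by
    rw [← Real.log_div hA.ne' hM0.ne']
    exact Real.log_le_sub_one_of_pos (div_pos hA hM0)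
  have h2 : Real.log B - Real.log M ≤ B / M - 1 := by
    rw [← Real.log_div hB.ne' hM0.ne']
    exact Real.log_le_sub_one_of_pos (div_pos hB hM0)
  have h3 : 0 - Real.log M ≤ 1 / M - 1 := by
    have := Real.log_le_sub_one_of_pos (div_pos one_pos hM0)
    rw [Real.log_div one_ne_zero hM0.ne', Real.log_one] at this
    exact this
  have hw1 : 0 ≤ 1 / κ := by positivity
  have hw2 : 0 ≤ 1 - 2 / κ := by
    have : 2 / κ ≤ 1 := by rw [div_le_one hκ0]; exact hκ
    linarith
  have s1 := mul_le_mul_of_nonneg_left h1 hw1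
  have s2 := mul_le_mul_of_nonneg_left h2 hw1
  have s3 := mul_le_mul_of_nonneg_left h3 hw2
  have e : 1 / κ * (A / M - 1) + 1 / κ * (B / M - 1) + (1 - 2 / κ) * (1 / M - 1) = 0 := by
    have : 1 / κ * (A / M - 1) + 1 / κ * (B / M - 1) + (1 - 2 / κ) * (1 / M - 1)
        = ((1 / κ * A + 1 / κ * B + (1 - 2 / κ)) - M) / M := by
      field_simp
      ring
    rw [this]
    have : 1 / κ * A + 1 / κ * B + (1 - 2 / κ) - M = 0 := by
      rw [hM]; field_simp; ring
    rw [this, zero_div]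
  have e2 : 1 / κ * (Real.log A - Real.log M) + 1 / κ * (Real.log B - Real.log M)
      + (1 - 2 / κ) * (0 - Real.log M) = 1 / κ * (Real.log A + Real.log B) - Real.log M := by
    field_simp
    ring
  linarith

/-- The scalar core of S4. -/
lemma final_ineq {κ x y x0 y0 : ℝ} (hκ : 2 ≤ κ) (hx0 : 0 ≤ x0) (hx : x0 ≤ x) (hy0 : 0 ≤ y0)
    (hy : y0 ≤ y) (c1 : x0 < x → x0 + y0 ≤ κ * x0) (c2 : y0 < y → x0 + y0 ≤ κ * y0) :
    eK κ x - eK κ x0 + (eK κ y - eK κ y0)
      ≤ Real.log (1 + x + y) - Real.log (1 + x0 + y0) := by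
  have hκ0 : 0 < κ := by linarith
  set W := 1 + x0 + y0 with hW
  have hW0 : 0 < W := by positivity
  have arm : ∀ {u u0 : ℝ}, 0 ≤ u0 → u0 ≤ u → (u0 < u → x0 + y0 ≤ κ * u0) →
      Real.log (1 + κ * u) - Real.log (1 + κ * u0) ≤ Real.log (1 + κ * (u - u0) / W) := by
    intro u u0 hu0 hu hc
    have p0 : 0 < 1 + κ * u0 := by positivity
    have p1 : 0 < 1 + κ * u := by
      have : 0 ≤ κ * u := mul_nonneg hκ0.le (hu0.trans hu)
      linarith
    rw [← Real.log_div p1.ne' p0.ne']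
    apply Real.log_le_log (div_pos p1 p0)
    rcases hu.eq_or_lt with rfl | hlt
    · rw [div_self p0.ne']
      simp
    · have hcc := hc hlt
      have hWle : W ≤ 1 + κ * u0 := by rw [hW]; linarith
      have hd : 0 ≤ κ * (u - u0) := mul_nonneg hκ0.le (by linarith)
      have e : (1 + κ * u) / (1 + κ * u0) = 1 + κ * (u - u0) / (1 + κ * u0) := by
        field_simp
        ring
      rw [e]
      have : κ * (u - u0) / (1 + κ * u0) ≤ κ * (u - u0) / W :=
        div_le_div_of_nonneg_left hd hW0 hWle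
      linarith
  have h1 := arm hx0 hx c1
  have h2 := arm hy0 hy c2
  have hA : 0 < 1 + κ * (x - x0) / W := by
    have : 0 ≤ κ * (x - x0) / W := div_nonneg (mul_nonneg hκ0.le (by linarith)) hW0.le
    linarith
  have hB : 0 < 1 + κ * (y - y0) / W := by
    have : 0 ≤ κ * (y - y0) / W := div_nonneg (mul_nonneg hκ0.le (by linarith)) hW0.le
    linarith
  have hJ := jensen_three hκ hA hB
  have eM : 1 + ((1 + κ * (x - x0) / W - 1) + (1 + κ * (y - y0) / W - 1)) / κ
      = (1 + x + y) / W := by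
    rw [hW]
    have : 1 + x0 + y0 ≠ 0 := by positivity
    field_simp
    ring
  rw [eM, Real.log_div (by linarith) hW0.ne'] at hJ
  have hw1 : 0 ≤ 1 / κ := by positivity
  have s1 := mul_le_mul_of_nonneg_left h1 hw1
  have s2 := mul_le_mul_of_nonneg_left h2 hw1
  unfold eK
  have e1 : 1 / κ * (Real.log (1 + κ * (x - x0) / W) + Real.log (1 + κ * (y - y0) / W))
      = 1 / κ * Real.log (1 + κ * (x - x0) / W) + 1 / κ * Real.log (1 + κ * (y - y0) / W) := by
    ring
  have e2 : 1 / κ * (Real.log (1 + κ * x) - Real.log (1 + κ * x0))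
      = 1 / κ * Real.log (1 + κ * x) - 1 / κ * Real.log (1 + κ * x0) := by ring
  have e3 : 1 / κ * (Real.log (1 + κ * y) - Real.log (1 + κ * y0))
      = 1 / κ * Real.log (1 + κ * y) - 1 / κ * Real.log (1 + κ * y0) := by ring
  linarith

/-- The auxiliary sequence of the telescoping weights. -/
private def uSeq (f : ℝ → ℝ) (δ : ℝ) (L n : ℕ) : ℝ :=
  if n < L then f (((n : ℝ) + 1) * δ) else 0

private lemma Dw_eq (f : ℝ → ℝ) (δ : ℝ) {L n : ℕ} (hn : n < L) :
    Dw f δ L n = uSeq f δ L n - uSeq f δ L (n + 1) := by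
  unfold Dw uSeq
  rw [if_pos hn]
  by_cases h : n + 1 < L
  · rw [if_pos h, if_pos h]
    push_cast
    have : (n : ℝ) + 1 + 1 = (n : ℝ) + 2 := by ring
    rw [this]
  · rw [if_neg h, if_neg h]
    ring

private lemma tele_sum (u : ℕ → ℝ) (n0 L : ℕ) :
    ∑ n ∈ range L, (if n0 ≤ n then u n - u (n + 1) else 0)
      = if n0 ≤ L then u n0 - u L else 0 := by
  induction L with
  | zero =>
    by_cases h : n0 ≤ 0
    · have : n0 = 0 := by omega
      subst this
      simp
    · simp [h]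
  | succ L ih =>
    rw [Finset.sum_range_succ, ih]
    by_cases h : n0 ≤ L
    · rw [if_pos h, if_pos h, if_pos (by omega)]
      ring
    · rw [if_neg h, if_neg h]
      by_cases h2 : n0 ≤ L + 1
      · have : n0 = L + 1 := by omega
        subst this
        simp
      · simp [h2]

/-- The telescoped step function is dominated by `f`. -/
theorem step_sum_le {f : ℝ → ℝ} {δ : ℝ} (hδ : 0 < δ) (hf : AntitoneOn f (Set.Ici δ))
    (hf0 : ∀ x, δ ≤ x → 0 ≤ f x) (L : ℕ) {σ : ℝ} (hσ : δ ≤ σ) :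
    ∑ n ∈ range L, Dw f δ L n * (if σ ≤ ((n : ℝ) + 1) * δ then 1 else 0) ≤ f σ := by
  classical
  have hex : ∃ n : ℕ, σ ≤ ((n : ℝ) + 1) * δ := by
    obtain ⟨n, hn⟩ := exists_nat_gt (σ / δ)
    refine ⟨n, ?_⟩
    rw [div_lt_iff₀ hδ] at hn
    nlinarith
  set n0 := Nat.find hex with hn0
  have hmem : σ ≤ ((n0 : ℝ) + 1) * δ := Nat.find_spec hex
  have hiff : ∀ n : ℕ, σ ≤ ((n : ℝ) + 1) * δ ↔ n0 ≤ n := by
    intro n
    constructor
    · intro h
      exact Nat.find_min' hex h
    · intro h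
      have : (n0 : ℝ) ≤ n := by exact_mod_cast h
      nlinarith
  have e : ∑ n ∈ range L, Dw f δ L n * (if σ ≤ ((n : ℝ) + 1) * δ then 1 else 0)
      = ∑ n ∈ range L, (if n0 ≤ n then uSeq f δ L n - uSeq f δ L (n + 1) else 0) := by
    refine Finset.sum_congr rfl fun n hn => ?_
    have hnL : n < L := Finset.mem_range.mp hn
    by_cases h : n0 ≤ n
    · rw [if_pos ((hiff n).2 h), if_pos h, mul_one, Dw_eq f δ hnL]
    · rw [if_neg (fun h' => h ((hiff n).1 h')), if_neg h, mul_zero]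
  rw [e, tele_sum]
  have huL : uSeq f δ L L = 0 := by simp [uSeq]
  have hfσ := hf0 σ hσ
  by_cases h : n0 ≤ L
  · rw [if_pos h, huL, sub_zero]
    unfold uSeq
    split_ifs with h2
    · exact hf (Set.mem_Ici.mpr hσ) (Set.mem_Ici.mpr (hσ.trans hmem)) hmem
    · exact hfσ
  · rw [if_neg h]
    exact hfσ

/-- The step potential. -/
def stepPot (κ : ℝ) (ft v : ℝ → ℝ) (δ : ℝ) (L : ℕ) (x : ℝ) : ℝ :=
  eK κ x + ∑ n ∈ range L, Dw ft δ L n * (if v (((n : ℝ) + 1) * δ) ≤ x then 1 else 0)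

/-- One arm of S4. -/
lemma arm_bound {a h κ δ : ℝ} (ha : 0 < a) (hh : 0 ≤ h) (hδ : 0 < δ) {KK : ℝ → ℝ}
    (hft : AntitoneOn (fun σ => KK σ - eK κ (a / (σ + h))) (Set.Ici δ))
    (hft0 : ∀ σ, δ ≤ σ → 0 ≤ KK σ - eK κ (a / (σ + h))) (L : ℕ) {x : ℝ} (hx : 0 ≤ x) :
    (x = 0 ∧ stepPot κ (fun σ => KK σ - eK κ (a / (σ + h))) (fun σ => a / (σ + h)) δ L x = 0) ∨
    (0 < x ∧ ∃ s, δ ≤ s ∧ a / (s + h) ≤ x ∧ (a / (s + h) < x → s = δ) ∧
      stepPot κ (fun σ => KK σ - eK κ (a / (σ + h))) (fun σ => a / (σ + h)) δ L x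
        ≤ eK κ x - eK κ (a / (s + h)) + KK s) := by
  rcases hx.eq_or_lt with rfl | hxpos
  · left
    refine ⟨rfl, ?_⟩
    unfold stepPot
    rw [eK_zero, zero_add]
    apply Finset.sum_eq_zero
    intro n _
    have hpos : 0 < a / (((n : ℝ) + 1) * δ + h) := by positivity
    rw [if_neg (not_le.mpr hpos), mul_zero]
  · right
    refine ⟨hxpos, max δ (a / x - h), le_max_left _ _, ?_, ?_, ?_⟩
    · have h1 : a / x ≤ max δ (a / x - h) + h := by
        have := le_max_right δ (a / x - h)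
        linarith
      have h2 : 0 < max δ (a / x - h) + h := by
        have := le_max_left δ (a / x - h)
        linarith
      rw [div_le_iff₀ h2]
      rw [div_le_iff₀ hxpos] at h1
      linarith
    · intro hlt
      by_contra hne
      have hm : max δ (a / x - h) = a / x - h := by
        rcases max_cases δ (a / x - h) with ⟨h1, _⟩ | ⟨h1, _⟩
        · exact absurd h1 hne
        · exact h1
      rw [hm] at hlt
      have : a / (a / x - h + h) = x := by
        have : a / x - h + h = a / x := by ring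
        rw [this]
        field_simp
      rw [this] at hlt
      exact lt_irrefl _ hlt
    · unfold stepPot
      have hiff : ∀ n : ℕ, (a / (((n : ℝ) + 1) * δ + h) ≤ x) ↔
          max δ (a / x - h) ≤ ((n : ℝ) + 1) * δ := by
        intro n
        have hn : (0 : ℝ) ≤ n := Nat.cast_nonneg n
        have h0 : δ ≤ ((n : ℝ) + 1) * δ := by nlinarith
        have hden : 0 < ((n : ℝ) + 1) * δ + h := by positivity
        rw [div_le_iff₀ hden, max_le_iff]
        constructor
        · intro h1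
          refine ⟨h0, ?_⟩
          have : a / x ≤ ((n : ℝ) + 1) * δ + h := by
            rw [div_le_iff₀ hxpos]
            linarith
          linarith
        · rintro ⟨_, h1⟩
          have : a / x ≤ ((n : ℝ) + 1) * δ + h := by linarith
          rw [div_le_iff₀ hxpos] at this
          linarith
      have hs := step_sum_le hδ hft hft0 L (le_max_left δ (a / x - h))
      have e : ∑ n ∈ range L, Dw (fun σ => KK σ - eK κ (a / (σ + h))) δ L n
          * (if (fun σ => a / (σ + h)) (((n : ℝ) + 1) * δ) ≤ x then 1 else 0)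
          = ∑ n ∈ range L, Dw (fun σ => KK σ - eK κ (a / (σ + h))) δ L n
          * (if max δ (a / x - h) ≤ ((n : ℝ) + 1) * δ then 1 else 0) := by
        refine Finset.sum_congr rfl fun n _ => ?_
        congr 1
        simp only [hiff n]
      rw [e]
      linarith

/-- S4 in abstract form.  `KK` and `LL` are arbitrary functions with S2, S2', and S3. -/
theorem step_pot_le {a c h g κ δ : ℝ} (ha : 0 < a) (hc : 0 < c) (hh : 0 ≤ h) (hg : 0 ≤ g)
    (hδ : 0 < δ) (hκ : 2 ≤ κ) {KK LL : ℝ → ℝ}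
    (hS2 : ∀ s τ, 0 < s → 0 < τ → KK s + LL τ ≤ Real.log (1 + a / (s + h) + c / (τ + g)))
    (hS2k : ∀ s, 0 < s → KK s ≤ Real.log (1 + a / (s + h)))
    (hS2l : ∀ τ, 0 < τ → LL τ ≤ Real.log (1 + c / (τ + g)))
    (hft : AntitoneOn (fun σ => KK σ - eK κ (a / (σ + h))) (Set.Ici δ))
    (hft0 : ∀ σ, δ ≤ σ → 0 ≤ KK σ - eK κ (a / (σ + h)))
    (hft1 : AntitoneOn (fun σ => LL σ - eK κ (c / (σ + g))) (Set.Ici δ))
    (hft10 : ∀ σ, δ ≤ σ → 0 ≤ LL σ - eK κ (c / (σ + g)))
    (hk1 : c / (δ + g) ≤ (κ - 1) * (a / (δ + h)))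
    (hk2 : a / (δ + h) ≤ (κ - 1) * (c / (δ + g)))
    (L : ℕ) {x y : ℝ} (hx : 0 ≤ x) (hy : 0 ≤ y) :
    stepPot κ (fun σ => KK σ - eK κ (a / (σ + h))) (fun σ => a / (σ + h)) δ L x
      + stepPot κ (fun σ => LL σ - eK κ (c / (σ + g))) (fun σ => c / (σ + g)) δ L y
      ≤ Real.log (1 + x + y) := by
  have hκ0 : 0 < κ := by linarith
  have hp : ∀ s, δ ≤ s → a / (s + h) ≤ a / (δ + h) := by
    intro s hs
    exact div_le_div_of_nonneg_left ha.le (by positivity) (by linarith)
  have hq : ∀ s, δ ≤ s → c / (s + g) ≤ c / (δ + g) := by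
    intro s hs
    exact div_le_div_of_nonneg_left hc.le (by positivity) (by linarith)
  rcases arm_bound ha hh hδ hft hft0 L hx with ⟨rfl, h1⟩ | ⟨hxp, s, hs, hsx, hsd, h1⟩ <;>
  rcases arm_bound hc hg hδ hft1 hft10 L hy with ⟨rfl, h2⟩ | ⟨hyp, τ, hτ, hτy, hτd, h2⟩
  · rw [h1, h2]
    simp
  · -- x = 0
    have hsp : 0 < τ := lt_of_lt_of_le hδ hτ
    have hq0 : 0 ≤ c / (τ + g) := by positivity
    have hf := final_ineq (κ := κ) (x := 0) (y := y) (x0 := 0) (y0 := c / (τ + g)) hκ le_rfl le_rfl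
      hq0 hτy (fun h => absurd h (lt_irrefl _)) (fun hlt => by
        rw [zero_add]
        nlinarith [mul_nonneg (sub_nonneg.2 hκ) hq0])
    have hl := hS2l τ hsp
    simp only [add_zero, eK_zero, sub_zero, zero_add] at hf ⊢
    rw [h1, zero_add]
    linarith
  · -- y = 0
    have hsp : 0 < s := lt_of_lt_of_le hδ hs
    have hp0 : 0 ≤ a / (s + h) := by positivity
    have hf := final_ineq (κ := κ) (x := x) (y := 0) (x0 := a / (s + h)) (y0 := 0) hκ hp0 hsx le_rfl
      le_rfl (fun hlt => by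
        rw [add_zero]
        nlinarith [mul_nonneg (sub_nonneg.2 hκ) hp0]) (fun h => absurd h (lt_irrefl _))
    have hl := hS2k s hsp
    simp only [add_zero, eK_zero, sub_zero] at hf ⊢
    rw [h2, add_zero]
    linarith
  · have hsp : 0 < s := lt_of_lt_of_le hδ hs
    have hτp : 0 < τ := lt_of_lt_of_le hδ hτ
    have hp0 : 0 ≤ a / (s + h) := by positivity
    have hq0 : 0 ≤ c / (τ + g) := by positivity
    have hf := final_ineq (κ := κ) (x := x) (y := y) (x0 := a / (s + h)) (y0 := c / (τ + g)) hκ hp0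
      hsx hq0 hτy (fun hlt => by
        have hsδ := hsd hlt
        subst hsδ
        have := hq τ hτ
        nlinarith) (fun hlt => by
        have hτδ := hτd hlt
        subst hτδ
        have := hp s hs
        nlinarith)
    have hl := hS2 s τ hsp hτp
    linarith

end
end Vale.Agent.P358G
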