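import Mathlib
import Vale.Agent.P358G.MI
import Vale.Agent.P358G.Count
import Vale.Agent.P358G.SchurSylv
import Vale.Agent.P358G.StepPot

/-!
M4: the pointwise inequality at a fixed `s > 0`, from the key lemma `mi_lemma`, the scalar
inequality for the step potentials, the counting comparison, and the log det identities.
-/

namespace Vale.Agent.P358G
open Matrix Finset BigOperators
open scoped ComplexOrder

noncomputable section

/-- Sum of `e + step` over a finite family. -/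
lemma sum_kstep {ι : Type*} [Fintype ι] (x : ι → ℝ) (L : ℕ) (D v : ℕ → ℝ) (e : ℝ → ℝ) :
    ∑ i, (e (x i) + ∑ n ∈ range L, D n * (if v n ≤ x i then 1 else 0))
      = ∑ i, e (x i) + ∑ n ∈ range L, D n * ((univ.filter fun i => v n ≤ x i).card : ℝ) := by
  rw [Finset.sum_add_distrib, Finset.sum_comm]
  congr 1
  refine Finset.sum_congr rfl fun n _ => ?_
  rw [← Finset.mul_sum]
  congr 1
  rw [Finset.card_filter]
  push_cast
  rfl

section core
variable {J : Type*} [Fintype J] [DecidableEq J]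

/-- The core of M4: `mi_lemma` with step potentials and the counting comparison. -/
theorem pointwise_core {P Q : Matrix J J ℂ} (hP : P.IsHermitian) (hQ : Q.IsHermitian)
    (hX : (1 + P + Q).IsHermitian)
    (hP0 : ∀ i, 0 ≤ hP.eigenvalues i) (hQ0 : ∀ i, 0 ≤ hQ.eigenvalues i)
    (L : ℕ) (Dk Dl v v' : ℕ → ℝ) (hDk : ∀ n, 0 ≤ Dk n) (hDl : ∀ n, 0 ≤ Dl n)
    (e1 e2 : ℝ → ℝ)
    (hS4 : ∀ x y, 0 ≤ x → 0 ≤ y →
      (e1 x + ∑ n ∈ range L, Dk n * (if v n ≤ x then 1 else 0))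
        + (e2 y + ∑ n ∈ range L, Dl n * (if v' n ≤ y then 1 else 0)) ≤ Real.log (1 + x + y))
    (c c' : ℕ → ℕ)
    (hc : ∀ n, c n ≤ (univ.filter fun j => v n ≤ hP.eigenvalues j).card)
    (hc' : ∀ n, c' n ≤ (univ.filter fun j => v' n ≤ hQ.eigenvalues j).card) :
    ∑ n ∈ range L, Dk n * (c n : ℝ) + ∑ n ∈ range L, Dl n * (c' n : ℝ)
        + ∑ j, e1 (hP.eigenvalues j) + ∑ j, e2 (hQ.eigenvalues j)
      ≤ ∑ r, Real.log (hX.eigenvalues r) := by
  have h := mi_lemma hP hQ hX hP0 hQ0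
    (fun x => e1 x + ∑ n ∈ range L, Dk n * (if v n ≤ x then 1 else 0))
    (fun y => e2 y + ∑ n ∈ range L, Dl n * (if v' n ≤ y then 1 else 0)) hS4
  rw [sum_kstep, sum_kstep] at h
  refine le_trans ?_ h
  have h1 : ∑ n ∈ range L, Dk n * (c n : ℝ)
      ≤ ∑ n ∈ range L, Dk n * ((univ.filter fun j => v n ≤ hP.eigenvalues j).card : ℝ) := by
    refine Finset.sum_le_sum fun n _ => ?_
    exact mul_le_mul_of_nonneg_left (by exact_mod_cast hc n) (hDk n)
  have h2 : ∑ n ∈ range L, Dl n * (c' n : ℝ)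
      ≤ ∑ n ∈ range L, Dl n * ((univ.filter fun j => v' n ≤ hQ.eigenvalues j).card : ℝ) := by
    refine Finset.sum_le_sum fun n _ => ?_
    exact mul_le_mul_of_nonneg_left (by exact_mod_cast hc' n) (hDl n)
  linarith

end core

variable {R J : Type*} [Fintype R] [DecidableEq R] [Fintype J] [DecidableEq J]

/-- `A Aᴴ / v - H`. -/
def Xv (H : Matrix R R ℂ) (A : Matrix R J ℂ) (v : ℝ) : Matrix R R ℂ :=
  ((v : ℂ)⁻¹) • (A * Aᴴ) - H

lemma Xv_herm {H : Matrix R R ℂ} (hH : H.IsHermitian) (A : Matrix R J ℂ) (v : ℝ) :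
    (Xv H A v).IsHermitian := by
  unfold Xv Matrix.IsHermitian
  rw [conjTranspose_sub, conjTranspose_smul, conjTranspose_mul, conjTranspose_conjTranspose, hH.eq]
  simp

/-- The trace of `Xv`, in eigenvalues. -/
lemma sum_eig_Xv {H : Matrix R R ℂ} (hH : H.IsHermitian) (A : Matrix R J ℂ) (v : ℝ) :
    ∑ i, (Xv_herm hH A v).eigenvalues i = v⁻¹ * (A * Aᴴ).trace.re - H.trace.re := by
  have h := (Xv_herm hH A v).trace_eq_sum_eigenvalues
  have h2 : (Xv H A v).trace.re = v⁻¹ * (A * Aᴴ).trace.re - H.trace.re := by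
    simp only [Xv, Matrix.trace_sub, Matrix.trace_smul, smul_eq_mul, Complex.sub_re]
    rw [← Complex.ofReal_inv, Complex.re_ofReal_mul]
  rw [← h2, h]
  simp

/-- **M4**. -/
theorem pointwise {H G : Matrix R R ℂ} (hH : H.PosSemidef) (hG : G.PosSemidef)
    (A C : Matrix R J ℂ) {s κ δ : ℝ} (hs : 0 < s) (hκ : 0 < κ)
    (ft ft1 v v1 : ℝ → ℝ) (L : ℕ)
    (hDk : ∀ n, 0 ≤ Dw ft δ L n) (hDl : ∀ n, 0 ≤ Dw ft1 δ L n)
    (hv : ∀ n : ℕ, 0 < v (((n : ℝ) + 1) * δ)) (hv1 : ∀ n : ℕ, 0 < v1 (((n : ℝ) + 1) * δ))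
    (hS4 : ∀ x y, 0 ≤ x → 0 ≤ y →
      stepPot κ ft v δ L x + stepPot κ ft1 v1 δ L y ≤ Real.log (1 + x + y))
    (hT : (treeT H G A C).IsHermitian) (hHh : H.IsHermitian) (hGh : G.IsHermitian)
    (hZ : (H + ((κ : ℝ) : ℂ) • (A * Aᴴ)).IsHermitian)
    (hZ1 : (G + ((κ : ℝ) : ℂ) • (C * Cᴴ)).IsHermitian) :
    ∑ n ∈ range L, Dw ft δ L n * ((univ.filter fun i =>
        s < (Xv_herm hHh A (v (((n : ℝ) + 1) * δ))).eigenvalues i).card : ℝ)
      + ∑ n ∈ range L, Dw ft1 δ L n * ((univ.filter fun i =>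
        s < (Xv_herm hGh C (v1 (((n : ℝ) + 1) * δ))).eigenvalues i).card : ℝ)
    ≤ ∑ i, Real.log (1 + hT.eigenvalues i / s) - ∑ i, Real.log (1 + hHh.eigenvalues i / s)
        - ∑ i, Real.log (1 + hGh.eigenvalues i / s)
        - (1 / κ) * (∑ i, Real.log (1 + hZ.eigenvalues i / s)
            - ∑ i, Real.log (1 + hHh.eigenvalues i / s))
        - (1 / κ) * (∑ i, Real.log (1 + hZ1.eigenvalues i / s)
            - ∑ i, Real.log (1 + hGh.eigenvalues i / s)) := by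
  have hPp := PP_psd hH A hs
  have hQp := PP_psd hG C hs
  have hP := hPp.isHermitian
  have hQ := hQp.isHermitian
  have hX : (1 + PP s H A + PP s G C).IsHermitian := by
    unfold Matrix.IsHermitian
    rw [conjTranspose_add, conjTranspose_add, hP.eq, hQ.eq, conjTranspose_one]
  have hc := pointwise_core hP hQ hX (eig_nonneg_of_psd hPp hP) (eig_nonneg_of_psd hQp hQ) L
    (fun n => Dw ft δ L n) (fun n => Dw ft1 δ L n)
    (fun n => v (((n : ℝ) + 1) * δ)) (fun n => v1 (((n : ℝ) + 1) * δ)) hDk hDl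
    (eK κ) (eK κ) hS4
    (fun n => (univ.filter fun i =>
        s < (Xv_herm hHh A (v (((n : ℝ) + 1) * δ))).eigenvalues i).card)
    (fun n => (univ.filter fun i =>
        s < (Xv_herm hGh C (v1 (((n : ℝ) + 1) * δ))).eigenvalues i).card)
    (fun n => count_le hH A hs (hv n) (Xv_herm hHh A _) rfl hP rfl)
    (fun n => count_le hG C hs (hv1 n) (Xv_herm hGh C _) rfl hQ rfl)
  have e1 : ∑ j, eK κ (hP.eigenvalues j) = (1 / κ) * (∑ i, Real.log (1 + hZ.eigenvalues i / s)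
            - ∑ i, Real.log (1 + hHh.eigenvalues i / s)) := by
    rw [← sylv_log hH A hκ.le hs hZ hHh hP, Finset.mul_sum]
    rfl
  have e2 : ∑ j, eK κ (hQ.eigenvalues j) = (1 / κ) * (∑ i, Real.log (1 + hZ1.eigenvalues i / s)
            - ∑ i, Real.log (1 + hGh.eigenvalues i / s)) := by
    rw [← sylv_log hG C hκ.le hs hZ1 hGh hQ, Finset.mul_sum]
    rfl
  have e3 := schur_log hH hG A C hs hT hHh hGh hX
  rw [e1, e2, ← e3] at hc
  linarith

end

end Vale.Agent.P358G
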