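import Mathlib
import Vale.Agent.P358G.M6Abs
import Vale.Agent.P358G.Pointwise
import Vale.Agent.P358G.Kappa

/-!
The block inequality `GE` for all blocks, and the one-step inequality for all `(γ, ν)`.
-/

namespace Vale.Agent.P358G
open Filter Topology Finset BigOperators Vale.Agent.P358A Matrix
open scoped ComplexOrder

noncomputable section

/-- Sums of `anti` at infinity. -/
lemma tendsto_sum_anti_sub {ι : Type*} [Fintype ι] (l : ι → ℝ) (hl : ∀ i, 0 ≤ l i) :
    Tendsto (fun t => ∑ i, anti (l i) t - (∑ i, l i) * Real.log (1 + t)) atTop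
      (𝓝 (∑ i, l i)) := by
  have h1 : Tendsto (fun t => ∑ i, (anti (l i) t - l i * Real.log (1 + t))) atTop
      (𝓝 (∑ i, l i)) :=
    tendsto_finsetSum _ fun i _ => tendsto_anti_top (hl i)
  refine h1.congr fun t => ?_
  rw [Finset.sum_mul, ← Finset.sum_sub_distrib]

lemma tendsto_sum_anti_zero' {ι : Type*} [Fintype ι] (l : ι → ℝ) :
    Tendsto (fun t => ∑ i, anti (l i) t) (𝓝[>] 0) (𝓝 (∑ i, l i * Real.log (l i))) :=
  tendsto_finsetSum _ fun i _ => tendsto_anti_zero (l i)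

lemma hasDerivAt_sum_anti {ι : Type*} [Fintype ι] (l : ι → ℝ) (hl : ∀ i, 0 ≤ l i) {s : ℝ}
    (hs : 0 < s) :
    HasDerivAt (fun t => ∑ i, anti (l i) t) (∑ i, Real.log (1 + l i / s)) s :=
  HasDerivAt.fun_sum fun i _ => hasDerivAt_anti (hl i) hs

lemma sum_Lam_eq_neg_Su {ι : Type*} [Fintype ι] [DecidableEq ι] {X : Matrix ι ι ℂ}
    (hX : X.IsHermitian) : ∑ i, hX.eigenvalues i * Real.log (hX.eigenvalues i) = -Su X := by
  rw [Su_of_herm hX, ← Finset.sum_neg_distrib]
  refine Finset.sum_congr rfl fun i _ => ?_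
  simp only [Real.negMulLog]
  ring

variable {R J : Type*} [Fintype R] [DecidableEq R] [Fintype J] [DecidableEq J]

lemma trace_treeT (H G : Matrix R R ℂ) (A C : Matrix R J ℂ) :
    (treeT H G A C).trace.re
      = H.trace.re + (A * Aᴴ).trace.re + (G.trace.re + (C * Cᴴ).trace.re) := by
  simp [treeT, Matrix.trace, Fintype.sum_sum_type, Finset.sum_add_distrib]

/-- The bound with `C0`, for given `k` and `d`. -/
theorem bound_of_kappa {H G : Matrix R R ℂ} (hH : H.PosSemidef) (hG : G.PosSemidef)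
    (A C : Matrix R J ℂ) (ha : 0 < (A * Aᴴ).trace.re) (hc : 0 < (C * Cᴴ).trace.re)
    {k d : ℝ} (hd : 0 < d)
    (hk : KappaOK k (A * Aᴴ).trace.re (C * Cᴴ).trace.re G.trace.re H.trace.re d) :
    -Su (treeT H G A C) + Su H + Su G
        + (1 / k) * (Su (H + ((k : ℝ) : ℂ) • (A * Aᴴ)) - Su H)
        + (1 / k) * (Su (G + ((k : ℝ) : ℂ) • (C * Cᴴ)) - Su G)
      ≤ WW k (A * Aᴴ).trace.re (C * Cᴴ).trace.re G.trace.re H.trace.re d := by
  classical
  set a := (A * Aᴴ).trace.re with hadef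
  set c := (C * Cᴴ).trace.re with hcdef
  set h := H.trace.re with hhdef
  set g := G.trace.re with hgdef
  have hh : 0 ≤ h := trace_re_nn hH
  have hg : 0 ≤ g := trace_re_nn hG
  have hk2 := kappa_two ha hc hh hg hd hk
  have hk0 : 0 < k := by linarith
  have hk1 : (1 / k) * k = 1 := by field_simp
  have hAA : (A * Aᴴ).PosSemidef := posSemidef_self_mul_conjTranspose A
  have hCC : (C * Cᴴ).PosSemidef := posSemidef_self_mul_conjTranspose C
  have hTp : (treeT H G A C).PosSemidef := treeT_psd hH hG A C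
  have hZp : (H + ((k : ℝ) : ℂ) • (A * Aᴴ)).PosSemidef := hH.add (psd_smul_real hAA hk0.le)
  have hZ1p : (G + ((k : ℝ) : ℂ) • (C * Cᴴ)).PosSemidef := hG.add (psd_smul_real hCC hk0.le)
  have hT := hTp.isHermitian
  have hZ := hZp.isHermitian
  have hZ1 := hZ1p.isHermitian
  have hHh := hH.isHermitian
  have hGh := hG.isHermitian
  have nT : ∀ i, 0 ≤ hT.eigenvalues i := eig_nonneg_of_psd hTp hT
  have nH : ∀ i, 0 ≤ hHh.eigenvalues i := eig_nonneg_of_psd hH hHh
  have nG : ∀ i, 0 ≤ hGh.eigenvalues i := eig_nonneg_of_psd hG hGh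
  have nZ : ∀ i, 0 ≤ hZ.eigenvalues i := eig_nonneg_of_psd hZp hZ
  have nZ1 : ∀ i, 0 ≤ hZ1.eigenvalues i := eig_nonneg_of_psd hZ1p hZ1
  -- traces
  have sT : ∑ i, hT.eigenvalues i = h + a + (g + c) := by
    rw [← trace_eq_sum_eig hT, trace_treeT]
  have sH : ∑ i, hHh.eigenvalues i = h := (trace_eq_sum_eig hHh).symm
  have sG : ∑ i, hGh.eigenvalues i = g := (trace_eq_sum_eig hGh).symm
  have sZ : ∑ i, hZ.eigenvalues i = h + k * a := by
    rw [← trace_eq_sum_eig hZ]
    simp [Matrix.trace_add, Matrix.trace_smul, hadef, hhdef]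
  have sZ1 : ∑ i, hZ1.eigenvalues i = g + k * c := by
    rw [← trace_eq_sum_eig hZ1]
    simp [Matrix.trace_add, Matrix.trace_smul, hcdef, hgdef]
  -- the function
  let CC : ℝ → ℝ := fun t => ∑ i, anti (hT.eigenvalues i) t - ∑ i, anti (hHh.eigenvalues i) t
    - ∑ i, anti (hGh.eigenvalues i) t
    - (1 / k) * (∑ i, anti (hZ.eigenvalues i) t - ∑ i, anti (hHh.eigenvalues i) t)
    - (1 / k) * (∑ i, anti (hZ1.eigenvalues i) t - ∑ i, anti (hGh.eigenvalues i) t)
  let CC' : ℝ → ℝ := fun s => ∑ i, Real.log (1 + hT.eigenvalues i / s)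
    - ∑ i, Real.log (1 + hHh.eigenvalues i / s) - ∑ i, Real.log (1 + hGh.eigenvalues i / s)
    - (1 / k) * (∑ i, Real.log (1 + hZ.eigenvalues i / s)
        - ∑ i, Real.log (1 + hHh.eigenvalues i / s))
    - (1 / k) * (∑ i, Real.log (1 + hZ1.eigenvalues i / s)
        - ∑ i, Real.log (1 + hGh.eigenvalues i / s))
  have hCder : ∀ s, 0 < s → HasDerivAt CC (CC' s) s := by
    intro s hs
    have d1 := hasDerivAt_sum_anti hT.eigenvalues nT hs
    have d2 := hasDerivAt_sum_anti hHh.eigenvalues nH hs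
    have d3 := hasDerivAt_sum_anti hGh.eigenvalues nG hs
    have d4 := hasDerivAt_sum_anti hZ.eigenvalues nZ hs
    have d5 := hasDerivAt_sum_anti hZ1.eigenvalues nZ1 hs
    exact (((d1.fun_sub d2).fun_sub d3).fun_sub ((d4.fun_sub d2).const_mul (1 / k))).fun_sub
      ((d5.fun_sub d3).const_mul (1 / k))
  have hC0 : Tendsto CC (𝓝[>] 0) (𝓝 (-Su (treeT H G A C) + Su H + Su G
      + (1 / k) * (Su (H + ((k : ℝ) : ℂ) • (A * Aᴴ)) - Su H)
      + (1 / k) * (Su (G + ((k : ℝ) : ℂ) • (C * Cᴴ)) - Su G))) := by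
    have l1 := tendsto_sum_anti_zero' hT.eigenvalues
    have l2 := tendsto_sum_anti_zero' hHh.eigenvalues
    have l3 := tendsto_sum_anti_zero' hGh.eigenvalues
    have l4 := tendsto_sum_anti_zero' hZ.eigenvalues
    have l5 := tendsto_sum_anti_zero' hZ1.eigenvalues
    rw [sum_Lam_eq_neg_Su] at l1 l2 l3 l4 l5
    have := (((l1.sub l2).sub l3).sub ((l4.sub l2).const_mul (1 / k))).sub
      ((l5.sub l3).const_mul (1 / k))
    convert this using 2
    ring
  have hCtop : Tendsto CC atTop (𝓝 0) := by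
    have l1 := tendsto_sum_anti_sub hT.eigenvalues nT
    have l2 := tendsto_sum_anti_sub hHh.eigenvalues nH
    have l3 := tendsto_sum_anti_sub hGh.eigenvalues nG
    have l4 := tendsto_sum_anti_sub hZ.eigenvalues nZ
    have l5 := tendsto_sum_anti_sub hZ1.eigenvalues nZ1
    rw [sT] at l1
    rw [sH] at l2
    rw [sG] at l3
    rw [sZ] at l4
    rw [sZ1] at l5
    have hcomb := (((l1.sub l2).sub l3).sub ((l4.sub l2).const_mul (1 / k))).sub
      ((l5.sub l3).const_mul (1 / k))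
    have e0 : h + a + (g + c) - h - g - 1 / k * (h + k * a - h) - 1 / k * (g + k * c - g) = 0 := by
      field_simp
      ring
    rw [e0] at hcomb
    refine hcomb.congr fun t => ?_
    have e1 : (1 / k) * (h + k * a - h) = a := by
      field_simp
      ring
    simp only [CC]
    field_simp
    ring
  -- the grid
  have hTrace : ∀ (X : Matrix R R ℂ) (Y : Matrix R J ℂ) (hXh : X.IsHermitian) (u : ℝ),
      0 < (Y * Yᴴ).trace.re → 0 ≤ X.trace.re → 0 < u →
      ∑ j, (Xv_herm hXh Y (pS (Y * Yᴴ).trace.re X.trace.re u)).eigenvalues j = u := by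
    intro X Y hXh u hY hX hu
    rw [sum_eig_Xv hXh]
    unfold pS
    have : u + X.trace.re ≠ 0 := by positivity
    field_simp
    ring
  have hgrid : ∀ n : ℕ, 0 < ((n : ℝ) + 1) * d := fun n => by positivity
  have key := C0_le_WW (C0 := -Su (treeT H G A C) + Su H + Su G
      + (1 / k) * (Su (H + ((k : ℝ) : ℂ) • (A * Aᴴ)) - Su H)
      + (1 / k) * (Su (G + ((k : ℝ) : ℂ) • (C * Cᴴ)) - Su G)) ha hc hh hg hd hk
    (fun n j => (Xv_herm hHh A (pS a h (((n : ℝ) + 1) * d))).eigenvalues j)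
    (fun n j => (Xv_herm hGh C (pS c g (((n : ℝ) + 1) * d))).eigenvalues j)
    (fun n => hTrace H A hHh _ ha hh (hgrid n)) (fun n => hTrace G C hGh _ hc hg (hgrid n))
    CC CC' hCder hC0 hCtop ?_
  · exact key
  · intro L s hs
    have hS4 := fun x y (hx : 0 ≤ x) (hy : 0 ≤ y) =>
      kstep_lstep_le ha hc hh hg hd hk L hx hy
    exact pointwise hH hG A C hs hk0 (ft k a c g h) (ft1 k a c g h) (pS a h) (pS c g) L
      (fun n => Dw_nonneg hd (ft_antitoneOn ha hc hh hg hd hk)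
        (fun x hx => ft_nonneg ha hc hh hg hd hk hx) L n)
      (fun n => Dw_nonneg hd (ft1_antitoneOn ha hc hh hg hd hk)
        (fun x hx => ft1_nonneg ha hc hh hg hd hk hx) L n)
      (fun n => div_pos ha (by have := hgrid n; linarith))
      (fun n => div_pos hc (by have := hgrid n; linarith))
      hS4 hT hHh hGh hZ hZ1

/-- **The block inequality `GE`**, for all blocks. -/
theorem geAt_all {H G : Matrix R R ℂ} (hH : H.PosSemidef) (hG : G.PosSemidef)
    (A C : Matrix R J ℂ) : GEAt H G A C := by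
  have ha0 : 0 ≤ (A * Aᴴ).trace.re := trace_re_nn (posSemidef_self_mul_conjTranspose A)
  have hc0 : 0 ≤ (C * Cᴴ).trace.re := trace_re_nn (posSemidef_self_mul_conjTranspose C)
  rcases ha0.eq_or_lt with ha | ha
  · exact geAt_of_degenerate hH hG (Or.inl ha.symm)
  rcases hc0.eq_or_lt with hc | hc
  · exact geAt_of_degenerate hH hG (Or.inr hc.symm)
  refine geAt_of_bound hH hG A C ha hc fun d hd => ?_
  have hh : 0 ≤ H.trace.re := trace_re_nn hH
  have hg : 0 ≤ G.trace.re := trace_re_nn hG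
  refine ⟨2 + ((C * Cᴴ).trace.re / (A * Aᴴ).trace.re) * (1 + H.trace.re / d)
    + ((A * Aᴴ).trace.re / (C * Cᴴ).trace.re) * (1 + G.trace.re / d), by positivity, ?_⟩
  exact bound_of_kappa hH hG A C ha hc hd (le_refl _)

/-- **The one-step entropy inequality for all `(γ, ν)`**. -/
theorem estarF_all {γ ν : ℝ} (h0 : 0 ≤ γ) (h1 : γ ≤ 1) (hν0 : 0 ≤ ν) (hν1 : ν ≤ 1) :
    EStarF γ ν (fun q => Eent (2 * Real.sqrt (γ * ((1 - γ) * (q - ν) ^ 2 + ν * (1 - ν))))) :=
  estarF_of_GE h0 h1 hν0 hν1 fun _ _ _ _ _ hH hG A C => geAt_all hH hG A C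

end

end Vale.Agent.P358G
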