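import Mathlib

/-!
# P358 all nu, step 3: scalar potentials

Parameters `0 ≤ g ≤ h`, `0 < a`, `0 < c`.  `xp, xm` are the eigenvalues of the scalar matrix
`[[h+a, √(ac)], [√(ac), g+c]]`, `wp, wm` the squared components.

* `lfun y = wm log(1 + y (xp-g)/c) + wp log(1 + y (xm-g)/c)`  (Stieltjes, the easy row)
* `kfun y = K (min y (a/(h-g)))`, `K y = wp log(1 + y (xp-h)/a) + wm log(1 + y (xm-h)/a)` (hard row)

Main results: `dec` (`kfun p + lfun q ≤ log (1+p+q)` for all `p q ≥ 0`) and
`curve` (equality on the scalar curve `(a/(s+h), c/(s+g))`).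
-/

namespace Vale.Agent.P358G

open Real

noncomputable section

/-- discriminant root -/
def dl (a c g h : ℝ) : ℝ := √((h + a - g - c) ^ 2 + 4 * a * c)
/-- larger eigenvalue -/
def xp (a c g h : ℝ) : ℝ := (h + a + g + c + dl a c g h) / 2
/-- smaller eigenvalue -/
def xm (a c g h : ℝ) : ℝ := (h + a + g + c - dl a c g h) / 2
/-- weight of `xp` in row 0 -/
def wp (a c g h : ℝ) : ℝ := (h + a - xm a c g h) / dl a c g h
/-- weight of `xm` in row 0 -/
def wm (a c g h : ℝ) : ℝ := (xp a c g h - h - a) / dl a c g h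

/-- the analytic hard row potential -/
def Kf (a c g h y : ℝ) : ℝ :=
  wp a c g h * log (1 + y * ((xp a c g h - h) / a)) +
    wm a c g h * log (1 + y * ((xm a c g h - h) / a))

/-- the easy row potential -/
def lfun (a c g h y : ℝ) : ℝ :=
  wm a c g h * log (1 + y * ((xp a c g h - g) / c)) +
    wp a c g h * log (1 + y * ((xm a c g h - g) / c))

/-- the hard row potential, frozen beyond `a/(h-g)` -/
def kfun (a c g h y : ℝ) : ℝ :=
  if (h - g) * y ≤ a then Kf a c g h y else Kf a c g h (a / (h - g))

section facts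
variable {a c g h : ℝ}

lemma dl_pos (ha : 0 < a) (hc : 0 < c) : 0 < dl a c g h := by
  unfold dl
  apply Real.sqrt_pos.mpr
  have : 0 < 4 * a * c := by positivity
  nlinarith [sq_nonneg (h + a - g - c)]

lemma dl_sq (ha : 0 < a) (hc : 0 < c) : dl a c g h ^ 2 = (h + a - g - c) ^ 2 + 4 * a * c := by
  unfold dl
  apply Real.sq_sqrt
  have : 0 < 4 * a * c := by positivity
  nlinarith [sq_nonneg (h + a - g - c)]

lemma xp_add_xm : xp a c g h + xm a c g h = h + a + g + c := by
  unfold xp xm; ring

lemma xp_sub_xm : xp a c g h - xm a c g h = dl a c g h := by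
  unfold xp xm; ring

lemma xp_mul_xm (ha : 0 < a) (hc : 0 < c) :
    xp a c g h * xm a c g h = (h + a) * (g + c) - a * c := by
  unfold xp xm
  have := dl_sq (g := g) (h := h) ha hc
  nlinarith

lemma xp_ge (ha : 0 < a) (hc : 0 < c) : h + a ≤ xp a c g h := by
  have hd := dl_pos (g := g) (h := h) ha hc
  have hs := dl_sq (g := g) (h := h) ha hc
  have : h + a - g - c ≤ dl a c g h := by
    have h4 : 0 < 4 * a * c := by positivity
    nlinarith [sq_nonneg (h + a - g - c)]
  unfold xp; linarith

lemma xm_le (ha : 0 < a) (hc : 0 < c) : xm a c g h ≤ h + a := by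
  have hd := dl_pos (g := g) (h := h) ha hc
  have hs := dl_sq (g := g) (h := h) ha hc
  have : g + c - h - a ≤ dl a c g h := by
    have h4 : 0 < 4 * a * c := by positivity
    nlinarith [sq_nonneg (h + a - g - c)]
  unfold xm; linarith

lemma xm_sub_g_mul (ha : 0 < a) (hc : 0 < c) :
    (xp a c g h - g) * (xm a c g h - g) = c * (h - g) := by
  have h1 := xp_mul_xm (g := g) (h := h) ha hc
  have h2 := xp_add_xm (a := a) (c := c) (g := g) (h := h)
  have e : (xp a c g h - g) * (xm a c g h - g) =
      xp a c g h * xm a c g h - g * (xp a c g h + xm a c g h) + g ^ 2 := by ring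
  rw [e, h1, h2]; ring

lemma xp_sub_h_mul (ha : 0 < a) (hc : 0 < c) :
    (xp a c g h - h) * (xm a c g h - h) = - a * (h - g) := by
  have h1 := xp_mul_xm (g := g) (h := h) ha hc
  have h2 := xp_add_xm (a := a) (c := c) (g := g) (h := h)
  have e : (xp a c g h - h) * (xm a c g h - h) =
      xp a c g h * xm a c g h - h * (xp a c g h + xm a c g h) + h ^ 2 := by ring
  rw [e, h1, h2]; ring

lemma xp_gt_g (hgh : g ≤ h) (ha : 0 < a) (hc : 0 < c) : g < xp a c g h := by
  have := xp_ge (g := g) (h := h) ha hc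
  linarith

lemma xm_ge (hgh : g ≤ h) (ha : 0 < a) (hc : 0 < c) : g ≤ xm a c g h := by
  have h1 := xm_sub_g_mul (g := g) (h := h) ha hc
  have h2 := xp_gt_g hgh ha hc
  by_contra hcon
  push Not at hcon
  have : (xp a c g h - g) * (xm a c g h - g) < 0 :=
    mul_neg_of_pos_of_neg (by linarith) (by linarith)
  have h3 : 0 ≤ c * (h - g) := mul_nonneg hc.le (by linarith)
  linarith

lemma xm_gt_of_lt (hgh : g < h) (ha : 0 < a) (hc : 0 < c) : g < xm a c g h := by
  have h1 := xm_sub_g_mul (g := g) (h := h) ha hc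
  have h2 := xp_gt_g hgh.le ha hc
  have h4 := xm_ge hgh.le ha hc
  rcases h4.lt_or_eq with h5 | h5
  · exact h5
  · exfalso
    rw [← h5] at h1
    have : 0 < c * (h - g) := mul_pos hc (by linarith)
    nlinarith

lemma wp_nonneg (ha : 0 < a) (hc : 0 < c) : 0 ≤ wp a c g h := by
  unfold wp
  exact div_nonneg (by have := xm_le (g := g) (h := h) ha hc; linarith) (dl_pos ha hc).le

lemma wm_nonneg (ha : 0 < a) (hc : 0 < c) : 0 ≤ wm a c g h := by
  unfold wm
  exact div_nonneg (by have := xp_ge (g := g) (h := h) ha hc; linarith) (dl_pos ha hc).le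

lemma wp_add_wm (ha : 0 < a) (hc : 0 < c) : wp a c g h + wm a c g h = 1 := by
  unfold wp wm
  have hd := dl_pos (g := g) (h := h) ha hc
  have h1 := xp_sub_xm (a := a) (c := c) (g := g) (h := h)
  field_simp
  linarith

lemma w_mean0 (ha : 0 < a) (hc : 0 < c) :
    wp a c g h * xp a c g h + wm a c g h * xm a c g h = h + a := by
  unfold wp wm
  have hd := dl_pos (g := g) (h := h) ha hc
  have h1 := xp_sub_xm (a := a) (c := c) (g := g) (h := h)
  field_simp
  rw [← h1]; ring

lemma w_mean1 (ha : 0 < a) (hc : 0 < c) :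
    wm a c g h * xp a c g h + wp a c g h * xm a c g h = g + c := by
  have h0 := w_mean0 (g := g) (h := h) ha hc
  have hw := wp_add_wm (g := g) (h := h) ha hc
  have h2 := xp_add_xm (a := a) (c := c) (g := g) (h := h)
  have : (wp a c g h + wm a c g h) * (xp a c g h + xm a c g h) = h + a + g + c := by
    rw [hw, h2]; ring
  nlinarith

/-- slope data of the hard row -/
lemma dp_pos (ha : 0 < a) (hc : 0 < c) : 1 ≤ (xp a c g h - h) / a := by
  rw [le_div_iff₀ ha]
  have := xp_ge (g := g) (h := h) ha hc
  linarith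

lemma one_add_dm_pos (hgh : g ≤ h) (ha : 0 < a) (hc : 0 < c) {y : ℝ} (hy : 0 ≤ y)
    (hya : (h - g) * y ≤ a) : 0 < 1 + y * ((xm a c g h - h) / a) := by
  have key : 1 + y * ((xm a c g h - h) / a) = (a - (h - g) * y + y * (xm a c g h - g)) / a := by
    field_simp; ring
  rw [key]
  apply div_pos _ ha
  rcases hgh.lt_or_eq with hlt | heq
  · rcases hy.lt_or_eq with hy0 | hy0
    · have := xm_gt_of_lt hlt ha hc
      have h3 : 0 < y * (xm a c g h - g) := mul_pos hy0 (by linarith)
      linarith
    · rw [← hy0]; simpa using ha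
  · subst heq
    have := xm_ge (le_refl g) ha hc
    have h3 : 0 ≤ y * (xm a c g g - g) := mul_nonneg hy (by linarith)
    simp only [sub_self, zero_mul]
    linarith

lemma one_add_dp_pos (ha : 0 < a) (hc : 0 < c) {y : ℝ} (hy : 0 ≤ y) :
    0 < 1 + y * ((xp a c g h - h) / a) := by
  have := dp_pos (g := g) (h := h) ha hc
  have h2 : 0 ≤ y * ((xp a c g h - h) / a) := mul_nonneg hy (by linarith)
  linarith

end facts

/-- purely algebraic sign identity for the derivative -/
lemma deriv_identity {a c D q y wp wm dp dm : ℝ} (ha : 0 < a)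
    (hw : wp + wm = 1) (h1 : wp * dp + wm * dm = 1) (hd : a * (dp * dm) = -D)
    (hs : a * (dp + dm) = a + c - D)
    (hy1 : 0 < 1 + y * dp) (hy2 : 0 < 1 + y * dm) (hq : 0 < 1 + y + q) :
    1 / (1 + y + q) - (wp * dp / (1 + y * dp) + wm * dm / (1 + y * dm)) =
      (y * (c + q * D) - q * a) / (a * (1 + y + q) * ((1 + y * dp) * (1 + y * dm))) := by
  have e1 : wp * dp / (1 + y * dp) + wm * dm / (1 + y * dm) =
      (1 + y * (dp * dm)) / ((1 + y * dp) * (1 + y * dm)) := by
    rw [div_add_div _ _ hy1.ne' hy2.ne']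
    congr 1
    linear_combination h1 + y * dp * dm * hw
  rw [e1]
  have e2 : a * ((1 + y * dp) * (1 + y * dm) - (1 + y * (dp * dm)) * (1 + y + q)) =
      y * (c + q * D) - q * a := by
    linear_combination y * hs + (y ^ 2 - y * (1 + y + q)) * hd
  rw [← e2]
  have h3 : 0 < (1 + y * dp) * (1 + y * dm) := mul_pos hy1 hy2
  rw [div_sub_div _ _ hq.ne' h3.ne', div_eq_div_iff (mul_pos hq h3).ne'
    (mul_pos (mul_pos ha hq) h3).ne']
  ring

section main
variable {a c g h : ℝ}

/-- derivative of `Kf` -/
lemma hasDerivAt_Kf (hgh : g ≤ h) (ha : 0 < a) (hc : 0 < c) {y : ℝ} (hy : 0 ≤ y)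
    (hya : (h - g) * y ≤ a) :
    HasDerivAt (Kf a c g h)
      (wp a c g h * ((xp a c g h - h) / a) / (1 + y * ((xp a c g h - h) / a)) +
        wm a c g h * ((xm a c g h - h) / a) / (1 + y * ((xm a c g h - h) / a))) y := by
  have hp := one_add_dp_pos (g := g) (h := h) ha hc hy
  have hm := one_add_dm_pos hgh ha hc hy hya
  unfold Kf
  have d1 : HasDerivAt (fun z : ℝ => 1 + z * ((xp a c g h - h) / a)) ((xp a c g h - h) / a) y := by
    simpa using ((hasDerivAt_id y).mul_const ((xp a c g h - h) / a)).const_add 1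
  have d2 : HasDerivAt (fun z : ℝ => 1 + z * ((xm a c g h - h) / a)) ((xm a c g h - h) / a) y := by
    simpa using ((hasDerivAt_id y).mul_const ((xm a c g h - h) / a)).const_add 1
  have l1 := (d1.log hp.ne').const_mul (wp a c g h)
  have l2 := (d2.log hm.ne').const_mul (wm a c g h)
  refine (l1.fun_add l2).congr_deriv ?_
  ring

lemma dp_dm_rel (ha : 0 < a) (hc : 0 < c) :
    a * (((xp a c g h - h) / a) * ((xm a c g h - h) / a)) = -(h - g) := by
  have := xp_sub_h_mul (g := g) (h := h) ha hc
  field_simp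
  linarith

lemma dp_add_dm_rel (ha : 0 < a) :
    a * ((xp a c g h - h) / a + (xm a c g h - h) / a) = a + c - (h - g) := by
  have := xp_add_xm (a := a) (c := c) (g := g) (h := h)
  field_simp
  linarith

lemma w_d_rel (ha : 0 < a) (hc : 0 < c) :
    wp a c g h * ((xp a c g h - h) / a) + wm a c g h * ((xm a c g h - h) / a) = 1 := by
  have h0 := w_mean0 (g := g) (h := h) ha hc
  have hw := wp_add_wm (g := g) (h := h) ha hc
  have e : wp a c g h * ((xp a c g h - h) / a) + wm a c g h * ((xm a c g h - h) / a) =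
      ((wp a c g h * xp a c g h + wm a c g h * xm a c g h) - h * (wp a c g h + wm a c g h)) / a := by
    ring
  rw [e, h0, hw]
  field_simp
  ring

/-- the derivative of `Kf` is nonnegative on its domain -/
lemma Kf_deriv_eq (hgh : g ≤ h) (ha : 0 < a) (hc : 0 < c) {y : ℝ} (hy : 0 ≤ y)
    (hya : (h - g) * y ≤ a) :
    wp a c g h * ((xp a c g h - h) / a) / (1 + y * ((xp a c g h - h) / a)) +
        wm a c g h * ((xm a c g h - h) / a) / (1 + y * ((xm a c g h - h) / a)) =
      (a - (h - g) * y) / (a * ((1 + y * ((xp a c g h - h) / a)) *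
        (1 + y * ((xm a c g h - h) / a)))) := by
  have hp := one_add_dp_pos (g := g) (h := h) ha hc hy
  have hm := one_add_dm_pos hgh ha hc hy hya
  have hw := wp_add_wm (g := g) (h := h) ha hc
  have h1 := w_d_rel (g := g) (h := h) ha hc
  have hd := dp_dm_rel (g := g) (h := h) ha hc
  set dp := (xp a c g h - h) / a
  set dm := (xm a c g h - h) / a
  have e1 : wp a c g h * dp / (1 + y * dp) + wm a c g h * dm / (1 + y * dm) =
      (1 + y * (dp * dm)) / ((1 + y * dp) * (1 + y * dm)) := by
    rw [div_add_div _ _ hp.ne' hm.ne']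
    congr 1
    linear_combination h1 + y * dp * dm * hw
  rw [e1]
  have e2 : a * (1 + y * (dp * dm)) = a - (h - g) * y := by
    linear_combination y * hd
  rw [← e2, mul_div_mul_left _ _ ha.ne']

/-- general curve identity, valid for `s > -g`. -/
lemma curve_gen (hgh : g ≤ h) (ha : 0 < a) (hc : 0 < c) {s : ℝ} (hs : 0 < s + g) :
    Kf a c g h (a / (s + h)) + lfun a c g h (c / (s + g)) =
      log (1 + a / (s + h) + c / (s + g)) := by
  have hsh : 0 < s + h := by linarith
  have hxm := xm_ge hgh ha hc
  have hxp := xp_gt_g hgh ha hc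
  have hm : 0 < s + xm a c g h := by linarith
  have hp : 0 < s + xp a c g h := by linarith
  have hw := wp_add_wm (g := g) (h := h) ha hc
  have e1 : 1 + a / (s + h) * ((xp a c g h - h) / a) = (s + xp a c g h) / (s + h) := by
    field_simp; ring
  have e2 : 1 + a / (s + h) * ((xm a c g h - h) / a) = (s + xm a c g h) / (s + h) := by
    field_simp; ring
  have e3 : 1 + c / (s + g) * ((xp a c g h - g) / c) = (s + xp a c g h) / (s + g) := by
    field_simp; ring
  have e4 : 1 + c / (s + g) * ((xm a c g h - g) / c) = (s + xm a c g h) / (s + g) := by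
    field_simp; ring
  have e5 : 1 + a / (s + h) + c / (s + g) =
      (s + xp a c g h) * (s + xm a c g h) / ((s + h) * (s + g)) := by
    have h1 := xp_mul_xm (g := g) (h := h) ha hc
    have h2 := xp_add_xm (a := a) (c := c) (g := g) (h := h)
    field_simp
    rw [show (s + xp a c g h) * (s + xm a c g h) =
      s ^ 2 + s * (xp a c g h + xm a c g h) + xp a c g h * xm a c g h by ring, h2, h1]
    ring
  unfold Kf lfun
  rw [e1, e2, e3, e4, e5, log_div hp.ne' hsh.ne', log_div hm.ne' hsh.ne', log_div hp.ne' hs.ne',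
    log_div hm.ne' hs.ne', log_div (mul_pos hp hm).ne' (mul_pos hsh hs).ne',
    log_mul hp.ne' hm.ne', log_mul hsh.ne' hs.ne']
  have hwp : wp a c g h = 1 - wm a c g h := by linarith
  rw [hwp]
  ring

lemma Kf_zero (a c g h : ℝ) : Kf a c g h 0 = 0 := by
  simp [Kf]

lemma lfun_zero (a c g h : ℝ) : lfun a c g h 0 = 0 := by
  simp [lfun]

/-- the main inequality on the analytic range of `Kf` -/
lemma main_ineq (hgh : g ≤ h) (ha : 0 < a) (hc : 0 < c) {p q : ℝ} (hp : 0 ≤ p) (hq : 0 ≤ q)
    (hpa : (h - g) * p ≤ a) :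
    Kf a c g h p + lfun a c g h q ≤ log (1 + p + q) := by
  set D := h - g with hD
  have hD0 : 0 ≤ D := by simp [hD, hgh]
  have hden : 0 < c + q * D := by have := mul_nonneg hq hD0; linarith
  set ps := q * a / (c + q * D) with hps
  have hps0 : 0 ≤ ps := by positivity
  have hpsa : D * ps ≤ a := by
    rw [hps]
    have : D * (q * a / (c + q * D)) = (q * D) * a / (c + q * D) := by ring
    rw [this, div_le_iff₀ hden]
    nlinarith [mul_nonneg hq hD0, mul_pos ha hc]
  -- equality at `ps`
  have heq : Kf a c g h ps + lfun a c g h q = log (1 + ps + q) := by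
    rcases hq.lt_or_eq with hq0 | hq0
    · have hs : 0 < (c / q - g) + g := by
        have : 0 < c / q := div_pos hc hq0
        linarith
      have hc1 := curve_gen hgh ha hc hs
      have e1 : a / (c / q - g + h) = ps := by
        rw [hps]
        have h3 : c / q - g + h = (c + q * D) / q := by
          rw [hD]; field_simp; ring
        rw [h3]
        field_simp
      have e2 : c / (c / q - g + g) = q := by
        have : c / q - g + g = c / q := by ring
        rw [this]; field_simp
      rw [e1, e2] at hc1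
      exact hc1
    · have : ps = 0 := by rw [hps, ← hq0]; simp
      rw [this, ← hq0, Kf_zero, lfun_zero]; simp
  -- the function
  let ψ : ℝ → ℝ := fun y => log (1 + y + q) - Kf a c g h y
  have hψd : ∀ y, 0 ≤ y → D * y ≤ a → HasDerivAt ψ
      ((y * (c + q * D) - q * a) / (a * (1 + y + q) *
        ((1 + y * ((xp a c g h - h) / a)) * (1 + y * ((xm a c g h - h) / a))))) y := by
    intro y hy hya
    have hq1 : 0 < 1 + y + q := by linarith
    have hlog : HasDerivAt (fun z : ℝ => log (1 + z + q)) (1 / (1 + y + q)) y := by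
      have : HasDerivAt (fun z : ℝ => 1 + z + q) 1 y := by
        simpa using ((hasDerivAt_id y).const_add 1).add_const q
      exact this.log hq1.ne'
    refine (hlog.fun_sub (hasDerivAt_Kf hgh ha hc hy hya)).congr_deriv ?_
    exact deriv_identity ha (wp_add_wm ha hc) (w_d_rel ha hc) (dp_dm_rel ha hc)
      (dp_add_dm_rel ha) (one_add_dp_pos ha hc hy) (one_add_dm_pos hgh ha hc hy hya) hq1
  have hden2 : ∀ y, 0 ≤ y → D * y ≤ a → 0 < a * (1 + y + q) *
      ((1 + y * ((xp a c g h - h) / a)) * (1 + y * ((xm a c g h - h) / a))) := by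
    intro y hy hya
    have hq1 : 0 < 1 + y + q := by linarith
    have h1 := one_add_dp_pos (g := g) (h := h) ha hc hy
    have h2 := one_add_dm_pos hgh ha hc hy hya
    positivity
  have hthr : ∀ y, ps ≤ y → q * a ≤ y * (c + q * D) := by
    intro y hy
    have : ps * (c + q * D) = q * a := by
      rw [hps]; field_simp
    nlinarith
  have hthr2 : ∀ y, y ≤ ps → y * (c + q * D) ≤ q * a := by
    intro y hy
    have : ps * (c + q * D) = q * a := by
      rw [hps]; field_simp
    nlinarith
  have hmain : ψ ps ≤ ψ p := by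
    rcases le_total ps p with hle | hle
    · -- monotone on `[ps, p]`
      have hreg : ∀ y ∈ Set.Icc ps p, 0 ≤ y ∧ D * y ≤ a := by
        intro y hy
        refine ⟨hps0.trans hy.1, ?_⟩
        exact (mul_le_mul_of_nonneg_left hy.2 hD0).trans hpa
      have hm : MonotoneOn ψ (Set.Icc ps p) := by
        apply monotoneOn_of_deriv_nonneg (convex_Icc _ _)
        · intro y hy
          exact (hψd y (hreg y hy).1 (hreg y hy).2).continuousAt.continuousWithinAt
        · intro y hy
          have hy' := interior_subset hy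
          exact (hψd y (hreg y hy').1 (hreg y hy').2).differentiableAt.differentiableWithinAt
        · intro y hy
          have hy' := interior_subset hy
          rw [(hψd y (hreg y hy').1 (hreg y hy').2).deriv]
          apply div_nonneg _ (hden2 y (hreg y hy').1 (hreg y hy').2).le
          have := hthr y hy'.1
          linarith
      exact hm (Set.left_mem_Icc.mpr hle) (Set.right_mem_Icc.mpr hle) hle
    · have hreg : ∀ y ∈ Set.Icc p ps, 0 ≤ y ∧ D * y ≤ a := by
        intro y hy
        refine ⟨hp.trans hy.1, ?_⟩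
        exact (mul_le_mul_of_nonneg_left hy.2 hD0).trans hpsa
      have hm : AntitoneOn ψ (Set.Icc p ps) := by
        apply antitoneOn_of_deriv_nonpos (convex_Icc _ _)
        · intro y hy
          exact (hψd y (hreg y hy).1 (hreg y hy).2).continuousAt.continuousWithinAt
        · intro y hy
          have hy' := interior_subset hy
          exact (hψd y (hreg y hy').1 (hreg y hy').2).differentiableAt.differentiableWithinAt
        · intro y hy
          have hy' := interior_subset hy
          rw [(hψd y (hreg y hy').1 (hreg y hy').2).deriv]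
          apply div_nonpos_of_nonpos_of_nonneg _ (hden2 y (hreg y hy').1 (hreg y hy').2).le
          have := hthr2 y hy'.2
          linarith
      exact hm (Set.left_mem_Icc.mpr hle) (Set.right_mem_Icc.mpr hle) hle
  have h1 : lfun a c g h q = ψ ps := by
    simp only [ψ]; linarith
  have h2 : ψ p = log (1 + p + q) - Kf a c g h p := rfl
  linarith

/-- **Decoupling inequality.** -/
theorem dec (hgh : g ≤ h) (ha : 0 < a) (hc : 0 < c) {p q : ℝ} (hp : 0 ≤ p) (hq : 0 ≤ q) :
    kfun a c g h p + lfun a c g h q ≤ log (1 + p + q) := by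
  unfold kfun
  split_ifs with hpa
  · exact main_ineq hgh ha hc hp hq hpa
  · push Not at hpa
    have hDpos : 0 < h - g := by
      by_contra hcon
      push Not at hcon
      have : (h - g) * p ≤ 0 := mul_nonpos_of_nonpos_of_nonneg hcon hp
      linarith
    have h1 : (h - g) * (a / (h - g)) ≤ a := by
      rw [mul_div_cancel₀ _ hDpos.ne']
    have h0 : 0 ≤ a / (h - g) := by positivity
    have h2 := main_ineq hgh ha hc h0 hq h1
    have h3 : a / (h - g) < p := by
      rw [div_lt_iff₀ hDpos]; linarith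
    have h4 : log (1 + a / (h - g) + q) ≤ log (1 + p + q) :=
      Real.log_le_log (by linarith) (by linarith)
    linarith

/-- **Equality on the scalar curve.** -/
theorem curve (hgh : g ≤ h) (hg : 0 ≤ g) (ha : 0 < a) (hc : 0 < c) {s : ℝ} (hs : 0 < s) :
    kfun a c g h (a / (s + h)) + lfun a c g h (c / (s + g)) =
      log (1 + a / (s + h) + c / (s + g)) := by
  have hsg : 0 < s + g := by linarith
  have hsh : 0 < s + h := by linarith
  have : (h - g) * (a / (s + h)) ≤ a := by
    have : (h - g) * (a / (s + h)) = ((h - g) / (s + h)) * a := by ring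
    rw [this]
    have h1 : (h - g) / (s + h) ≤ 1 := by
      rw [div_le_one hsh]; linarith
    nlinarith
  unfold kfun
  rw [if_pos this]
  exact curve_gen hgh ha hc hsg

theorem kfun_zero (a c g h : ℝ) (ha : 0 < a) : kfun a c g h 0 = 0 := by
  unfold kfun
  simp [ha.le, Kf_zero]

/-- `Kf` is monotone on its analytic range -/
lemma Kf_mono (hgh : g ≤ h) (ha : 0 < a) (hc : 0 < c) {x y : ℝ} (hx : 0 ≤ x) (hxy : x ≤ y)
    (hya : (h - g) * y ≤ a) : Kf a c g h x ≤ Kf a c g h y := by
  have hD0 : 0 ≤ h - g := by linarith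
  have hreg : ∀ z ∈ Set.Icc x y, 0 ≤ z ∧ (h - g) * z ≤ a := by
    intro z hz
    exact ⟨hx.trans hz.1, (mul_le_mul_of_nonneg_left hz.2 hD0).trans hya⟩
  have hm : MonotoneOn (Kf a c g h) (Set.Icc x y) := by
    apply monotoneOn_of_deriv_nonneg (convex_Icc _ _)
    · intro z hz
      exact (hasDerivAt_Kf hgh ha hc (hreg z hz).1 (hreg z hz).2).continuousAt.continuousWithinAt
    · intro z hz
      have hz' := interior_subset hz
      exact (hasDerivAt_Kf hgh ha hc (hreg z hz').1
        (hreg z hz').2).differentiableAt.differentiableWithinAt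
    · intro z hz
      have hz' := interior_subset hz
      rw [(hasDerivAt_Kf hgh ha hc (hreg z hz').1 (hreg z hz').2).deriv,
        Kf_deriv_eq hgh ha hc (hreg z hz').1 (hreg z hz').2]
      apply div_nonneg
      · linarith [(hreg z hz').2]
      · have h1 := one_add_dp_pos (g := g) (h := h) ha hc (hreg z hz').1
        have h2 := one_add_dm_pos hgh ha hc (hreg z hz').1 (hreg z hz').2
        positivity
  exact hm (Set.left_mem_Icc.mpr hxy) (Set.right_mem_Icc.mpr hxy) hxy

/-- `kfun` is monotone on `[0,∞)`. -/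
theorem kfun_mono (hgh : g ≤ h) (ha : 0 < a) (hc : 0 < c) {x y : ℝ} (hx : 0 ≤ x) (hxy : x ≤ y) :
    kfun a c g h x ≤ kfun a c g h y := by
  unfold kfun
  have hD0 : 0 ≤ h - g := by linarith
  by_cases hy : (h - g) * y ≤ a
  · have hx' : (h - g) * x ≤ a := (mul_le_mul_of_nonneg_left hxy hD0).trans hy
    rw [if_pos hx', if_pos hy]
    exact Kf_mono hgh ha hc hx hxy hy
  · rw [if_neg hy]
    push Not at hy
    have hDpos : 0 < h - g := by
      by_contra hcon
      push Not at hcon
      have : (h - g) * y ≤ 0 := mul_nonpos_of_nonpos_of_nonneg hcon (hx.trans hxy)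
      linarith
    by_cases hx' : (h - g) * x ≤ a
    · rw [if_pos hx']
      apply Kf_mono hgh ha hc hx _ (by rw [mul_div_cancel₀ _ hDpos.ne'])
      rw [le_div_iff₀ hDpos]; linarith
    · rw [if_neg hx']

/-- the slope of `kfun` at zero is one: quantitative form. -/
theorem kfun_slope (hgh : g ≤ h) (ha : 0 < a) (hc : 0 < c) {ε : ℝ} (hε : 0 < ε) :
    ∃ δ > 0, ∀ y, 0 ≤ y → y ≤ δ → (1 - ε) * y ≤ kfun a c g h y := by
  have hd0 : HasDerivAt (Kf a c g h) 1 0 := by
    have := hasDerivAt_Kf (y := 0) hgh ha hc le_rfl (by simpa using ha.le)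
    simpa [w_d_rel ha hc] using this
  have hs := hd0.hasDerivWithinAt (s := Set.Ici 0)
  have hlim := (hasDerivWithinAt_iff_isLittleO.mp hs)
  rw [Asymptotics.isLittleO_iff] at hlim
  have h1 := hlim hε
  rw [Filter.eventually_iff_exists_mem] at h1
  obtain ⟨S, hS, hS2⟩ := h1
  rcases Metric.mem_nhdsWithin_iff.mp hS with ⟨r, hr, hrS⟩
  have hD0 : 0 ≤ h - g := by linarith
  refine ⟨min (r / 2) (a / (h - g + 1)), lt_min (by positivity) (by positivity), ?_⟩
  intro y hy hyδ
  have hyr : y ≤ r / 2 := hyδ.trans (min_le_left _ _)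
  have hya : (h - g) * y ≤ a := by
    have hy2 : y ≤ a / (h - g + 1) := hyδ.trans (min_le_right _ _)
    rw [le_div_iff₀ (by linarith)] at hy2
    nlinarith
  have hk : kfun a c g h y = Kf a c g h y := by
    unfold kfun; rw [if_pos hya]
  rw [hk]
  have hmem : y ∈ Metric.ball (0:ℝ) r ∩ Set.Ici 0 := by
    refine ⟨?_, hy⟩
    rw [Metric.mem_ball, Real.dist_eq, sub_zero, abs_of_nonneg hy]
    linarith
  have := hS2 y (hrS hmem)
  simp only [Kf_zero, sub_zero, smul_eq_mul, mul_one, Real.norm_eq_abs, abs_of_nonneg hy] at this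
  have h3 := (abs_le.mp this).1
  linarith

/-- data for the easy row: slopes are nonnegative -/
theorem ep_nonneg (hgh : g ≤ h) (ha : 0 < a) (hc : 0 < c) : 0 ≤ (xp a c g h - g) / c := by
  have := xp_gt_g hgh ha hc
  exact div_nonneg (by linarith) hc.le

theorem em_nonneg (hgh : g ≤ h) (ha : 0 < a) (hc : 0 < c) : 0 ≤ (xm a c g h - g) / c := by
  have := xm_ge hgh ha hc
  exact div_nonneg (by linarith) hc.le

/-- data for the easy row: the mean slope is one -/
theorem easy_mean (ha : 0 < a) (hc : 0 < c) :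
    wm a c g h * ((xp a c g h - g) / c) + wp a c g h * ((xm a c g h - g) / c) = 1 := by
  have h0 := w_mean1 (g := g) (h := h) ha hc
  have hw := wp_add_wm (g := g) (h := h) ha hc
  have e : wm a c g h * ((xp a c g h - g) / c) + wp a c g h * ((xm a c g h - g) / c) =
      ((wm a c g h * xp a c g h + wp a c g h * xm a c g h) - g * (wp a c g h + wm a c g h)) / c := by
    ring
  rw [e, h0, hw]
  field_simp
  ring

end main

end

end Vale.Agent.P358G
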