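import Mathlib
import Vale.Agent.P358G.Abel
import Vale.Agent.P358G.LevelLimit

/-!
The scalar antiderivative `W` of `Ψ = log (1 + p + q) - e p - e q`, its limit at infinity, and the
resulting bound for Riemann sums of an antitone `Ψ`.
-/

namespace Vale.Agent.P358G
open Filter Topology Finset BigOperators Vale.Agent.P358A

noncomputable section

/-- The scalar antiderivative. -/
def Wfun (xp xm h g k a c s : ℝ) : ℝ :=
  anti xp s + anti xm s - anti h s - anti g s - (1 / k) * (anti (h + k * a) s - anti h s)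
    - (1 / k) * (anti (g + k * c) s - anti g s)

/-- Its derivative. -/
def PsiF (xp xm h g k a c s : ℝ) : ℝ :=
  Real.log (1 + xp / s) + Real.log (1 + xm / s) - Real.log (1 + h / s) - Real.log (1 + g / s)
    - (1 / k) * (Real.log (1 + (h + k * a) / s) - Real.log (1 + h / s))
    - (1 / k) * (Real.log (1 + (g + k * c) / s) - Real.log (1 + g / s))

variable {xp xm h g k a c : ℝ}

theorem hasDerivAt_Wfun (hxp : 0 ≤ xp) (hxm : 0 ≤ xm) (hh : 0 ≤ h) (hg : 0 ≤ g) (hk : 0 < k)
    (ha : 0 ≤ a) (hc : 0 ≤ c) {s : ℝ} (hs : 0 < s) :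
    HasDerivAt (Wfun xp xm h g k a c) (PsiF xp xm h g k a c s) s := by
  have h1 := hasDerivAt_anti hxp hs
  have h2 := hasDerivAt_anti hxm hs
  have h3 := hasDerivAt_anti hh hs
  have h4 := hasDerivAt_anti hg hs
  have h5 := hasDerivAt_anti (l := h + k * a) (by positivity) hs
  have h6 := hasDerivAt_anti (l := g + k * c) (by positivity) hs
  have := ((((h1.add h2).sub h3).sub h4).sub ((h5.sub h3).const_mul (1 / k))).sub
    ((h6.sub h4).const_mul (1 / k))
  exact this

/-- `W` tends to `0` at infinity (total weight zero). -/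
theorem tendsto_Wfun_top (hxp : 0 ≤ xp) (hxm : 0 ≤ xm) (hh : 0 ≤ h) (hg : 0 ≤ g) (hk : 0 < k)
    (ha : 0 ≤ a) (hc : 0 ≤ c) (hsum : xp + xm = h + a + g + c) :
    Tendsto (Wfun xp xm h g k a c) atTop (𝓝 0) := by
  have hw := tendsto_sum_anti_top
    (![1, 1, -(1 - 1 / k) , -(1 - 1 / k), -(1 / k), -(1 / k)] : Fin 6 → ℝ)
    (![xp, xm, h, g, h + k * a, g + k * c] : Fin 6 → ℝ)
    (by
      intro i
      fin_cases i <;> simp <;> first | assumption | positivity)
    (by
      simp only [Fin.sum_univ_six]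
      simp
      field_simp
      linear_combination hsum * k)
  refine hw.congr fun s => ?_
  simp only [Fin.sum_univ_six, Wfun]
  simp
  ring


lemma log_one_add_div_sub {l l' s : ℝ} (hl : 0 ≤ l) (hl' : 0 ≤ l') (hs : 0 < s) :
    Real.log (1 + l / s) - Real.log (1 + l' / s) = Real.log ((s + l) / (s + l')) := by
  have h1 : 1 + l / s = (s + l) / s := by field_simp
  have h2 : 1 + l' / s = (s + l') / s := by field_simp
  have h3 : s + l ≠ 0 := by positivity
  have h4 : s + l' ≠ 0 := by positivity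
  rw [h1, h2, Real.log_div h3 hs.ne', Real.log_div h4 hs.ne', Real.log_div h3 h4]
  ring

/-- `Ψ` in terms of the scalar curve. -/
theorem PsiF_eq (hxp : 0 ≤ xp) (hxm : 0 ≤ xm) (hh : 0 ≤ h) (hg : 0 ≤ g) (hk : 0 < k)
    (ha : 0 ≤ a) (hc : 0 ≤ c) (hsum : xp + xm = h + a + g + c)
    (hprod : xp * xm = (h + a) * (g + c) - a * c) {s : ℝ} (hs : 0 < s) :
    PsiF xp xm h g k a c s = Real.log (1 + a / (s + h) + c / (s + g))
      - (1 / k) * Real.log (1 + k * (a / (s + h))) - (1 / k) * Real.log (1 + k * (c / (s + g))) := by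
  have hsh : 0 < s + h := by positivity
  have hsg : 0 < s + g := by positivity
  have hsp : 0 < s + xp := by positivity
  have hsm : 0 < s + xm := by positivity
  have e1 : 1 + k * (a / (s + h)) = (s + (h + k * a)) / (s + h) := by
    field_simp
    ring
  have e2 : 1 + k * (c / (s + g)) = (s + (g + k * c)) / (s + g) := by
    field_simp
    ring
  have e3 : 1 + a / (s + h) + c / (s + g) = ((s + xp) / (s + h)) * ((s + xm) / (s + g)) := by
    field_simp
    have : (s + xp) * (s + xm) = s ^ 2 + s * (xp + xm) + xp * xm := by ring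
    rw [this, hsum, hprod]
    ring
  unfold PsiF
  rw [log_one_add_div_sub (l := h + k * a) (by positivity) hh hs,
    log_one_add_div_sub (l := g + k * c) (by positivity) hg hs, e1, e2, e3,
    Real.log_mul (by positivity) (by positivity),
    ← log_one_add_div_sub hxp hh hs, ← log_one_add_div_sub hxm hg hs]
  ring

/-- Riemann sums of an antitone `Ψ`: the limit in `L`. -/
theorem neg_Wfun_le_of_riemann (hxp : 0 ≤ xp) (hxm : 0 ≤ xm) (hh : 0 ≤ h) (hg : 0 ≤ g)
    (hk : 0 < k) (ha : 0 ≤ a) (hc : 0 ≤ c) (hsum : xp + xm = h + a + g + c) {δ X : ℝ} (hδ : 0 < δ)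
    (hanti : AntitoneOn (PsiF xp xm h g k a c) (Set.Ici δ))
    (hX : ∀ L : ℕ, δ * ∑ n ∈ Finset.range L, PsiF xp xm h g k a c (((n : ℝ) + 1) * δ) ≤ X) :
    -Wfun xp xm h g k a c δ ≤ X := by
  have hlim : Tendsto (fun L : ℕ => Wfun xp xm h g k a c (((L : ℝ) + 1) * δ) - Wfun xp xm h g k a c δ)
      atTop (𝓝 (0 - Wfun xp xm h g k a c δ)) := by
    refine Tendsto.sub_const ?_ _
    refine (tendsto_Wfun_top hxp hxm hh hg hk ha hc hsum).comp ?_
    refine Tendsto.atTop_mul_const hδ ?_
    exact tendsto_atTop_add_const_right _ _ tendsto_natCast_atTop_atTop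
  have hb : ∀ L : ℕ, Wfun xp xm h g k a c (((L : ℝ) + 1) * δ) - Wfun xp xm h g k a c δ ≤ X := by
    intro L
    refine le_trans ?_ (hX L)
    exact sub_le_riemann_of_antitone hδ
      (fun x hx => hasDerivAt_Wfun hxp hxm hh hg hk ha hc (lt_of_lt_of_le hδ hx)) hanti L
  have := le_of_tendsto hlim (Eventually.of_forall hb)
  simpa using this

end

end Vale.Agent.P358G
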